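import Vale.Agent.P267J.D

/-! The Duhamel estimate. For a finset F let b σ : EuclideanSpace ℂ F have entries exp (- lam j (s ^ 2 - σ ^ 2)) a j σ; its derivative has entries exp (..) 2 σ (ρ j σ), norm ≤ 2 C s ^ 2 on (0, s]; Convex.norm_image_sub_le_of_norm_hasDerivWithin_le on Icc ε s, ε → 0: du_fin. Then with A = a · s, B = exp (..) a0 in EuclideanSpace ℂ F: ‖B‖ ≤ ‖A‖ + e, ‖A‖ ≤ ‖B‖ + e, ‖A‖ ≤ sqrt Q ≤ D / s ^ 2, e = 2 C s ^ 3; summable_of_sum_le, and pass to the limit along finsets: |‖A‖ ^ 2 - ‖B‖ ^ 2| ≤ e (2 D / s ^ 2 + e). -/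

open MeasureTheory Filter Topology Metric Finset
open scoped ContDiff ComplexConjugate

noncomputable section

namespace Vale.Agent.P267J

variable {N : ℕ} {M r s : ℝ} {Y : Type} {χ : V → ℂ} {o : Op N} {ξ : Fin N → ℂ}

theorem du_cs {J : Type} (F : Finset J) (f g : J → ℝ) {x y : ℝ} (hx : 0 ≤ x) (hy : 0 ≤ y)
    (h1 : ∑ j ∈ F, f j ^ 2 ≤ x ^ 2) (h2 : ∑ j ∈ F, g j ^ 2 ≤ y ^ 2) :
    ∑ j ∈ F, f j * g j ≤ x * y := by
  refine (abs_le_of_sq_le_sq' ?_ (mul_nonneg hx hy)).2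
  refine (Finset.sum_mul_sq_le_sq_mul_sq F f g).trans ?_
  rw [mul_pow]
  exact mul_le_mul h1 h2 (sum_nonneg fun _ _ => sq_nonneg _) (sq_nonneg _)

theorem du_fin {J : Type} (F : Finset J) {lam : J → ℝ} (hl : ∀ j, 0 ≤ lam j)
    {a ρ : J → ℝ → ℂ} {a0 : J → ℂ} {C : ℝ} (hC : 0 ≤ C) (hs : s ∈ Set.Ioc (0 : ℝ) 1)
    (hd : ∀ j, ∀ σ ∈ Set.Ioc (0 : ℝ) 1, HasDerivAt (a j) (2 * σ * (ρ j σ - lam j * a j σ)) σ)
    (h0 : ∀ j, Tendsto (a j) (𝓝[>] 0) (𝓝 (a0 j)))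
    (hρ : ∀ σ ∈ Set.Ioc (0 : ℝ) 1, ∑ j ∈ F, ‖ρ j σ‖ ^ 2 ≤ (C * σ) ^ 2) :
    ∑ j ∈ F, ‖a j s - Real.exp (-(lam j * s ^ 2)) * a0 j‖ ^ 2 ≤ (2 * C * s ^ 3) ^ 2 := by
  set d : J → ℂ := fun j => a j s - Real.exp (-(lam j * s ^ 2)) * a0 j with hdd
  set S : ℝ := ∑ j ∈ F, ‖d j‖ ^ 2 with hS
  have hS0 : 0 ≤ S := sum_nonneg fun _ _ => sq_nonneg _
  have hsq : √S ^ 2 = S := Real.sq_sqrt hS0
  let E : J → ℝ → ℝ := fun j σ => Real.exp (-(lam j * (s ^ 2 - σ ^ 2)))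
  have hE : ∀ j σ, HasDerivAt (fun σ => (E j σ : ℂ)) ((E j σ * (lam j * (2 * σ)) : ℝ) : ℂ) σ := by
    intro j σ
    refine HasDerivAt.ofReal_comp ?_
    have h1 : HasDerivAt (fun σ : ℝ => -(lam j * (s ^ 2 - σ ^ 2))) (lam j * (2 * σ)) σ := by
      have h2 := (((hasDerivAt_pow 2 σ).const_sub (s ^ 2)).const_mul (lam j)).neg
      refine h2.congr_deriv ?_
      simp
    exact h1.exp
  let g : ℝ → ℂ := fun σ => ∑ j ∈ F, conj (d j) * ((E j σ : ℂ) * a j σ)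
  let g' : ℝ → ℂ := fun σ => ∑ j ∈ F, conj (d j) * ((E j σ : ℂ) * (2 * σ * ρ j σ))
  have hg : ∀ σ ∈ Set.Ioc (0 : ℝ) s, HasDerivWithinAt g (g' σ) (Set.Ioc 0 s) σ := by
    intro σ hσ
    refine HasDerivAt.hasDerivWithinAt (HasDerivAt.fun_sum fun j _ => HasDerivAt.const_mul _ ?_)
    refine ((hE j σ).mul (hd j σ ⟨hσ.1, hσ.2.trans hs.2⟩)).congr_deriv ?_
    push_cast
    ring
  have hb : ∀ σ ∈ Set.Ioc (0 : ℝ) s, ‖g' σ‖ ≤ √S * (2 * C * s ^ 2) := by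
    intro σ hσ
    have h1 := du_cs F (fun j => ‖d j‖) (fun j => ‖ρ j σ‖) (Real.sqrt_nonneg S)
      (mul_nonneg hC hσ.1.le) hsq.ge (hρ σ ⟨hσ.1, hσ.2.trans hs.2⟩)
    have h2 : ‖g' σ‖ ≤ ∑ j ∈ F, 2 * σ * (‖d j‖ * ‖ρ j σ‖) := by
      refine (norm_sum_le _ _).trans (sum_le_sum fun j _ => ?_)
      have h3 : E j σ ≤ 1 := by
        refine Real.exp_le_one_iff.2 ?_
        have h4 : σ ^ 2 ≤ s ^ 2 := pow_le_pow_left₀ hσ.1.le hσ.2 2
        have h5 := mul_nonneg (hl j) (sub_nonneg.2 h4)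
        linarith
      have h4 : 0 ≤ E j σ := (Real.exp_pos _).le
      rw [norm_mul, norm_mul, norm_mul, norm_mul, Complex.norm_conj, Complex.norm_real,
        Complex.norm_real, Real.norm_of_nonneg h4, Real.norm_of_nonneg hσ.1.le, Complex.norm_two]
      have h5 : 0 ≤ 2 * σ * (‖d j‖ * ‖ρ j σ‖) := by
        have := hσ.1.le
        positivity
      nlinarith
    rw [← mul_sum] at h2
    have h6 : σ ^ 2 ≤ s ^ 2 := pow_le_pow_left₀ hσ.1.le hσ.2 2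
    have h7 := mul_le_mul_of_nonneg_left h1 (mul_nonneg zero_le_two hσ.1.le)
    have h8 := mul_le_mul_of_nonneg_left h6 (mul_nonneg (Real.sqrt_nonneg S) hC)
    nlinarith
  have hK : 0 ≤ √S * (2 * C * s ^ 2) := by positivity
  have hm : ∀ᶠ ε in 𝓝[>] (0 : ℝ), ‖g s - g ε‖ ≤ √S * (2 * C * s ^ 2) * s := by
    filter_upwards [Ioc_mem_nhdsGT hs.1] with ε hε
    refine ((convex_Ioc 0 s).norm_image_sub_le_of_norm_hasDerivWithin_le hg hb hε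
      ⟨hs.1, le_rfl⟩).trans (mul_le_mul_of_nonneg_left ?_ hK)
    rw [Real.norm_of_nonneg (sub_nonneg.2 hε.2)]
    linarith [hε.1]
  have ht : Tendsto g (𝓝[>] 0) (𝓝 (∑ j ∈ F, conj (d j) * ((E j 0 : ℂ) * a0 j))) :=
    tendsto_finset_sum _ fun j _ => Tendsto.const_mul _
      (((hE j 0).continuousAt.tendsto.mono_left nhdsWithin_le_nhds).mul (h0 j))
  have h9 := le_of_tendsto (ht.const_sub (g s)).norm hm
  have e : g s - ∑ j ∈ F, conj (d j) * ((E j 0 : ℂ) * a0 j) = (S : ℂ) := by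
    rw [hS, ← sum_sub_distrib]
    push_cast
    refine sum_congr rfl fun j _ => ?_
    rw [← mul_sub, ← Complex.conj_mul']
    simp [E, hdd]
  rw [e, Complex.norm_real, Real.norm_of_nonneg hS0] at h9
  have h10 : 0 ≤ 2 * C * s ^ 3 := by
    have := hs.1.le
    positivity
  have h11 : √S ≤ 2 * C * s ^ 3 := by
    by_contra hn
    have h12 := not_le.1 hn
    have h13 : 0 < √S := h10.trans_lt h12
    nlinarith
  rw [← hsq]
  exact pow_le_pow_left₀ (Real.sqrt_nonneg S) h11 2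

theorem duhamel {J : Type} {lam : J → ℝ} {a a0 : J → ℂ} {C D Q : ℝ} (hC : 0 ≤ C) (hD : 0 ≤ D)
    (hs : s ∈ Set.Ioc (0 : ℝ) 1) (hQ : HasSum (fun j => ‖a j‖ ^ 2) Q) (hQ' : Q ≤ (D / s ^ 2) ^ 2)
    (h : ∀ F : Finset J,
      ∑ j ∈ F, ‖a j - Real.exp (-(lam j * s ^ 2)) * a0 j‖ ^ 2 ≤ (2 * C * s ^ 3) ^ 2) :
    Summable (fun j => Real.exp (-(2 * s ^ 2 * lam j)) * ‖a0 j‖ ^ 2) ∧
      |∑' j, Real.exp (-(2 * s ^ 2 * lam j)) * ‖a0 j‖ ^ 2 - Q| ≤ (4 * C * D + 4 * C ^ 2) * s := by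
  have hs0 := hs.1
  have he : 0 ≤ 2 * C * s ^ 3 := by positivity
  have hR : 0 ≤ D / s ^ 2 := by positivity
  have hA : ∀ F : Finset J, ∑ j ∈ F, ‖a j‖ ^ 2 ≤ Q := fun F =>
    sum_le_hasSum F (fun _ _ => sq_nonneg _) hQ
  have hB : ∀ j, Real.exp (-(2 * s ^ 2 * lam j)) * ‖a0 j‖ ^ 2 =
      ‖(Real.exp (-(lam j * s ^ 2)) : ℂ) * a0 j‖ ^ 2 := fun j => by
    rw [norm_mul, Complex.norm_real, Real.norm_of_nonneg (Real.exp_pos _).le, mul_pow,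
      ← Real.exp_nat_mul]
    congr 2
    push_cast
    ring
  have key : ∀ F : Finset J, |∑ j ∈ F, (Real.exp (-(2 * s ^ 2 * lam j)) * ‖a0 j‖ ^ 2 - ‖a j‖ ^ 2)| ≤
      (4 * C * D + 4 * C ^ 2) * s := by
    intro F
    have h1 := du_cs F (fun j => ‖a j - Real.exp (-(lam j * s ^ 2)) * a0 j‖) (fun j => ‖a j‖) he hR
      (h F) ((hA F).trans hQ')
    have h2 : |∑ j ∈ F, (Real.exp (-(2 * s ^ 2 * lam j)) * ‖a0 j‖ ^ 2 - ‖a j‖ ^ 2)| ≤
        ∑ j ∈ F, (2 * (‖a j - Real.exp (-(lam j * s ^ 2)) * a0 j‖ * ‖a j‖) +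
          ‖a j - Real.exp (-(lam j * s ^ 2)) * a0 j‖ ^ 2) := by
      refine (abs_sum_le_sum_abs _ _).trans (sum_le_sum fun j _ => ?_)
      rw [hB]
      generalize (Real.exp (-(lam j * s ^ 2)) : ℂ) * a0 j = y
      have h3 := abs_le.1 (abs_norm_sub_norm_le (a j) y)
      have h4 := norm_nonneg (a j)
      have h5 := norm_nonneg y
      have h6 := norm_nonneg (a j - y)
      rw [abs_le]
      constructor <;> nlinarith
    rw [sum_add_distrib, ← mul_sum] at h2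
    have h3 : 2 * C * s ^ 3 * (D / s ^ 2) = 2 * C * D * s := by field_simp
    have h4 : s ^ 6 ≤ s := pow_le_of_le_one hs0.le hs.2 (by norm_num)
    have h5 := mul_le_mul_of_nonneg_left h4 (sq_nonneg C)
    have h6 := h F
    nlinarith
  have hsum : Summable fun j => Real.exp (-(2 * s ^ 2 * lam j)) * ‖a0 j‖ ^ 2 := by
    refine summable_of_sum_le (c := Q + (4 * C * D + 4 * C ^ 2) * s) (fun j => by positivity)
      fun F => ?_
    have h1 := (abs_le.1 (key F)).2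
    rw [sum_sub_distrib] at h1
    linarith [hA F]
  exact ⟨hsum, le_of_tendsto' (Tendsto.abs (hsum.hasSum.sub hQ)) key⟩

end Vale.Agent.P267J
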