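import Vale.Agent.P267J.W

/-! Test sections. exists_cut: ContDiffBump with rIn = r / 2, rOut = 3 r / 4, composed with ofReal. A product g * v with g smooth on the ball and v smooth with tsupport in the ball is smooth (contDiff_of_tsupport, or: at a point outside tsupport v the product is eventually zero). tsupport (pd i v) ⊆ tsupport v (support_fderiv_subset). -/

open MeasureTheory Filter Topology Metric Finset
open scoped ContDiff ComplexConjugate

noncomputable section

namespace Vale.Agent.P267J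

variable {N : ℕ} {M r s : ℝ} {Y : Type} {χ : V → ℂ} {o : Op N} {ξ : Fin N → ℂ}

/-- Scalar test functions. -/
def ts_S (r : ℝ) (f : V → ℂ) : Prop :=
  ContDiff ℝ ∞ f ∧ HasCompactSupport f ∧ tsupport f ⊆ ball 0 r

theorem ts_zero : ts_S r fun _ => 0 :=
  ⟨contDiff_const, HasCompactSupport.zero, by
    rw [show (fun _ : V => (0 : ℂ)) = 0 from rfl, tsupport_zero]
    exact Set.empty_subset _⟩

theorem ts_add {f g : V → ℂ} (hf : ts_S r f) (hg : ts_S r g) : ts_S r fun z => f z + g z :=
  ⟨hf.1.add hg.1, hf.2.1.add hg.2.1, (tsupport_add f g).trans (Set.union_subset hf.2.2 hg.2.2)⟩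

theorem ts_mul {f g : V → ℂ} (hg : ContDiffOn ℝ ∞ g (ball 0 r)) (hf : ts_S r f) :
    ts_S r fun z => g z * f z := by
  refine ⟨contDiff_iff_contDiffAt.2 fun z => ?_, hf.2.1.mul_left,
    tsupport_mul_subset_right.trans hf.2.2⟩
  by_cases hz : z ∈ tsupport f
  · exact (hg.contDiffAt (isOpen_ball.mem_nhds (hf.2.2 hz))).mul hf.1.contDiffAt
  · refine (contDiffAt_const (c := (0 : ℂ))).congr_of_eventuallyEq ?_
    filter_upwards [notMem_tsupport_iff_eventuallyEq.1 hz] with w hw
    rw [hw, Pi.zero_apply, mul_zero]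

theorem ts_neg {f : V → ℂ} (hf : ts_S r f) : ts_S r fun z => -f z := by
  simpa only [neg_one_mul] using ts_mul (g := fun _ => -1) contDiffOn_const hf

theorem ts_sum {I : Type} (t : Finset I) {f : I → V → ℂ} (hf : ∀ i, ts_S r (f i)) :
    ts_S r fun z => ∑ i ∈ t, f i z := by
  classical
  induction t using Finset.induction_on with
  | empty => simpa only [Finset.sum_empty] using ts_zero
  | insert a t ha ih => simpa only [Finset.sum_insert ha] using ts_add (hf a) ih

theorem ts_pd {f : V → ℂ} (hf : ts_S r f) (i : Fin 4) : ts_S r (pd i f) :=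
  ⟨(hf.1.fderiv_right (m := ∞) (by simp)).clm_apply contDiff_const, hf.2.1.fderiv_apply ℝ _,
    (tsupport_fderiv_apply_subset ℝ _).trans hf.2.2⟩

theorem exists_cut (hr : 0 < r) : ∃ χ, Cut r χ := by
  let b : ContDiffBump (0 : V) := ⟨r / 2, 3 * r / 4, by positivity, by linarith⟩
  have h : tsupport (fun z => (b z : ℂ)) ⊆ closedBall 0 (3 * r / 4) :=
    (tsupport_comp_subset (g := fun x : ℝ => (x : ℂ)) rfl b).trans b.tsupport_eq.subset
  refine ⟨fun z => (b z : ℂ), Complex.ofRealCLM.contDiff.comp b.contDiff,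
    (isCompact_closedBall _ _).of_isClosed_subset (isClosed_tsupport _) h,
    h.trans (closedBall_subset_ball (by linarith)), fun z hz => ?_, fun z => ?_⟩
  · rw [b.one_of_mem_closedBall (ball_subset_closedBall hz), Complex.ofReal_one]
  · rw [Complex.norm_real, Real.norm_of_nonneg b.nonneg]
    exact b.le_one

theorem tst_mul (hχ : Cut r χ) {v : Fin N → V → ℂ} (hv : ∀ i, ContDiff ℝ ∞ (v i)) :
    Tst r fun i z => χ z * v i z := by
  exact fun i => ⟨hχ.smooth.mul (hv i), hχ.cpt.mul_right, tsupport_mul_subset_left.trans hχ.sub⟩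

theorem Tst.add {v w : Fin N → V → ℂ} (hv : Tst r v) (hw : Tst r w) :
    Tst r fun i z => v i z + w i z := by
  exact fun i => ts_add (hv i) (hw i)

theorem Tst.app (ho : Bnd M r o) {v : Fin N → V → ℂ} (hv : Tst r v) : Tst r (o.app v) := by
  exact fun i => ts_add (ts_add
    (ts_neg (ts_sum _ fun j => ts_sum _ fun k => ts_mul (ho.a j k).1 (ts_pd (ts_pd (hv i) k) j)))
    (ts_sum _ fun j => ts_sum _ fun m => ts_mul (ho.b j i m).1 (ts_pd (hv m) j)))
    (ts_sum _ fun m => ts_mul (ho.c i m).1 (hv m))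

theorem tst_uc (hχ : Cut r χ) : Tst r (uc χ o ξ s) := by
  exact tst_mul hχ Us_smooth

theorem tst_ut (hχ : Cut r χ) : Tst r (ut χ o ξ s) := by
  exact tst_mul hχ Ut_smooth

theorem tst_Rs (hχ : Cut r χ) (ho : Bnd M r o) : Tst r (Rs χ o ξ s) := by
  exact (tst_ut hχ).add ((tst_uc hχ).app ho)

theorem Tst.zero {v : Fin N → V → ℂ} (hv : Tst r v) (i : Fin N) {z : V}
    (hz : z ∉ ball (0 : V) r) : v i z = 0 := by
  exact image_eq_zero_of_notMem_tsupport fun h => hz ((hv i).2.2 h)

theorem pr_int {ψ v : Fin N → V → ℂ} (hψ : ∀ i, ContinuousOn (ψ i) (ball 0 r)) (hv : Tst r v) :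
    Integrable fun z => ∑ i, conj (ψ i z) * v i z := by
  refine integrable_finsetSum _ fun i _ => ?_
  refine Continuous.integrable_of_hasCompactSupport ?_ (hv i).2.1.mul_left
  exact ((Complex.continuous_conj.comp_continuousOn (hψ i)).mul
    (hv i).1.continuous.continuousOn).continuous_of_tsupport_subset isOpen_ball
    (tsupport_mul_subset_right.trans (hv i).2.2)

theorem pr_add {ψ v w : Fin N → V → ℂ} (hψ : ∀ i, ContinuousOn (ψ i) (ball 0 r)) (hv : Tst r v)
    (hw : Tst r w) : pr ψ (fun i z => v i z + w i z) = pr ψ v + pr ψ w := by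
  unfold pr
  rw [← integral_add (pr_int hψ hv) (pr_int hψ hw)]
  simp only [mul_add, Finset.sum_add_distrib]

end Vale.Agent.P267J
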