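import Vale.Agent.P267J.G
import Vale.Agent.P267J.Ts

/-! The initial value. By scale and Gs_scale, pr ψ (uc s) = integral over x of sum_i conj (ψ i (s • x)) χ (s • x) Gs 1 x sum_k s ^ k ev x (pk k i). The function g i = conj (ψ i) χ is continuous with compact support (bounded), g i 0 = conj (ψ i 0). Dominated convergence (tendsto_integral_filter_of_dominated_convergence, bound C wt d 1 for s ≤ 1 from Bd.const, Bd.ev), pk 0 i = C (ξ i), int_Gs. -/

open MeasureTheory Filter Topology Metric Finset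
open scoped ContDiff ComplexConjugate

noncomputable section

namespace Vale.Agent.P267J

variable {N : ℕ} {M r s : ℝ} {Y : Type} {χ : V → ℂ} {o : Op N} {ξ : Fin N → ℂ}

theorem i0_int (q : Py) : Integrable fun x : V => (Gs 1 x : ℂ) * ev x q := by
  obtain ⟨C, d, _, h⟩ := (Bd.const (Y := Unit) q).wq
  have e : (fun x : V => (Gs 1 x : ℂ) * ev x q) = Wq 1 q := by
    funext x
    simp [Wq]
  rw [e]
  exact ((wt_int d).const_mul C).mono' (Wq_smooth 1 q).continuous.aestronglyMeasurable
    (Eventually.of_forall fun x => h () 1 one_pos x)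

/-- The rescaled integrand. -/
def i0H (g : Fin N → V → ℂ) (o : Op N) (ξ : Fin N → ℂ) (s : ℝ) (x : V) : ℂ :=
  ∑ i, g i (s • x) * ∑ k ∈ range 5, (s : ℂ) ^ k * ((Gs 1 x : ℂ) * ev x (pk o ξ k i))

theorem i0_lim {g : Fin N → V → ℂ} (hg : ∀ i, Continuous (g i))
    (hc : ∀ i, HasCompactSupport (g i)) :
    Tendsto (fun s => ∫ x, i0H g o ξ s x) (𝓝[>] 0) (𝓝 (∫ x, i0H g o ξ 0 x)) := by
  choose C hC using fun i => (hg i).bounded_above_of_compact_support (hc i)
  refine tendsto_integral_filter_of_dominated_convergence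
    (fun x => ∑ i, C i * ∑ k ∈ range 5, ‖(Gs 1 x : ℂ) * ev x (pk o ξ k i)‖)
    (Eventually.of_forall fun s => ?_) ?_ ?_ (Eventually.of_forall fun x => ?_)
  · refine Continuous.aestronglyMeasurable ?_
    refine continuous_finsetSum _ fun i _ => ((hg i).comp (continuous_const_smul s)).mul
      (continuous_finsetSum _ fun k _ => continuous_const.mul ?_)
    exact (Complex.continuous_ofReal.comp (Gs_smooth 1).continuous).mul (ev_smooth _).continuous
  · filter_upwards [Ioo_mem_nhdsGT (zero_lt_one' ℝ)] with s hs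
    refine Eventually.of_forall fun x => (norm_sum_le _ _).trans (sum_le_sum fun i _ => ?_)
    rw [norm_mul]
    refine mul_le_mul (hC i _) ((norm_sum_le _ _).trans (sum_le_sum fun k _ => ?_))
      (norm_nonneg _) ((norm_nonneg _).trans (hC i 0))
    rw [norm_mul, norm_pow, Complex.norm_real, Real.norm_of_nonneg hs.1.le]
    exact mul_le_of_le_one_left (norm_nonneg _) (pow_le_one₀ hs.1.le hs.2.le)
  · exact integrable_finsetSum _ fun i _ =>
      (integrable_finsetSum _ fun k _ => (i0_int _).norm).const_mul _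
  · refine Tendsto.mono_left (Continuous.tendsto ?_ 0) nhdsWithin_le_nhds
    exact continuous_finsetSum _ fun i _ =>
      ((hg i).comp (continuous_id.smul continuous_const)).mul
        (continuous_finsetSum _ fun k _ => (Complex.continuous_ofReal.pow k).mul continuous_const)

theorem i0_zero (g : Fin N → V → ℂ) : ∫ x, i0H g o ξ 0 x = ∑ i, g i 0 * ξ i := by
  have e : ∀ x, i0H g o ξ 0 x = (∑ i, g i 0 * ξ i) * (Gs 1 x : ℂ) := fun x => by
    unfold i0H
    rw [sum_mul]
    refine sum_congr rfl fun i _ => ?_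
    have e0 : ev x (pk o ξ 0 i) = ξ i := by
      rw [pk]
      simp [ev]
    simp [sum_range_succ, e0]
    ring
  simp_rw [e]
  rw [integral_const_mul, integral_complex_ofReal, int_Gs]
  simp

theorem i0_pr (hs : 0 < s) (ψ : Fin N → V → ℂ) :
    pr ψ (uc χ o ξ s) = ∫ x, i0H (fun i z => conj (ψ i z) * χ z) o ξ s x := by
  have e : ∀ z, ∑ i, conj (ψ i z) * uc χ o ξ s i z =
      (s ^ 4)⁻¹ • i0H (fun i z => conj (ψ i z) * χ z) o ξ s (s⁻¹ • z) := fun z => by
    unfold i0H uc Us Wq
    rw [smul_inv_smul₀ hs.ne', Gs_scale hs z, Complex.real_smul, mul_sum]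
    refine sum_congr rfl fun i _ => ?_
    simp only [mul_sum]
    refine sum_congr rfl fun k _ => ?_
    push_cast
    ring
  unfold pr
  simp_rw [e]
  rw [integral_smul, scale hs, inv_smul_smul₀ (by positivity)]

theorem init (hr : 0 < r) (hχ : Cut r χ) {ψ : Fin N → V → ℂ}
    (hψ : ∀ i, ContinuousOn (ψ i) (ball 0 r)) :
    Tendsto (fun s => pr ψ (uc χ o ξ s)) (𝓝[>] 0) (𝓝 (∑ i, conj (ψ i 0) * ξ i)) := by
  have hg : ∀ i, Continuous fun z => conj (ψ i z) * χ z := fun i =>
    ContinuousOn.continuous_of_tsupport_subset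
      ((Complex.continuous_conj.comp_continuousOn (hψ i)).mul hχ.smooth.continuous.continuousOn)
      isOpen_ball (tsupport_mul_subset_right.trans hχ.sub)
  have hc : ∀ i, HasCompactSupport fun z => conj (ψ i z) * χ z := fun i => hχ.cpt.mul_left
  have h := i0_lim (o := o) (ξ := ξ) hg hc
  rw [i0_zero] at h
  simp only [hχ.one 0 (mem_ball_self (half_pos hr)), mul_one] at h
  refine h.congr' ?_
  filter_upwards [self_mem_nhdsWithin] with s hs
  exact (i0_pr hs ψ).symm

end Vale.Agent.P267J
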