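import Vale.Agent.P267J.W2
import Vale.Agent.P267J.Ts

/-! Differentiation under the integral: hasDerivAt_integral_of_dominated_loc_of_deriv_le on the neighbourhood Icc (s / 2) (2 s); the derivative conj (ψ i z) χ z 2 σ Ut σ i z is continuous on the compact set Icc × tsupport χ (Ut_cont), so bounded by a constant times the indicator of tsupport χ; pr_int. -/

open MeasureTheory Filter Topology Metric Finset
open scoped ContDiff ComplexConjugate

noncomputable section

namespace Vale.Agent.P267J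

variable {N : ℕ} {M r s : ℝ} {Y : Type} {χ : V → ℂ} {o : Op N} {ξ : Fin N → ℂ}

theorem o_bound (hχ : Cut r χ) {ψ : Fin N → V → ℂ} (hψ : ∀ i, ContinuousOn (ψ i) (ball 0 r))
    (hs : 0 < s) : ∃ C : ℝ, ∀ z : V, ∀ σ ∈ Set.Icc (s / 2) (2 * s),
      ‖2 * (σ : ℂ) * ∑ i, conj (ψ i z) * ut χ o ξ σ i z‖ ≤
        (tsupport χ).indicator (fun _ => C) z := by
  have hK : IsCompact (Set.Icc (s / 2) (2 * s) ×ˢ tsupport χ) := isCompact_Icc.prod hχ.cpt
  have hc : ContinuousOn (fun p : ℝ × V => 2 * (p.1 : ℂ) * ∑ i, conj (ψ i p.2) * ut χ o ξ p.1 i p.2)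
      (Set.Icc (s / 2) (2 * s) ×ˢ tsupport χ) := by
    refine ContinuousOn.mul (by fun_prop) (continuousOn_finsetSum _ fun i _ => ContinuousOn.mul ?_ ?_)
    · exact Complex.continuous_conj.comp_continuousOn
        ((hψ i).comp continuous_snd.continuousOn fun p hp => hχ.sub hp.2)
    · refine ContinuousOn.mul (hχ.smooth.continuous.comp continuous_snd).continuousOn
        ((Ut_cont i).mono fun p hp => ⟨?_, Set.mem_univ _⟩)
      exact lt_of_lt_of_le (half_pos hs) hp.1.1
  obtain ⟨C, hC⟩ := hK.exists_bound_of_continuousOn hc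
  refine ⟨C, fun z σ hσ => ?_⟩
  by_cases hz : z ∈ tsupport χ
  · rw [Set.indicator_of_mem hz]
    exact hC (σ, z) ⟨hσ, hz⟩
  · rw [Set.indicator_of_notMem hz]
    simp [ut, image_eq_zero_of_notMem_tsupport hz]

theorem deriv_pr (hχ : Cut r χ) {ψ : Fin N → V → ℂ} (hψ : ∀ i, ContinuousOn (ψ i) (ball 0 r))
    (hs : 0 < s) :
    HasDerivAt (fun s => pr ψ (uc χ o ξ s)) (2 * s * pr ψ (ut χ o ξ s)) s := by
  obtain ⟨C, hC⟩ := o_bound (o := o) (ξ := ξ) hχ hψ hs
  have hn : Set.Icc (s / 2) (2 * s) ∈ 𝓝 s := Icc_mem_nhds (by linarith) (by linarith)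
  have hb : Integrable ((tsupport χ).indicator fun _ : V => C) :=
    (integrable_indicator_iff (isClosed_tsupport χ).measurableSet).2
      (integrableOn_const hχ.cpt.isCompact.measure_lt_top.ne)
  have h := hasDerivAt_integral_of_dominated_loc_of_deriv_le (μ := (volume : Measure V))
    (F := fun σ z => ∑ i, conj (ψ i z) * uc χ o ξ σ i z)
    (F' := fun σ z => 2 * (σ : ℂ) * ∑ i, conj (ψ i z) * ut χ o ξ σ i z) hn
    (Eventually.of_forall fun σ => (pr_int hψ (tst_uc hχ)).aestronglyMeasurable)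
    (pr_int hψ (tst_uc hχ)) ((pr_int hψ (tst_ut hχ)).const_mul _).aestronglyMeasurable
    (Eventually.of_forall hC) hb (Eventually.of_forall fun z σ hσ => ?_)
  · have h2 := h.2
    rw [integral_const_mul] at h2
    exact h2
  · have hσ0 : 0 < σ := lt_of_lt_of_le (half_pos hs) hσ.1
    have h3 := HasDerivAt.fun_sum (u := univ) fun i _ =>
      ((deriv_Us (o := o) (ξ := ξ) hσ0 i z).const_mul (χ z)).const_mul (conj (ψ i z))
    refine h3.congr_deriv ?_
    rw [mul_sum]
    exact sum_congr rfl fun i _ => by rw [ut]; ring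

end Vale.Agent.P267J
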