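import Vale.Agent.P267J.R3

/-! The square norm of the residual: on the ball re ρ ≤ M (Sb.le) and ‖Rs‖ ≤ C s ^ 3 wt d (common C, d for all i by wt_mono), outside Rs = 0 (Tst.zero, tst_Rs); integral_mono_of_nonneg is not available since re ρ may be negative: if the left side is not integrable the integral is 0, else integral_mono; wt_sq. -/

open MeasureTheory Filter Topology Metric Finset
open scoped ContDiff ComplexConjugate

noncomputable section

namespace Vale.Agent.P267J

variable {N : ℕ} {M r s : ℝ} {Y : Type} {χ : V → ℂ} {o : Op N} {ξ : Fin N → ℂ}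

theorem Rs_norm (hr : 0 < r) (hχ : Cut r χ) : ∃ C : ℝ, 0 ≤ C ∧ ∀ y : Fam N M r,
    ∀ s ∈ Set.Ioc (0 : ℝ) 1,
      ∫ z, (y.1.1.ρ z).re * ∑ i, ‖Rs χ y.1.1 y.1.2 s i z‖ ^ 2 ≤ (C * s) ^ 2 := by
  choose C d hC h using fun i => Rs_sml (M := M) (N := N) hr hχ i
  choose B hB hw using wt_sq
  have hK : 0 ≤ ∑ i, |M| * C i ^ 2 * B (d i) :=
    sum_nonneg fun i _ => mul_nonneg (by positivity) (hB _)
  refine ⟨√(∑ i, |M| * C i ^ 2 * B (d i)), Real.sqrt_nonneg _, fun y s hs => ?_⟩
  have h0 := hs.1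
  by_cases hi : Integrable fun z => (y.1.1.ρ z).re * ∑ i, ‖Rs χ y.1.1 y.1.2 s i z‖ ^ 2
  swap
  · rw [integral_undef hi]
    positivity
  have h1 : ∀ i, Integrable fun z => |M| * (C i * s ^ 3) ^ 2 * wt (d i) s z ^ 2 := fun i =>
    (hw (d i) s h0).1.const_mul _
  refine (integral_mono hi (integrable_finsetSum univ fun i _ => h1 i) fun z => ?_).trans ?_
  · by_cases hz : z ∈ ball (0 : V) r
    · have h2 : (y.1.1.ρ z).re ≤ |M| :=
        ((Complex.re_le_norm _).trans (y.2.1.ρ.le hz)).trans (le_abs_self M)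
      refine (mul_le_mul_of_nonneg_right h2 (by positivity)).trans ?_
      rw [mul_sum]
      refine sum_le_sum fun i _ => ?_
      rw [mul_assoc, ← mul_pow]
      exact mul_le_mul_of_nonneg_left (pow_le_pow_left₀ (norm_nonneg _) (h i y s hs z hz) 2)
        (abs_nonneg M)
    · simp only [(tst_Rs hχ y.2.1).zero _ hz, norm_zero, ne_eq, OfNat.ofNat_ne_zero,
        not_false_eq_true, zero_pow, sum_const_zero, mul_zero]
      positivity
  · rw [integral_finsetSum univ fun i _ => h1 i, mul_pow, Real.sq_sqrt hK, sum_mul]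
    refine sum_le_sum fun i _ => ?_
    rw [integral_const_mul]
    refine (mul_le_mul_of_nonneg_left (hw (d i) s h0).2 (by positivity)).trans (le_of_eq ?_)
    field_simp

end Vale.Agent.P267J
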