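import Vale.Agent.P267J.N3
import Vale.Agent.P267J.R4
import Vale.Agent.P267J.I0
import Vale.Agent.P267J.O
import Vale.Agent.P267J.Du

/-! The heat expansion on the diagonal, uniformly in bounded data. -/

open MeasureTheory Filter Topology Metric Finset
open scoped ContDiff ComplexConjugate

noncomputable section

namespace Vale.Agent.P267J

variable {N : ℕ} {M r s : ℝ} {Y : Type} {χ : V → ℂ} {o : Op N} {ξ : Fin N → ℂ}

theorem heat (N : ℕ) (M : ℝ) (hr : 0 < r) : ∃ C : ℝ, ∀ o : Op N, Bnd M r o →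
    ∀ (J : Type) (lam : J → ℝ) (ψ : J → Fin N → V → ℂ), Spec r o lam ψ →
    ∀ ξ : Fin N → ℂ, (∀ i, ‖ξ i‖ ≤ 1) → ∀ s ∈ Set.Ioc (0 : ℝ) 1,
      Summable (fun j => Real.exp (-(2 * s ^ 2 * lam j)) * ‖∑ i, conj (ψ j i 0) * ξ i‖ ^ 2) ∧
      |∑' j, Real.exp (-(2 * s ^ 2 * lam j)) * ‖∑ i, conj (ψ j i 0) * ξ i‖ ^ 2 -
        ∑ k ∈ range 5, s ^ k / s ^ 4 * alpha o ξ k| ≤ C * s := by
  obtain ⟨χ, hχ⟩ := exists_cut hr
  obtain ⟨C1, hC1, h1⟩ := Rs_norm (N := N) (M := M) hr hχ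
  obtain ⟨Ca, hCa, ha⟩ := alpha_bd (N := N) (M := M) hr
  obtain ⟨C2, hC2, h2⟩ := norm_exp (N := N) (M := M) hr hχ
  refine ⟨4 * C1 * √(5 * Ca + C2) + 4 * C1 ^ 2 + C2, fun o ho J lam ψ hS ξ hξ s hs => ?_⟩
  have hd : ∀ j, ∀ σ ∈ Set.Ioc (0 : ℝ) 1, HasDerivAt (fun σ => pr (ψ j) (uc χ o ξ σ))
      (2 * σ * (pr (ψ j) (Rs χ o ξ σ) - lam j * pr (ψ j) (uc χ o ξ σ))) σ := by
    intro j σ hσ
    have e : pr (ψ j) (Rs χ o ξ σ) = pr (ψ j) (ut χ o ξ σ) + lam j * pr (ψ j) (uc χ o ξ σ) := by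
      rw [← hS.eig j _ (tst_uc hχ)]
      exact pr_add (hS.cont j) (tst_ut hχ) ((tst_uc hχ).app ho)
    have := deriv_pr (o := o) (ξ := ξ) hχ (hS.cont j) hσ.1
    rw [e, add_sub_cancel_right]
    exact this
  have hρ : ∀ F : Finset J, ∀ σ ∈ Set.Ioc (0 : ℝ) 1,
      ∑ j ∈ F, ‖pr (ψ j) (Rs χ o ξ σ)‖ ^ 2 ≤ (C1 * σ) ^ 2 := fun F σ hσ =>
    (sum_le_hasSum F (fun _ _ => by positivity) (hS.pars _ (tst_Rs hχ ho))).trans
      (h1 ⟨(o, ξ), ho, hξ⟩ σ hσ)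
  have hQ := hS.pars _ (tst_uc (o := o) (ξ := ξ) (s := s) hχ)
  have hn := h2 ⟨(o, ξ), ho, hξ⟩ s hs
  have hs4 : 0 < s ^ 4 := pow_pos hs.1 4
  have hsum : ∑ k ∈ range 5, s ^ k / s ^ 4 * alpha o ξ k ≤ 5 * Ca / s ^ 4 := by
    calc ∑ k ∈ range 5, s ^ k / s ^ 4 * alpha o ξ k ≤ ∑ k ∈ range 5, Ca / s ^ 4 := by
          refine sum_le_sum fun k hk => ?_
          have hk1 := (le_abs_self _).trans (ha ⟨(o, ξ), ho, hξ⟩ k (mem_range.1 hk))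
          have hp : s ^ k ≤ 1 := pow_le_one₀ hs.1.le hs.2
          have hp0 : 0 ≤ s ^ k := pow_nonneg hs.1.le k
          rw [div_mul_eq_mul_div]
          refine div_le_div_of_nonneg_right ?_ hs4.le
          calc s ^ k * alpha o ξ k ≤ s ^ k * Ca := mul_le_mul_of_nonneg_left hk1 hp0
            _ ≤ 1 * Ca := mul_le_mul_of_nonneg_right hp hCa
            _ = Ca := one_mul _
      _ = 5 * Ca / s ^ 4 := by simp; ring
  have hQ' : (∫ z, (o.ρ z).re * ∑ i, ‖uc χ o ξ s i z‖ ^ 2) ≤ (√(5 * Ca + C2) / s ^ 2) ^ 2 := by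
    rw [div_pow, Real.sq_sqrt (by positivity), ← pow_mul, add_div]
    have h3 := (abs_le.1 hn).2
    have h4 : C2 * s ≤ C2 / s ^ (2 * 2) := by
      rw [le_div_iff₀ (by positivity)]
      have : s * s ^ (2 * 2) ≤ 1 := by
        rw [← pow_succ']
        exact pow_le_one₀ hs.1.le hs.2
      nlinarith
    simp only at h3
    norm_num at h4 ⊢
    linarith
  obtain ⟨hA, hB⟩ := duhamel (lam := lam) (a0 := fun j => ∑ i, conj (ψ j i 0) * ξ i) hC1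
    (Real.sqrt_nonneg _) hs hQ hQ' fun F => du_fin F hS.nonneg
      (a := fun j σ => pr (ψ j) (uc χ o ξ σ)) (ρ := fun j σ => pr (ψ j) (Rs χ o ξ σ)) hC1 hs hd
      (fun j => init hr hχ (hS.cont j)) (hρ F)
  refine ⟨hA, ?_⟩
  have := abs_sub_le (∑' j, Real.exp (-(2 * s ^ 2 * lam j)) * ‖∑ i, conj (ψ j i 0) * ξ i‖ ^ 2)
    (∫ z, (o.ρ z).re * ∑ i, ‖uc χ o ξ s i z‖ ^ 2) (∑ k ∈ range 5, s ^ k / s ^ 4 * alpha o ξ k)
  simp only at hn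
  linarith

end Vale.Agent.P267J
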