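import Mathlib

/-! The heat parametrix of a Laplace type operator in dimension four: definitions. FROZEN. -/

open MeasureTheory Filter Topology Metric Finset
open scoped ContDiff ComplexConjugate

noncomputable section

namespace Vale.Agent.P267J

/-- Euclidean four-space. -/
abbrev V := EuclideanSpace ℝ (Fin 4)

/-- Polynomials in four variables. -/
abbrev Py := MvPolynomial (Fin 4) ℂ

variable {N : ℕ}

/-- Evaluation at a real point. -/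
def ev (x : V) : Py →+* ℂ := MvPolynomial.eval fun i => (x i : ℂ)

/-- The derivative along a coordinate. -/
def pd (i : Fin 4) (f : V → ℂ) (z : V) : ℂ := fderiv ℝ f z (EuclideanSpace.single i 1)

/-- The homogeneous Taylor polynomial of degree `l` at the origin. -/
def tay (f : V → ℂ) (l : ℕ) : Py :=
  ∑ i : Fin l → Fin 4, MvPolynomial.C (((l.factorial : ℂ))⁻¹ *
    iteratedFDeriv ℝ l f 0 fun k => EuclideanSpace.single (i k) 1) * ∏ k, MvPolynomial.X (i k)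

/-- Coefficients of `- a ∂ ∂ + b ∂ + c`, and a density. -/
structure Op (N : ℕ) where
  a : Fin 4 → Fin 4 → V → ℂ
  b : Fin 4 → Fin N → Fin N → V → ℂ
  c : Fin N → Fin N → V → ℂ
  ρ : V → ℂ

/-- The operator. -/
def Op.app (o : Op N) (v : Fin N → V → ℂ) (i : Fin N) (z : V) : ℂ :=
  -(∑ j, ∑ k, o.a j k z * pd j (pd k (v i)) z) + (∑ j, ∑ m, o.b j i m z * pd j (v m) z) +
    ∑ m, o.c i m z * v m z

/-- Smooth on the ball, with bounded derivatives up to order five. -/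
def Sb (M r : ℝ) (f : V → ℂ) : Prop :=
  ContDiffOn ℝ ∞ f (ball 0 r) ∧ ∀ k ≤ 5, ∀ z ∈ ball (0 : V) r, ‖iteratedFDeriv ℝ k f z‖ ≤ M

/-- Bounded normalized coefficients. -/
structure Bnd (M r : ℝ) (o : Op N) : Prop where
  a : ∀ j k, Sb M r (o.a j k)
  b : ∀ j i m, Sb M r (o.b j i m)
  c : ∀ i m, Sb M r (o.c i m)
  ρ : Sb M r o.ρ
  a0 : ∀ j k, o.a j k 0 = if j = k then 1 else 0

/-- Test sections. -/
def Tst (r : ℝ) (v : Fin N → V → ℂ) : Prop :=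
  ∀ i, ContDiff ℝ ∞ (v i) ∧ HasCompactSupport (v i) ∧ tsupport (v i) ⊆ ball 0 r

/-- The pairing. -/
def pr (ψ v : Fin N → V → ℂ) : ℂ := ∫ z, ∑ i, conj (ψ i z) * v i z

/-- A spectral resolution seen in the ball (`ψ j` is the eigensection times the density). -/
structure Spec (r : ℝ) (o : Op N) {J : Type} (lam : J → ℝ) (ψ : J → Fin N → V → ℂ) : Prop where
  nonneg : ∀ j, 0 ≤ lam j
  cont : ∀ j i, ContinuousOn (ψ j i) (ball 0 r)
  eig : ∀ j v, Tst r v → pr (ψ j) (o.app v) = lam j * pr (ψ j) v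
  pars : ∀ v, Tst r v → HasSum (fun j => ‖pr (ψ j) v‖ ^ 2) (∫ z, (o.ρ z).re * ∑ i, ‖v i z‖ ^ 2)

/-- The derivative conjugated by the Gaussian. -/
def dl (i : Fin 4) : Py →ₗ[ℂ] Py :=
  (MvPolynomial.pderiv i).toLinearMap - LinearMap.mulLeft ℂ (MvPolynomial.C 2⁻¹ * MvPolynomial.X i)

/-- The model operator. -/
def Tk (k : ℕ) : Py →ₗ[ℂ] Py :=
  ((k : ℂ) / 2) • LinearMap.id + ∑ i : Fin 4,
    (LinearMap.mulLeft ℂ (MvPolynomial.C 2⁻¹ * MvPolynomial.X i) ∘ₗ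
      (MvPolynomial.pderiv i).toLinearMap -
    (MvPolynomial.pderiv i).toLinearMap ∘ₗ (MvPolynomial.pderiv i).toLinearMap)

open Classical in
/-- The inverse of the model operator. -/
def Ti (k : ℕ) : Py →ₗ[ℂ] Py :=
  if h : ∃ g : Py →ₗ[ℂ] Py, Tk k ∘ₗ g = LinearMap.id then h.choose else 0

/-- The perturbation of weight `l + 1`. -/
def Ml (o : Op N) (l : ℕ) (q : Fin N → Py) (i : Fin N) : Py :=
  -(∑ j, ∑ k, tay (o.a j k) (l + 1) * dl j (dl k (q i))) +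
    (∑ j, ∑ m, tay (o.b j i m) l * dl j (q m)) +
    if l = 0 then 0 else ∑ m, tay (o.c i m) (l - 1) * q m

/-- The coefficients of the parametrix. -/
def pk (o : Op N) (ξ : Fin N → ℂ) : ℕ → Fin N → Py
  | 0 => fun i => MvPolynomial.C (ξ i)
  | k + 1 => fun i => Ti (k + 1) (-∑ l : Fin (k + 1), Ml o l (pk o ξ (k - l)) i)
  decreasing_by omega

/-- The heat kernel at time `s ^ 2`. -/
def Gs (s : ℝ) (z : V) : ℝ := ((4 * Real.pi * s ^ 2) ^ 2)⁻¹ * Real.exp (-(‖z‖ ^ 2 / (4 * s ^ 2)))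

/-- A Gaussian times a rescaled polynomial. -/
def Wq (s : ℝ) (q : Py) (z : V) : ℂ := Gs s z * ev (s⁻¹ • z) q

/-- The weight used in all bounds. -/
def wt (d : ℕ) (s : ℝ) (z : V) : ℝ := Gs s z * (1 + ‖s⁻¹ • z‖) ^ d

/-- The parametrix. -/
def Us (o : Op N) (ξ : Fin N → ℂ) (s : ℝ) (i : Fin N) (z : V) : ℂ :=
  ∑ k ∈ range 5, (s : ℂ) ^ k * Wq s (pk o ξ k i) z

/-- Its derivative in the time `s ^ 2`. -/
def Ut (o : Op N) (ξ : Fin N → ℂ) (s : ℝ) (i : Fin N) (z : V) : ℂ :=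
  ∑ k ∈ range 5, (s : ℂ) ^ k / s ^ 2 *
    Wq s (Tk k (pk o ξ k i) + ∑ j, dl j (dl j (pk o ξ k i))) z

/-- The polynomial density of weight `k`. -/
def Qk (o : Op N) (ξ : Fin N → ℂ) (k : ℕ) (x : V) : ℝ :=
  ∑ p ∈ antidiagonal k, (ev x (tay o.ρ p.1)).re *
    ∑ q ∈ antidiagonal p.2, (∑ i, conj (ev x (pk o ξ q.1 i)) * ev x (pk o ξ q.2 i)).re

/-- The coefficients of the expansion. -/
def alpha (o : Op N) (ξ : Fin N → ℂ) (k : ℕ) : ℝ := ∫ x, Gs 1 x ^ 2 * Qk o ξ k x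

/-- The parametrix with a cut-off. -/
def uc (χ : V → ℂ) (o : Op N) (ξ : Fin N → ℂ) (s : ℝ) (i : Fin N) (z : V) : ℂ :=
  χ z * Us o ξ s i z

/-- Its time derivative. -/
def ut (χ : V → ℂ) (o : Op N) (ξ : Fin N → ℂ) (s : ℝ) (i : Fin N) (z : V) : ℂ :=
  χ z * Ut o ξ s i z

/-- The residual. -/
def Rs (χ : V → ℂ) (o : Op N) (ξ : Fin N → ℂ) (s : ℝ) (i : Fin N) (z : V) : ℂ :=
  ut χ o ξ s i z + o.app (uc χ o ξ s) i z

/-- Bounded families of polynomials. -/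
def Bd {Y : Type} (q : Y → Py) : Prop :=
  ∃ (n : ℕ) (e : Fin n → Py) (M : ℝ), ∀ y, ∃ c : Fin n → ℂ, (∀ i, ‖c i‖ ≤ M) ∧ q y = ∑ i, c i • e i

/-- The family of all bounded data. -/
abbrev Fam (N : ℕ) (M r : ℝ) := {p : Op N × (Fin N → ℂ) // Bnd M r p.1 ∧ ∀ i, ‖p.2 i‖ ≤ 1}

/-- A cut-off function. -/
structure Cut (r : ℝ) (χ : V → ℂ) : Prop where
  smooth : ContDiff ℝ ∞ χ
  cpt : HasCompactSupport χ
  sub : tsupport χ ⊆ ball 0 r
  one : ∀ z ∈ ball (0 : V) (r / 2), χ z = 1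
  le : ∀ z, ‖χ z‖ ≤ 1

end Vale.Agent.P267J
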