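import Vale.Agent.P267J.YP

/-! Derivatives of W-valued functions are W-valued. Duality: w ∈ W iff every real linear form l killing W kills w (Submodule.exists_dual_map_eq_bot_of_notMem or Subspace.forall_mem_dualAnnihilator_apply_eq_zero_iff). View F as a map G into Fin N → Fin N → ℂ (pi norm; contDiffAt_pi); l is continuous there (LinearMap.toContinuousLinearMap); l ∘ G = 0 near the point; ContinuousLinearMap.iteratedFDeriv_comp_left for l and for the projections on the entries; Filter.EventuallyEq.iteratedFDeriv. tayM F l = sum over i of (C (l!)⁻¹ * prod X) • cst (matrix of derivatives). pdM_mem: the case l = 1 (iteratedFDeriv_one_apply). -/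

open scoped ContDiff Topology Matrix.Norms.L2Operator ComplexConjugate
open Filter Matrix MeasureTheory Metric Finset

noncomputable section

namespace Vale.Agent.P267J.Y

open Vale.Agent.P267I Vale.Agent.P267I.H MvPolynomial

variable {N : ℕ} {W g : Submodule ℝ (Mat N)} {τ : Mat N →L[ℝ] ℝ} {o : Op N} {E : Mat N}
  {S : Fin 4 → Fin 4 → Mat N} {p q : Py} {P Q : MP N} {f f' : V → ℂ} {F F' : V → Mat N}

theorem yw_pi {W : Submodule ℝ (Fin N → Fin N → ℂ)} {G : V → Fin N → Fin N → ℂ} {z : V}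
    (h : ∀ i m, ContDiffAt ℝ ∞ (fun z => G z i m) z) (hW : ∀ᶠ w in 𝓝 z, G w ∈ W) (l : ℕ)
    (v : Fin l → V) : (fun i m => iteratedFDeriv ℝ l (fun z => G z i m) z v) ∈ W := by
  have hG : ContDiffAt ℝ ∞ G z := contDiffAt_pi.2 fun i => contDiffAt_pi.2 fun m => h i m
  have hl : (l : WithTop ℕ∞) ≤ ∞ := WithTop.coe_le_coe.2 le_top
  have e : (fun i m => iteratedFDeriv ℝ l (fun z => G z i m) z v) = iteratedFDeriv ℝ l G z v := by
    funext i m
    have h1 := ((ContinuousLinearMap.proj (R := ℝ) (φ := fun _ : Fin N => ℂ) m).comp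
      (ContinuousLinearMap.proj (R := ℝ) (φ := fun _ : Fin N => Fin N → ℂ) i)).iteratedFDeriv_comp_left
      hG hl
    exact congrArg (fun T => T v) h1
  rw [e]
  refine (Subspace.forall_mem_dualAnnihilator_apply_eq_zero_iff W _).1 fun φ hφ => ?_
  have h1 := (LinearMap.toContinuousLinearMap φ).iteratedFDeriv_comp_left hG hl
  have h2 : LinearMap.toContinuousLinearMap φ ∘ G =ᶠ[𝓝 z] fun _ => 0 :=
    hW.mono fun w hw => (Submodule.mem_dualAnnihilator φ).1 hφ _ hw
  rw [(h2.iteratedFDeriv ℝ l).eq_of_nhds, iteratedFDeriv_fun_zero] at h1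
  exact (congrArg (fun T => T v) h1).symm

theorem itd_mem {z : V} (h : ∀ i m, ContDiffAt ℝ ∞ (fun z => F z i m) z)
    (hW : ∀ᶠ w in 𝓝 z, F w ∈ W) (l : ℕ) (v : Fin l → V) :
    (Matrix.of fun i m => iteratedFDeriv ℝ l (fun z => F z i m) z v : Mat N) ∈ W :=
  yw_pi (W := W) (G := F) h hW l v

theorem tayM_pw (h : SmM F) (hW : ∀ᶠ w in 𝓝 0, F w ∈ W) (l : ℕ) : PW W (tayM F l) := by
  have e : tayM F l = ∑ a : Fin l → Fin 4, (C ((l.factorial : ℂ))⁻¹ * ∏ k, X (a k) : Py) •
      cst (Matrix.of fun i m => iteratedFDeriv ℝ l (fun z => F z i m) 0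
        fun k => EuclideanSpace.single (a k) 1) := by
    ext1 i m
    simp only [tayM, tay, cst, Matrix.of_apply, Matrix.sum_apply, Matrix.smul_apply,
      Matrix.map_apply, smul_eq_mul, C_mul]
    exact Finset.sum_congr rfl fun a _ => by ring
  rw [e]
  refine PW.sum _ fun a _ => PW.base (itd_mem h hW l _) ?_
  simp [RP, cj]

theorem pdM_mem {z : V} (h : ∀ i m, ContDiffAt ℝ ∞ (fun z => F z i m) z)
    (hW : ∀ᶠ w in 𝓝 z, F w ∈ W) (j : Fin 4) : pdM j F z ∈ W := by
  have h1 := itd_mem h hW 1 fun _ => EuclideanSpace.single j 1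
  simp only [iteratedFDeriv_one_apply] at h1
  exact h1

end Vale.Agent.P267J.Y
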