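import Vale.Agent.P267J.YU
import Vale.Agent.P267J.YW

/-! Order zero coefficients. cM L.op l = tayM (cw + - sum_jk a j k • (A j * A k)) l with cw = - sum a j k • pdM j (A k) + sum β j • A j + E, W-valued near 0 (pdM_mem, tayM_pw). tayM (A j * A k) is 0 in degrees 0 and 1, and aM j * aM k in degree 2 (tayM_mul, tayM_zero, tayM_one, h0); tayM_smul, tay_zero, h.a0; Finset.Nat.antidiagonal_succ, or antidiagonal 2 = {(0,2),(1,1),(2,0)} by decide. -/

open scoped ContDiff Topology Matrix.Norms.L2Operator ComplexConjugate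
open Filter Matrix MeasureTheory Metric Finset

noncomputable section

namespace Vale.Agent.P267J.Y

open Vale.Agent.P267I Vale.Agent.P267I.H MvPolynomial

variable {N : ℕ} {W g : Submodule ℝ (Mat N)} {τ : Mat N →L[ℝ] ℝ} {o : Op N} {E : Mat N}
  {S : Fin 4 → Fin 4 → Mat N} {p q : Py} {P Q : MP N} {f f' : V → ℂ} {F F' : V → Mat N}

theorem yc_re {u : V → ℝ} {r : ℝ} (hr : 0 < r) (h : ContDiffOn ℝ ∞ u (ball 0 r)) :
    ContDiffAt ℝ ∞ (fun z => (u z : ℂ)) 0 :=
  Complex.ofRealCLM.contDiff.contDiffAt.comp 0 (h.contDiffAt (ball_mem_nhds 0 hr))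

theorem yc_cst0 : cst (0 : Mat N) = 0 := Matrix.map_zero _ (map_zero _)

theorem yc_split {L : Lap N} {r : ℝ} (hA : K.Alg τ W g) (hr : 0 < r) (h : L.Ok W g r) (l : ℕ) :
    PW W (cM L.op l + ∑ j, ∑ k, ∑ b ∈ antidiagonal l, tay (fun z => (L.a j k z : ℂ)) b.1 •
      ∑ c ∈ antidiagonal b.2, tayM (L.A j) c.1 * tayM (L.A k) c.2) := by
  have sA : ∀ j, SmM (L.A j) := fun j i m => (h.A j i m).contDiffAt (ball_mem_nhds 0 hr)
  have sE : SmM L.E := fun i m => (h.E i m).contDiffAt (ball_mem_nhds 0 hr)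
  have sa := fun j k => yc_re hr (h.a j k)
  have s1 : SmM fun z => -(∑ j, ∑ k, (L.a j k z : ℂ) • (pdM j (L.A k) z + L.A j z * L.A k z)) +
      ∑ j, (L.β j z : ℂ) • L.A j z + L.E z :=
    ((SmM.sum _ fun j _ => SmM.sum _ fun k _ => SmM.smul (sa j k)
      (((sA k).pdM j).add ((sA j).mul (sA k)))).neg.add
      (SmM.sum _ fun j _ => SmM.smul (yc_re hr (h.β j)) (sA j))).add sE
  have s2 : ∀ j k, SmM fun z => (L.a j k z : ℂ) • (L.A j z * L.A k z) := fun j k =>
    SmM.smul (sa j k) ((sA j).mul (sA k))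
  have s3 : ∀ j, SmM fun z => ∑ k, (L.a j k z : ℂ) • (L.A j z * L.A k z) := fun j =>
    SmM.sum _ fun k _ => s2 j k
  have s4 := SmM.sum univ fun j _ => s3 j
  have key := tayM_pw (W := W) (s1.add s4) ?_ l
  · rw [tayM_add s1 s4, tayM_sum _ fun j _ => s3 j] at key
    simp only [tayM_sum _ fun k _ => s2 _ k, tayM_smul (sa _ _) ((sA _).mul (sA _)),
      tayM_mul (sA _) (sA _)] at key
    exact key
  · filter_upwards [ball_mem_nhds (0 : V) hr] with z hz
    have hb := isOpen_ball.mem_nhds hz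
    have e : -(∑ j, ∑ k, (L.a j k z : ℂ) • (pdM j (L.A k) z + L.A j z * L.A k z)) +
        ∑ j, (L.β j z : ℂ) • L.A j z + L.E z + ∑ j, ∑ k, (L.a j k z : ℂ) • (L.A j z * L.A k z) =
        -(∑ j, ∑ k, L.a j k z • pdM j (L.A k) z) + ∑ j, L.β j z • L.A j z + L.E z := by
      simp only [smul_add, sum_add_distrib, Complex.coe_smul]
      abel
    rw [e]
    refine add_mem (add_mem (neg_mem (sum_mem fun j _ => sum_mem fun k _ => W.smul_mem _ ?_))
      (sum_mem fun j _ => W.smul_mem _ (hA.le (h.Ag j z hz)))) (h.EW z hz)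
    exact pdM_mem (fun i m => (h.A k i m).contDiffAt hb)
      (mem_of_superset hb fun w hw => hA.le (h.Ag k w hw)) j

theorem nf_c0 {L : Lap N} {r : ℝ} (hA : K.Alg τ W g) (hr : 0 < r) (h : L.Ok W g r) (h0 : ∀ j, L.A j 0 = 0) :
    cM L.op 0 = cst (L.E 0 - ∑ j, pdM j (L.A j) 0) := by
  refine (tayM_zero fun z => -(∑ j, ∑ k, (L.a j k z : ℂ) •
    (pdM j (L.A k) z + L.A j z * L.A k z)) + ∑ j, (L.β j z : ℂ) • L.A j z + L.E z).trans
    (congrArg cst ?_)
  simp only [h0, h.a0, Complex.coe_smul, mul_zero, add_zero, smul_zero, sum_const_zero, ite_smul,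
    one_smul, zero_smul, sum_ite_eq, mem_univ, if_true]
  abel

theorem nf_c1 {L : Lap N} {r : ℝ} (hA : K.Alg τ W g) (hr : 0 < r) (h : L.Ok W g r) (h0 : ∀ j, L.A j 0 = 0) :
    PW W (cM L.op 1) := by
  have key := yc_split hA hr h 1
  simpa [Finset.Nat.antidiagonal_succ, tayM_zero, h0, yc_cst0] using key

theorem nf_c2 {L : Lap N} {r : ℝ} (hA : K.Alg τ W g) (hr : 0 < r) (h : L.Ok W g r) (h0 : ∀ j, L.A j 0 = 0) :
    PW W (cM L.op 2 + ∑ j, aM (fun k j => pdM k (L.A j) 0) j * aM (fun k j => pdM k (L.A j) 0) j) := by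
  have key := yc_split hA hr h 2
  have e : ∀ j, tayM (L.A j) 1 = aM (fun k j => pdM k (L.A j) 0) j := fun j => tayM_one _
  simpa [Finset.Nat.antidiagonal_succ, tayM_zero, h0, yc_cst0, tay_zero, h.a0, e,
    apply_ite, ite_smul] using key

end Vale.Agent.P267J.Y
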