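import Vale.Agent.P267J.YD

/-! Gaussian integrals. Gs 1 x ^ 2 = (4 π) ^ (-4) exp (- ‖x‖ ^ 2 / 2); g_gauss. Integrability: Bd.const, Bd.ev, g_sq, ev_smooth. int2: integration by parts (integral_mul_fderiv_eq_neg_fderiv_mul_of_integrable or integral_fderiv_eq_zero type: derivative of x k * exp (- ‖x‖ ^ 2 / 2) along l is (δ - x k x l) exp), or Fubini (EuclideanSpace.volume_preserving, integral_fintype_prod_volume_eq_prod) with one dimensional integrals. -/

open scoped ContDiff Topology Matrix.Norms.L2Operator ComplexConjugate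
open Filter Matrix MeasureTheory Metric Finset

noncomputable section

namespace Vale.Agent.P267J.Y

open Vale.Agent.P267I Vale.Agent.P267I.H MvPolynomial

variable {N : ℕ} {W g : Submodule ℝ (Mat N)} {τ : Mat N →L[ℝ] ℝ} {o : Op N} {E : Mat N}
  {S : Fin 4 → Fin 4 → Mat N} {p q : Py} {P Q : MP N} {f f' : V → ℂ} {F F' : V → Mat N}

theorem yg_e (x : V) :
    Gs 1 x ^ 2 = ((4 * Real.pi) ^ 4)⁻¹ * Real.exp (-(1 / 2) * ‖x‖ ^ 2) := by
  have := Real.pi_pos
  unfold Gs
  rw [mul_pow, ← Real.exp_nat_mul]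
  congr 1
  · field_simp
  · congr 1
    push_cast
    ring

theorem yg_fd (x : V) : HasFDerivAt (fun x : V => Gs 1 x ^ 2)
    (-(Gs 1 x ^ 2) • innerSL ℝ x) x := by
  have h0 : (fun x : V => Gs 1 x ^ 2) =
      fun x : V => ((4 * Real.pi) ^ 4)⁻¹ * Real.exp (-(1 / 2) * ‖x‖ ^ 2) := funext yg_e
  have h1 := (((hasStrictFDerivAt_norm_sq x).hasFDerivAt.const_mul (-(1 / 2) : ℝ)).exp).const_mul
    ((4 * Real.pi) ^ 4)⁻¹
  rw [yg_e x, h0]
  refine h1.congr_fderiv ?_
  ext v
  simp only [ContinuousLinearMap.smul_apply, smul_eq_mul, nsmul_eq_mul, Nat.cast_ofNat]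
  ring

theorem int_ev (p : Py) : Integrable fun x : V => Gs 1 x ^ 2 * (ev x p).re := by
  obtain ⟨C, d, hC, h⟩ := (Bd.const (Y := Unit) p).ev
  have hc : Continuous fun x : V => Gs 1 x ^ 2 * (ev x p).re := by
    refine Continuous.mul ?_ (Complex.continuous_re.comp (ev_smooth p).continuous)
    unfold Gs
    fun_prop
  refine ((g_sq d).const_mul C).mono' hc.aestronglyMeasurable (Eventually.of_forall fun x => ?_)
  have h1 : |(ev x p).re| ≤ C * (1 + ‖x‖) ^ d := (Complex.abs_re_le_norm _).trans (h () x)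
  have h2 : 1 ≤ (1 + ‖x‖) ^ d := one_le_pow₀ (le_add_of_nonneg_right (norm_nonneg x))
  have h3 : (1 + ‖x‖) ^ d ≤ ((1 + ‖x‖) ^ d) ^ 2 := by nlinarith
  rw [Real.norm_eq_abs, abs_mul, abs_of_nonneg (sq_nonneg _)]
  unfold wt
  rw [inv_one, one_smul, mul_pow, mul_left_comm]
  exact mul_le_mul_of_nonneg_left (h1.trans (mul_le_mul_of_nonneg_left h3 hC)) (sq_nonneg _)

theorem int0 : ∫ x : V, Gs 1 x ^ 2 = (64 * Real.pi ^ 2)⁻¹ := by
  have := Real.pi_pos
  simp only [yg_e]
  rw [integral_const_mul, g_gauss (by norm_num)]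
  field_simp
  norm_num

theorem int0' : Integrable fun x : V => Gs 1 x ^ 2 := by
  simpa only [map_one, Complex.one_re, mul_one] using int_ev 1

theorem int2' (k l : Fin 4) : Integrable fun x : V => Gs 1 x ^ 2 * (x k * x l) := by
  refine (int_ev (X k * X l)).congr (Eventually.of_forall fun x => ?_)
  have e : ev x (X k * X l : Py) = ((x k * x l : ℝ) : ℂ) := by
    rw [(ev x).map_mul, w_X, w_X, Complex.ofReal_mul]
  simp only [e, Complex.ofReal_re]

theorem int2 (k l : Fin 4) :
    ∫ x : V, Gs 1 x ^ 2 * (x k * x l) = if k = l then (64 * Real.pi ^ 2)⁻¹ else 0 := by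
  have hf : ∀ x : V, HasFDerivAt (fun x : V => x k) (EuclideanSpace.proj k : V →L[ℝ] ℝ) x :=
    fun x => (EuclideanSpace.proj k : V →L[ℝ] ℝ).hasFDerivAt
  have e1 : ∀ x : V, fderiv ℝ (fun x : V => x k) x (EuclideanSpace.single l 1) * Gs 1 x ^ 2 =
      (if k = l then 1 else 0) * Gs 1 x ^ 2 := fun x => by
    rw [(hf x).fderiv]
    simp
  have e2 : ∀ x : V, x k * fderiv ℝ (fun x : V => Gs 1 x ^ 2) x (EuclideanSpace.single l 1) =
      -(Gs 1 x ^ 2 * (x k * x l)) := fun x => by
    rw [(yg_fd x).fderiv]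
    simp only [ContinuousLinearMap.smul_apply, smul_eq_mul, innerSL_apply_apply,
      EuclideanSpace.inner_single_right, one_mul, conj_trivial]
    ring
  have i3 : Integrable fun x : V => x k * Gs 1 x ^ 2 := by
    simpa only [w_X, Complex.ofReal_re, mul_comm] using int_ev (X k)
  have h := integral_mul_fderiv_eq_neg_fderiv_mul_of_integrable (μ := (volume : Measure V))
    (f := fun x : V => x k) (g := fun x : V => Gs 1 x ^ 2) (v := EuclideanSpace.single l 1)
    (by simpa only [e1] using int0'.const_mul _) (by simp only [e2]; exact (int2' k l).neg) i3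
    (fun x _ => (hf x).differentiableAt) (fun x _ => (yg_fd x).differentiableAt)
  simp only [e1, e2] at h
  rw [integral_neg, integral_const_mul, int0, neg_inj] at h
  rw [h]
  split_ifs <;> simp

end Vale.Agent.P267J.Y
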