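import Vale.Agent.P267J.YD

/-! Integrability: Qk is continuous (ev_smooth) and bounded by C (1 + ‖x‖) ^ (2 d) (Bd.const, Bd.ev with Y = Unit); Gs 1 x ^ 2 (1 + ‖x‖) ^ (2 d) = wt d 1 x ^ 2, g_sq. Simplest: the class of continuous h : V → ℂ with ‖h x‖ ≤ C (1 + ‖x‖) ^ d is closed under sum, product, conj, re. -/

open scoped ContDiff Topology Matrix.Norms.L2Operator ComplexConjugate
open Filter Matrix MeasureTheory Metric Finset

noncomputable section

namespace Vale.Agent.P267J.Y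

open Vale.Agent.P267I Vale.Agent.P267I.H MvPolynomial

variable {N : ℕ} {W g : Submodule ℝ (Mat N)} {τ : Mat N →L[ℝ] ℝ} {o : Op N} {E : Mat N}
  {S : Fin 4 → Fin 4 → Mat N} {p q : Py} {P Q : MP N} {f f' : V → ℂ} {F F' : V → Mat N}

theorem yi_base (a b c : Py) :
    Integrable fun x : V => Gs 1 x ^ 2 * ((ev x a).re * (conj (ev x b) * ev x c).re) := by
  obtain ⟨A, d1, A0, hA⟩ := b_ev a
  obtain ⟨B, d2, B0, hB⟩ := b_ev b
  obtain ⟨D, d3, D0, hD⟩ := b_ev c
  have hc : Continuous fun x : V => Gs 1 x ^ 2 * ((ev x a).re * (conj (ev x b) * ev x c).re) :=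
    ((Gs_smooth 1).continuous.pow 2).mul
      ((Complex.continuous_re.comp (ev_smooth a).continuous).mul (Complex.continuous_re.comp
        ((Complex.continuous_conj.comp (ev_smooth b).continuous).mul (ev_smooth c).continuous)))
  refine ((g_sq (d1 + d2 + d3)).const_mul (A * (B * D))).mono' hc.aestronglyMeasurable
    (Eventually.of_forall fun x => ?_)
  have h0 : (1 : ℝ) ≤ 1 + ‖x‖ := le_add_of_nonneg_right (norm_nonneg _)
  have h1 : |(ev x a).re| ≤ A * (1 + ‖x‖) ^ d1 := (Complex.abs_re_le_norm _).trans (hA x)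
  have h2 : |(conj (ev x b) * ev x c).re| ≤ B * (1 + ‖x‖) ^ d2 * (D * (1 + ‖x‖) ^ d3) := by
    refine (Complex.abs_re_le_norm _).trans ?_
    rw [norm_mul, Complex.norm_conj]
    exact mul_le_mul (hB x) (hD x) (norm_nonneg _) (by positivity)
  have h3 := mul_le_mul h1 h2 (abs_nonneg _) (by positivity)
  have h4 : (1 + ‖x‖) ^ (d1 + d2 + d3) ≤ ((1 + ‖x‖) ^ (d1 + d2 + d3)) ^ 2 :=
    le_self_pow₀ (one_le_pow₀ h0) two_ne_zero
  have h5 : A * (1 + ‖x‖) ^ d1 * (B * (1 + ‖x‖) ^ d2 * (D * (1 + ‖x‖) ^ d3)) =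
      A * (B * D) * (1 + ‖x‖) ^ (d1 + d2 + d3) := by ring
  have h6 := (h3.trans h5.le).trans (mul_le_mul_of_nonneg_left h4 (by positivity))
  rw [Real.norm_eq_abs, abs_mul, abs_mul, abs_of_nonneg (sq_nonneg _), wt, inv_one, one_smul, mul_pow,
    mul_left_comm (A * (B * D))]
  exact mul_le_mul_of_nonneg_left h6 (sq_nonneg _)

theorem Qk_int (o : Op N) (ξ : Fin N → ℂ) (k : ℕ) :
    Integrable fun x : V => Gs 1 x ^ 2 * Qk o ξ k x := by
  simp only [Qk, Complex.re_sum, mul_sum]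
  exact integrable_finsetSum _ fun p _ => integrable_finsetSum _ fun q _ =>
    integrable_finsetSum _ fun i _ => yi_base _ _ _

end Vale.Agent.P267J.Y
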