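import Vale.Agent.P267J.YM

/-! The key identity modulo `W`. -/

open scoped ContDiff Topology Matrix.Norms.L2Operator ComplexConjugate
open Filter Matrix MeasureTheory Metric Finset

noncomputable section

namespace Vale.Agent.P267J.Y

open Vale.Agent.P267I Vale.Agent.P267I.H MvPolynomial

variable {N : ℕ} {W g : Submodule ℝ (Mat N)} {τ : Mat N →L[ℝ] ℝ} {o : Op N} {E : Mat N}
  {S : Fin 4 → Fin 4 → Mat N} {p q : Py} {P Q : MP N} {f f' : V → ℂ} {F F' : V → Mat N}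

theorem yk_C (x : ℂ) (P : MP N) : (C x : Py) • P = x • P := algebraMap_smul Py x P

theorem yk_two (P : MP N) : (2 : Py) • P = (2 : ℂ) • P := by rw [two_smul, two_smul]

theorem yk_f (S : Fin 4 → Fin 4 → Mat N) (j : Fin 4) :
    fM S j = aM S j - aM (fun a b => S b a) j := by
  simp only [fM, aM, cst_sub, smul_sub, Finset.sum_sub_distrib]

theorem yk_alg (a b : Fin 4 → MP N) (s c u : MP N) :
    (2 : ℂ) • (∑ j, a j * -((2⁻¹ : ℂ) • (a j + b j)) - (2⁻¹ : ℂ) • (s * u)) - c * u +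
      ∑ j, a j * a j - ((2⁻¹ : ℂ) • (-(s + c) * u + u * -(s + c) - (2 : ℂ) •
        ∑ j, -((2⁻¹ : ℂ) • (a j + b j)) * -((2⁻¹ : ℂ) • (a j + b j))) +
        (4⁻¹ : ℂ) • ∑ j, (a j - b j) * (a j - b j)) =
      (2⁻¹ : ℂ) • (u * (s + c) - (s + c) * u) + (2⁻¹ : ℂ) • ∑ j, (b j * a j - a j * b j) := by
  simp only [mul_add, add_mul, mul_sub, sub_mul, mul_neg, neg_mul, neg_neg, smul_mul_assoc,
    mul_smul_comm, Finset.sum_add_distrib, Finset.sum_sub_distrib, Finset.sum_neg_distrib,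
    ← Finset.smul_sum, smul_add]
  module

theorem key4 (hA : K.Alg τ W g) (hE : E ∈ W) (hS : ∀ j k, S j k ∈ g) :
    PW W ((2 : Py) • ∑ j, aM S j * (uM E S).map (dl j) - cst (E - ∑ j, S j j) * uM E S +
      ∑ j, aM S j * aM S j - (gM E S).map (Tk 4)) := by
  have e1 : ∑ j, aM S j * (uM E S).map (dl j) =
      ∑ j, aM S j * -((2⁻¹ : ℂ) • (aM S j + aM (fun a b => S b a) j)) -
        (2⁻¹ : ℂ) • (sg S * uM E S) := by
    rw [sg, Finset.sum_mul, Finset.smul_sum, ← Finset.sum_sub_distrib]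
    refine Finset.sum_congr rfl fun j _ => ?_
    rw [dl_map, dd_u, mul_smul, yk_C, yk_C, mul_sub, mul_smul_comm (2⁻¹ : ℂ) (aM S j) (_ • _),
      mul_smul_comm, smul_mul_assoc]
  have e2 := Tk_mul 2 2 (uM E S) (uM E S)
  simp only [Tk_u, dd_u, yk_C, yk_two] at e2
  rw [e1, gM, map_add', map_C', Tk_v, e2, yk_C, yk_C, yk_two]
  simp only [yk_f]
  rw [yk_alg, ← yk_C, ← yk_C]
  have hb : ∀ j, PW g (aM (fun a b => S b a) j) := pw_aM fun j k => hS k j
  refine PW.add (PW.smul ?_ (rp_inv 2)) (PW.smul (PW.sum _ fun j _ =>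
    PW.br hA.adW (hb j) ((pw_aM hS j).mono hA.le)) (rp_inv 2))
  have h1 := PW.br hA.adW ((pw_sg hS).sub (pw_cst (g.sum_mem (t := Finset.univ)
    fun j _ => hS j j))) (pw_uM hA.le hE hS)
  have h2 := (PW.br hA.adW (pw_sg hS) (pw_cst hE)).smul (rp_inv 2)
  have e3 : uM E S * (sg S + cst (E - ∑ j, S j j)) - (sg S + cst (E - ∑ j, S j j)) * uM E S =
      -((sg S - cst (∑ j, S j j)) * uM E S - uM E S * (sg S - cst (∑ j, S j j))) -
        (C 2⁻¹ : Py) • (sg S * cst E - cst E * sg S) := by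
    have e4 : uM E S * cst E - cst E * uM E S =
        -((C 2⁻¹ : Py) • (sg S * cst E - cst E * sg S)) := by
      simp only [uM, sub_mul, mul_sub, neg_mul, mul_neg, smul_mul_assoc, mul_smul_comm, smul_sub]
      abel
    rw [sub_eq_add_neg (-_), ← e4, cst_sub]
    noncomm_ring
  rw [e3]
  exact h1.neg.sub h2

end Vale.Agent.P267J.Y
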