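import Vale.Agent.P267J.YN
import Vale.Agent.P267J.YK

/-! The recursion: Tk_PM with sum_range_succ; P = (P.map (Tk k)).map (Ti k) (Ti_Tk), map_one', rl_Ti; Tk_u; PW.of_Tk; MM_add; key4. -/

open scoped ContDiff Topology Matrix.Norms.L2Operator ComplexConjugate
open Filter Matrix MeasureTheory Metric Finset

noncomputable section

namespace Vale.Agent.P267J.Y

open Vale.Agent.P267I Vale.Agent.P267I.H MvPolynomial

variable {N : ℕ} {W g : Submodule ℝ (Mat N)} {τ : Mat N →L[ℝ] ℝ} {o : Op N} {E : Mat N}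
  {S : Fin 4 → Fin 4 → Mat N} {p q : Py} {P Q : MP N} {f f' : V → ℂ} {F F' : V → Mat N}

theorem yq_inv {k : ℕ} (hk : 0 < k) (hq : RP q) (h : P.map (Tk k) = q • (1 : MP N)) :
    ∃ p, RP p ∧ P = p • (1 : MP N) := by
  refine ⟨Ti k q, rl_Ti hk q hq, ?_⟩
  rw [← map_one', ← h]
  exact Matrix.ext fun i j => (Ti_Tk hk _).symm

theorem rc (hA : K.Alg τ W g) (h : NF E S W g o) : RC E S W o := by
  have h0 := PM_zero o
  have h1 : ∃ p, RP p ∧ PM o 1 = p • (1 : MP N) := by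
    obtain ⟨q, hq, e⟩ := mm0_sc hA h rp_one
    refine yq_inv Nat.one_pos hq.neg ?_
    have e1 := Tk_PM o 0
    rw [sum_range_one, h0] at e1
    rw [one_smul] at e
    rw [e1, e, neg_smul]
  obtain ⟨p1, hp1, e1⟩ := h1
  have h2 : ∃ p, RP p ∧ PM o 2 = p • (1 : MP N) + uM E S := by
    obtain ⟨q, hq, e⟩ := mm0_sc hA h hp1
    obtain ⟨r, hr, e'⟩ := mm1_one hA h
    have e2 := Tk_PM o 1
    rw [sum_range_succ, sum_range_one] at e2
    change (PM o 2).map (Tk 2) = -(MM o 0 (PM o 1) + MM o 1 (PM o 0)) at e2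
    rw [h0, e1, e, e'] at e2
    obtain ⟨p, hp, e3⟩ := yq_inv (P := PM o 2 - uM E S) two_pos (hq.add hr).neg (by
      rw [map_sub', e2, Tk_u, neg_smul, add_smul]
      abel)
    exact ⟨p, hp, eq_add_of_sub_eq e3⟩
  obtain ⟨p2, hp2, e2⟩ := h2
  have hu : PW W (uM E S) := pw_uM hA.le h.EW h.Sg
  have h3 : PW W (PM o 3) := by
    have e3 := Tk_PM o 2
    rw [sum_range_succ, sum_range_succ, sum_range_one] at e3
    change (PM o 3).map (Tk 3) = -(MM o 0 (PM o 2) + MM o 1 (PM o 1) + MM o 2 (PM o 0)) at e3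
    refine PW.of_Tk (k := 3) (by norm_num) ?_
    have h4 := mm_sc hA h rp_one (le_refl 2)
    rw [one_smul] at h4
    rw [e3, h0, e1, e2]
    exact (((mm0_pw hA h ((pw_one hA.one hp2).add hu)).add (mm_sc hA h hp1 one_le_two)).add h4).neg
  refine ⟨h0, ⟨p1, hp1, e1⟩, ⟨p2, hp2, e2⟩, h3, ?_⟩
  have e4 := Tk_PM o 3
  rw [sum_range_succ, sum_range_succ, sum_range_succ, sum_range_one] at e4
  change (PM o 4).map (Tk 4) =
    -(MM o 0 (PM o 3) + MM o 1 (PM o 2) + MM o 2 (PM o 1) + MM o 3 (PM o 0)) at e4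
  refine PW.of_Tk (k := 4) (by norm_num) ?_
  have h5 := (((((key4 hA h.EW h.Sg).sub (mm0_pw hA h h3)).sub (mm_sc hA h hp2 one_le_two)).sub
    (mm1_pw hA h hu)).sub (mm_sc hA h hp1 le_rfl)).sub (mm3_one hA h)
  rw [map_sub', e4, h0, e1, e2, MM_add]
  refine (congrArg (PW W) ?_).mp h5
  abel

end Vale.Agent.P267J.Y
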