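import Vale.Agent.P267J.YL

/-! The supertrace. ev_pk; for matrices A B Π: sum_m sum_i conj ((A *ᵥ Π.col m) i) * (B *ᵥ Π.col m) i = trace ((A Π)ᴴ * (B Π)) = trace (Π * Πᴴ * (Aᴴ * B)); Π₊ Π₊ᴴ - Π₋ Π₋ᴴ = γ (Cl.gam_star in the file AlgS); sum_comm, mul_sum, sum_sub_distrib. -/

open scoped ContDiff Topology Matrix.Norms.L2Operator ComplexConjugate
open Filter Matrix MeasureTheory Metric Finset

noncomputable section

namespace Vale.Agent.P267J.Y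

open Vale.Agent.P267I Vale.Agent.P267I.H MvPolynomial

variable {N : ℕ} {W g : Submodule ℝ (Mat N)} {τ : Mat N →L[ℝ] ℝ} {o : Op N} {E : Mat N}
  {S : Fin 4 → Fin 4 → Mat N} {p q : Py} {P Q : MP N} {f f' : V → ℂ} {F F' : V → Mat N}

theorem ys_col (A B R : Mat N) :
    ∑ m, ∑ i, conj ((A *ᵥ fun l => R l m) i) * (B *ᵥ fun l => R l m) i =
      (R * Rᴴ * (Aᴴ * B)).trace := by
  have e : ∑ m, ∑ i, conj ((A *ᵥ fun l => R l m) i) * (B *ᵥ fun l => R l m) i =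
      ((A * R)ᴴ * (B * R)).trace := rfl
  rw [e, conjTranspose_mul, ← Matrix.mul_assoc, trace_mul_comm]
  simp only [Matrix.mul_assoc]

theorem ys_proj (C : Cl N) :
    ((1 / 2 : ℂ) • (1 + (1 : ℂ) • C.gam)) * ((1 / 2 : ℂ) • (1 + (1 : ℂ) • C.gam))ᴴ -
      ((1 / 2 : ℂ) • (1 + (-1 : ℂ) • C.gam)) * ((1 / 2 : ℂ) • (1 + (-1 : ℂ) • C.gam))ᴴ = C.gam := by
  have h : star (1 / 2 : ℂ) = 1 / 2 := by simp
  simp only [conjTranspose_smul, conjTranspose_add, conjTranspose_one, C.gam_star, h, star_one,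
    star_neg, smul_mul_assoc, mul_smul_comm, mul_add, add_mul, mul_one, one_mul]
  module

theorem ys_two (C : Cl N) (A B : Mat N) :
    ∑ m, ((∑ i, conj ((A *ᵥ Pc C 1 m) i) * (B *ᵥ Pc C 1 m) i).re -
      (∑ i, conj ((A *ᵥ Pc C (-1) m) i) * (B *ᵥ Pc C (-1) m) i).re) =
      (C.gam * (Aᴴ * B)).trace.re := by
  rw [sum_sub_distrib, ← Complex.re_sum, ← Complex.re_sum, ← Complex.sub_re]
  congr 1
  conv_rhs => rw [← ys_proj C, sub_mul, trace_sub, ← ys_col, ← ys_col]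
  rfl

theorem str_Qk (C : Cl N) (o : Op N) (k : ℕ) (x : V) :
    ∑ m, (Qk o (Pc C 1 m) k x - Qk o (Pc C (-1) m) k x) = ∑ a ∈ antidiagonal k,
      (ev x (tay o.ρ a.1)).re * tq (fun Y => (C.gam * Y).trace.re) o a.2 x := by
  simp only [Qk, tq, ev_pk, ← ys_two, ← sum_sub_distrib, ← mul_sub]
  rw [sum_comm]
  refine sum_congr rfl fun a _ => ?_
  rw [← mul_sum, sum_comm]

end Vale.Agent.P267J.Y
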