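import Vale.Agent.P267J.YP

/-! Values of the supertrace. evM x is a ring hom ((ev x).mapMatrix), evM x (p • P) = ev x p • evM x P, real for RP p (RP.ev, Complex.coe_smul), evM x (cst w) = w. P0 = 1, P1 = real • 1, P2 = real • 1 + u, P2 P3 in W, star W ⊆ W, τ W = 0, τ (star a) = τ a. Weight 4: τ (P4) + τ (P4ᴴ) + τ (P2ᴴ P2) = τ (u u) + 2 τ v + τ (uᴴ u), u = - E - σ / 2, σ = evM x (sg S) in g, uᴴ = - E + σ / 2, τ (E σ) = 0 (τ (E σ) = τ (star) = - τ (σ E), adW). antidiagonal n by decide or Finset.Nat.antidiagonal_succ. -/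

open scoped ContDiff Topology Matrix.Norms.L2Operator ComplexConjugate
open Filter Matrix MeasureTheory Metric Finset

noncomputable section

namespace Vale.Agent.P267J.Y

open Vale.Agent.P267I Vale.Agent.P267I.H MvPolynomial

variable {N : ℕ} {W g : Submodule ℝ (Mat N)} {τ : Mat N →L[ℝ] ℝ} {o : Op N} {E : Mat N}
  {S : Fin 4 → Fin 4 → Mat N} {p q : Py} {P Q : MP N} {f f' : V → ℂ} {F F' : V → Mat N}

theorem yv_hom (x : V) (P : MP N) : evM x P = (ev x).mapMatrix P := rfl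

theorem yv_smul (x : V) (p : Py) (P : MP N) : evM x (p • P) = ev x p • evM x P := by
  ext i j
  simp [evM]

theorem yv_cst (x : V) (w : Mat N) : evM x (cst w) = w := by
  ext i j
  simp [evM, cst, ev]

theorem yv_add (x : V) (P Q : MP N) : evM x (P + Q) = evM x P + evM x Q := by
  simp only [yv_hom, map_add]

theorem yv_sub (x : V) (P Q : MP N) : evM x (P - Q) = evM x P - evM x Q := by
  simp only [yv_hom, map_sub]

theorem yv_neg (x : V) (P : MP N) : evM x (-P) = -evM x P := by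
  simp only [yv_hom, map_neg]

theorem yv_mul (x : V) (P Q : MP N) : evM x (P * Q) = evM x P * evM x Q := by
  simp only [yv_hom, map_mul]

theorem yv_one (x : V) : evM x (1 : MP N) = 1 := by
  simp only [yv_hom, map_one]

theorem yv_sum (x : V) (P : Fin 4 → MP N) : evM x (∑ j, P j) = ∑ j, evM x (P j) := by
  simp only [yv_hom, map_sum]

theorem yv_real (x : V) (hp : RP p) : evM x (p • (1 : MP N)) = (ev x p).re • (1 : Mat N) := by
  rw [yv_smul, yv_one, ← Complex.coe_smul, hp.ev x]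

theorem yv_C (x : V) (r : ℝ) {c : ℂ} (hc : c = r) (P : MP N) :
    evM x ((C c : Py) • P) = r • evM x P := by
  rw [yv_smul, ← Complex.coe_smul, ← hc]
  simp [ev]

theorem yv_X (x : V) (k : Fin 4) (P : MP N) : evM x ((X k : Py) • P) = x k • evM x P := by
  rw [yv_smul, ← Complex.coe_smul]
  simp [ev]

theorem yv_st (r : ℝ) : (r • (1 : Mat N))ᴴ = r • (1 : Mat N) := by
  rw [conjTranspose_smul, conjTranspose_one, star_trivial]

theorem yv_data (hA : K.Alg τ W g) (hE : E ∈ W) (hS : ∀ j k, S j k ∈ g) (h : RC E S W o) (x : V) :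
    evM x (PM o 0) = 1 ∧ (∃ r : ℝ, evM x (PM o 1) = r • 1) ∧
      (∃ r : ℝ, evM x (PM o 2) = r • 1 + evM x (uM E S)) ∧ evM x (PM o 2) ∈ W ∧
      evM x (PM o 3) ∈ W := by
  obtain ⟨p1, h1, e1⟩ := h.p1
  obtain ⟨p2, h2, e2⟩ := h.p2
  refine ⟨by rw [h.p0, yv_one], ⟨_, by rw [e1, yv_real x h1]⟩,
    ⟨_, by rw [e2, yv_add, yv_real x h2]⟩, ?_, h.p3.ev x⟩
  rw [e2]
  exact ((pw_one hA.one h2).add (pw_uM hA.le hE hS)).ev x

theorem tq_low (hA : K.Alg τ W g) (hE : E ∈ W) (hS : ∀ j k, S j k ∈ g) (h : RC E S W o) {n : ℕ}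
    (hn : n < 4) (x : V) : tq τ o n x = 0 := by
  obtain ⟨e0, ⟨r, e1⟩, -, m2, m3⟩ := yv_data hA hE hS h x
  have t1 := hA.ker _ hA.one
  have t2 := hA.ker _ m2
  have t3 := hA.ker _ m3
  have s2 : τ (evM x (PM o 2))ᴴ = 0 := (hA.tst _).trans t2
  have s3 : τ (evM x (PM o 3))ᴴ = 0 := (hA.tst _).trans t3
  unfold tq
  rw [Finset.Nat.sum_antidiagonal_eq_sum_range_succ
    fun i j => τ ((evM x (PM o i))ᴴ * evM x (PM o j))]
  interval_cases n <;>
    simp only [sum_range_succ, sum_range_zero, Nat.sub_zero, Nat.sub_self, Nat.reduceSub, e0, e1,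
      yv_st, conjTranspose_one, one_mul, mul_one, smul_mul_assoc, mul_smul_comm, map_smul, t1, t2,
      t3, s2, s3, smul_zero, add_zero]

theorem yv_Es (hA : K.Alg τ W g) (hE : E ∈ W) (hE' : Eᴴ = E) {s : Mat N} (hs : s ∈ g) :
    τ (E * s) = 0 := by
  have h1 := hA.ker _ (hA.adW s hs E hE)
  have h2 := hA.tst (E * s)
  rw [star_mul, hA.skew s hs, show star E = E from hE', neg_mul, map_neg] at h2
  rw [map_sub] at h1
  linarith

theorem tq_four (hA : K.Alg τ W g) (hE : E ∈ W) (hE' : Eᴴ = E) (hS : ∀ j k, S j k ∈ g)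
    (h : RC E S W o) (x : V) : tq τ o 4 x = 2 * τ (E * E) +
      6⁻¹ * (∑ j, ∑ k, ∑ l, x k * x l * τ ((S k j - S j k) * (S l j - S j l))) +
      6⁻¹ * τ (∑ j, ∑ k, (S k j - S j k) * (S k j - S j k)) := by
  obtain ⟨e0, ⟨r, e1⟩, ⟨r2, e2⟩, m2, m3⟩ := yv_data hA hE hS h x
  have t1 := hA.ker _ hA.one
  have t3 := hA.ker _ m3
  have s3 : τ (evM x (PM o 3))ᴴ = 0 := (hA.tst _).trans t3
  have s4 : τ (evM x (PM o 4))ᴴ = τ (evM x (PM o 4)) := hA.tst _
  have tu := hA.ker _ ((pw_uM hA.le hE hS).ev x)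
  have su : τ (evM x (uM E S))ᴴ = 0 := (hA.tst _).trans tu
  have hs : evM x (sg S) ∈ g := (pw_sg hS).ev x
  have eu : evM x (uM E S) = -E - (2⁻¹ : ℝ) • evM x (sg S) := by
    rw [uM, yv_sub, yv_neg, yv_cst, yv_C x 2⁻¹ (by norm_num)]
  have eu' : (evM x (uM E S))ᴴ = -E + (2⁻¹ : ℝ) • evM x (sg S) := by
    have h1 : (evM x (sg S))ᴴ = -evM x (sg S) := hA.skew _ hs
    rw [eu, conjTranspose_sub, conjTranspose_neg, hE', conjTranspose_smul, star_trivial, h1,
      smul_neg, sub_neg_eq_add]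
  have h4 : τ (evM x (PM o 4)) = 2⁻¹ * τ (evM x (uM E S) * evM x (uM E S)) +
      12⁻¹ * ((∑ j, ∑ k, ∑ l, x k * x l * τ ((S k j - S j k) * (S l j - S j l))) +
        τ (∑ j, ∑ k, (S k j - S j k) * (S k j - S j k))) := by
    have h1 := hA.ker _ (h.p4.ev x)
    rw [yv_sub, map_sub, sub_eq_zero] at h1
    rw [h1, gM, vM, yv_add, yv_C x 2⁻¹ (by norm_num), yv_C x 12⁻¹ (by norm_num), yv_mul, yv_add,
      yv_cst, yv_sum, map_add, map_smul, map_smul, map_add, map_sum τ _ univ]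
    have h2 : ∀ j, τ (evM x (fM S j * fM S j)) =
        ∑ k, ∑ l, x k * x l * τ ((S k j - S j k) * (S l j - S j l)) := fun j => by
      rw [yv_mul]
      simp only [fM, yv_sum, yv_X, yv_cst]
      rw [sum_mul_sum, map_sum]
      refine sum_congr rfl fun k _ => ?_
      rw [map_sum]
      refine sum_congr rfl fun l _ => ?_
      rw [smul_mul_smul_comm, map_smul, smul_eq_mul]
    simp only [h2, smul_eq_mul]
  have h5 : τ (evM x (uM E S) * evM x (uM E S)) + τ ((evM x (uM E S))ᴴ * evM x (uM E S)) =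
      2 * τ (E * E) := by
    have h1 := yv_Es hA hE hE' hs
    rw [← map_add, ← add_mul, eu', eu]
    generalize evM x (sg S) = s at h1
    have e : -E - (2⁻¹ : ℝ) • s + (-E + (2⁻¹ : ℝ) • s) = -E + -E := by abel
    rw [e]
    simp only [add_mul, mul_sub, neg_mul, mul_neg, neg_neg, mul_smul_comm, map_add, map_sub, map_neg,
      map_smul, h1, smul_zero]
    ring
  unfold tq
  rw [Finset.Nat.sum_antidiagonal_eq_sum_range_succ
    fun i j => τ ((evM x (PM o i))ᴴ * evM x (PM o j))]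
  simp only [sum_range_succ, sum_range_zero, Nat.sub_zero, Nat.sub_self, Nat.reduceSub, e0, e1, e2,
    yv_st, conjTranspose_one, conjTranspose_add, one_mul, mul_one, add_mul, mul_add,
    smul_mul_assoc, mul_smul_comm, map_add, map_smul, t1, t3, s3, s4, tu, su, smul_zero, add_zero,
    zero_add]
  linarith

end Vale.Agent.P267J.Y
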