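import Vale.Agent.P267J.YB
import Vale.Agent.P267J.YC
import Vale.Agent.P267J.YQ
import Vale.Agent.P267J.YS
import Vale.Agent.P267J.YV
import Vale.Agent.P267J.YG
import Vale.Agent.P267J.YI

/-! The algebra of the local index theorem. -/

open scoped ContDiff Topology Matrix.Norms.L2Operator ComplexConjugate
open Filter Matrix MeasureTheory Metric Finset

noncomputable section

namespace Vale.Agent.P267J.Y

open Vale.Agent.P267I Vale.Agent.P267I.H MvPolynomial

variable {N : ℕ} {W g : Submodule ℝ (Mat N)} {τ : Mat N →L[ℝ] ℝ} {o : Op N} {E : Mat N}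
  {S : Fin 4 → Fin 4 → Mat N} {p q : Py} {P Q : MP N} {f f' : V → ℂ} {F F' : V → Mat N}

theorem alg0 (N : ℕ) : H.Alg0 N := by
  intro C τ W g hA hτ r L hr h h0 k hk
  have nf : NF (L.E 0) (fun k j => pdM k (L.A j) 0) W g L.op :=
    { a := nf_a hA hr h h0
      ρ0 := by simp [Lap.op, h.ρ0]
      b0 := nf_b0 hA hr h h0
      b1 := nf_b1 hA hr h h0
      bW := nf_bW hA hr h h0
      c0 := nf_c0 hA hr h h0
      c1 := nf_c1 hA hr h h0
      c2 := nf_c2 hA hr h h0
      EW := h.EW 0 (mem_ball_self hr)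
      Est := h.Est 0 (mem_ball_self hr)
      Sg := nf_S hA hr h h0 }
  have hrc := rc hA nf
  have e0 : (fun Y : Mat N => (C.gam * Y).trace.re) = τ := funext fun Y => (hτ Y).symm
  have e1 : str C L.op k = ∫ x : V, Gs 1 x ^ 2 * ∑ a ∈ antidiagonal k,
      (ev x (tay L.op.ρ a.1)).re * tq τ L.op a.2 x := by
    unfold str alpha
    rw [← e0]
    simp only [← str_Qk, mul_sum, mul_sub]
    rw [integral_finsetSum (f := fun m x => Gs 1 x ^ 2 * Qk L.op (Pc C 1 m) k x -
      Gs 1 x ^ 2 * Qk L.op (Pc C (-1) m) k x) _ fun m _ => (Qk_int _ _ _).sub (Qk_int _ _ _)]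
    exact sum_congr rfl fun m _ => (integral_sub (Qk_int _ _ _) (Qk_int _ _ _)).symm
  rw [e1]
  split_ifs with h4
  · subst h4
    have e2 : ∀ x : V, ∑ a ∈ antidiagonal 4, (ev x (tay L.op.ρ a.1)).re * tq τ L.op a.2 x =
        tq τ L.op 4 x := fun x => by
      rw [sum_eq_single (0, 4)]
      · rw [tay_zero, w_C, nf.ρ0, Complex.one_re, one_mul]
      · rintro ⟨a, b⟩ hab hne
        have := mem_antidiagonal.1 hab
        have hb : b < 4 := by
          by_contra hb
          exact hne (by simp only [Prod.mk.injEq]; simp only at this; omega)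
        rw [tq_low hA nf.EW nf.Sg hrc hb, mul_zero]
      · simp
    have eF : ∀ j k, L.F j k 0 = pdM j (L.A k) 0 - pdM k (L.A j) 0 := fun j k => by
      simp [Lap.F, h0]
    simp only [e2, tq_four hA nf.EW nf.Est nf.Sg hrc, ← eF]
    have e3 : ∀ x : V, Gs 1 x ^ 2 * (2 * τ (L.E 0 * L.E 0) +
        6⁻¹ * (∑ j, ∑ k, ∑ l, x k * x l * τ (L.F k j 0 * L.F l j 0)) +
        6⁻¹ * τ (∑ j, ∑ k, L.F k j 0 * L.F k j 0)) =
        Gs 1 x ^ 2 * (2 * τ (L.E 0 * L.E 0) + 6⁻¹ * τ (∑ j, ∑ k, L.F k j 0 * L.F k j 0)) +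
        ∑ j, ∑ k, ∑ l, Gs 1 x ^ 2 * (x k * x l) * (6⁻¹ * τ (L.F k j 0 * L.F l j 0)) := fun x => by
      have : ∑ j, ∑ k, ∑ l, Gs 1 x ^ 2 * (x k * x l) * (6⁻¹ * τ (L.F k j 0 * L.F l j 0)) =
          Gs 1 x ^ 2 * (6⁻¹ * ∑ j, ∑ k, ∑ l, x k * x l * τ (L.F k j 0 * L.F l j 0)) := by
        simp only [mul_sum]
        exact sum_congr rfl fun _ _ => sum_congr rfl fun _ _ => sum_congr rfl fun _ _ => by ring
      rw [this]
      ring
    simp only [e3]
    have i3 : ∀ j k l : Fin 4, Integrable fun x : V =>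
        Gs 1 x ^ 2 * (x k * x l) * (6⁻¹ * τ (L.F k j 0 * L.F l j 0)) := fun j k l =>
      (int2' k l).mul_const _
    rw [integral_add (int0'.mul_const _) (integrable_finsetSum _ fun j _ =>
      integrable_finsetSum _ fun k _ => integrable_finsetSum _ fun l _ => i3 j k l),
      integral_mul_const, int0, integral_finsetSum _ fun j _ =>
      integrable_finsetSum _ fun k _ => integrable_finsetSum _ fun l _ => i3 j k l]
    have e4 : ∀ j : Fin 4, ∫ x : V, ∑ k, ∑ l,
        Gs 1 x ^ 2 * (x k * x l) * (6⁻¹ * τ (L.F k j 0 * L.F l j 0)) =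
        (64 * Real.pi ^ 2)⁻¹ * (6⁻¹ * τ (∑ k, L.F k j 0 * L.F k j 0)) := fun j => by
      rw [integral_finsetSum _ fun k _ => integrable_finsetSum _ fun l _ => i3 j k l, map_sum,
        mul_sum, mul_sum]
      refine sum_congr rfl fun k _ => ?_
      rw [integral_finsetSum _ fun l _ => i3 j k l]
      simp only [integral_mul_const, int2, ite_mul, zero_mul, sum_ite_eq, mem_univ, if_true]
    simp only [e4]
    rw [← mul_sum, ← mul_sum, ← map_sum, Lap.den, ← hτ, map_add,
      sum_comm (f := fun j k => L.F j k 0 * L.F j k 0)]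
    have c1 : ∀ Y : Mat N, τ ((1 / 2 : ℂ) • Y) = 1 / 2 * τ Y := fun Y => by
      rw [← smul_eq_mul, ← map_smul, ← Complex.coe_smul]
      norm_num
    have c2 : ∀ Y : Mat N, τ ((1 / 12 : ℂ) • Y) = 1 / 12 * τ Y := fun Y => by
      rw [← smul_eq_mul, ← map_smul, ← Complex.coe_smul]
      norm_num
    rw [c1, c2]
    have := Real.pi_pos
    field_simp
    ring
  · have e2 : ∀ x : V, ∑ a ∈ antidiagonal k, (ev x (tay L.op.ρ a.1)).re * tq τ L.op a.2 x = 0 :=
      fun x => sum_eq_zero fun a ha => by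
        have := mem_antidiagonal.1 ha
        rw [tq_low hA nf.EW nf.Sg hrc (by omega), mul_zero]
    simp [e2]

end Vale.Agent.P267J.Y
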