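import Vale.Agent.P267J.D

/-! The model operator. Tk k maps a polynomial of total degree ≤ n to ((k + n) / 2) * (its top part) + lower degree: X i * pderiv i sums to the Euler operator (MvPolynomial.IsHomogeneous.sum_X_mul_pderiv), pderiv lowers the degree. Surjective: induction on the degree, or for a homogeneous q of degree n strong induction: Tk k q = ((k + n) / 2) q - sum pderiv pderiv q with the last term homogeneous of degree n - 2 (zero if n < 2); sum_homogeneousComponent. Injective: look at the top homogeneous component. LinearMap.exists_rightInverse_of_surjective. Tk_dl: Derivation.leibniz, pderiv_X, ring. -/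

open MeasureTheory Filter Topology Metric Finset
open scoped ContDiff ComplexConjugate

noncomputable section

namespace Vale.Agent.P267J

variable {N : ℕ} {M r s : ℝ} {Y : Type} {χ : V → ℂ} {o : Op N} {ξ : Fin N → ℂ}

/-- The Laplacian on polynomials. -/
def a_lap (q : Py) : Py := ∑ i, MvPolynomial.pderiv i (MvPolynomial.pderiv i q)

theorem a_app (k : ℕ) (q : Py) : Tk k q = ((k : ℂ) / 2) • q +
    MvPolynomial.C 2⁻¹ * (∑ i, MvPolynomial.X i * MvPolynomial.pderiv i q) - a_lap q := by
  have h : Tk k q = ((k : ℂ) / 2) • q + ∑ i : Fin 4,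
      (MvPolynomial.C 2⁻¹ * MvPolynomial.X i * MvPolynomial.pderiv i q -
        MvPolynomial.pderiv i (MvPolynomial.pderiv i q)) := by
    simp only [Tk, LinearMap.add_apply, LinearMap.smul_apply, LinearMap.id_apply, LinearMap.sum_apply,
      LinearMap.sub_apply, LinearMap.comp_apply, LinearMap.mulLeft_apply, Derivation.coeFn_coe]
  rw [h, sum_sub_distrib, mul_sum, a_lap, add_sub_assoc]
  simp only [mul_assoc]

theorem a_hom (k : ℕ) {q : Py} {n : ℕ} (h : q.IsHomogeneous n) :
    Tk k q = (((k : ℂ) + n) / 2) • q - a_lap q := by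
  rw [a_app, h.sum_X_mul_pderiv, MvPolynomial.C_mul', ← Nat.cast_smul_eq_nsmul ℂ, smul_smul, ← add_smul]
  exact congrArg (fun c : ℂ => c • q - a_lap q) (by ring)

theorem a_zero {q : Py} (h : q.IsHomogeneous 0) (i : Fin 4) : MvPolynomial.pderiv i q = 0 := by
  have h1 : q.totalDegree = 0 := Nat.le_zero.1 h.totalDegree_le
  rw [MvPolynomial.totalDegree_eq_zero_iff_eq_C.1 h1, MvPolynomial.pderiv_C]

theorem a_low {q : Py} {n : ℕ} (h : q.IsHomogeneous n) :
    a_lap q = 0 ∨ ∃ m < n, (a_lap q).IsHomogeneous m := by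
  rcases n with _ | n
  · exact Or.inl (sum_eq_zero fun i _ => by rw [a_zero h, map_zero])
  · refine Or.inr ⟨n + 1 - 1 - 1, by omega, ?_⟩
    rcases n with _ | n
    · exact MvPolynomial.IsHomogeneous.sum _ _ _ fun i _ => h.pderiv.pderiv
    · exact MvPolynomial.IsHomogeneous.sum _ _ _ fun i _ => h.pderiv.pderiv

theorem a_ne {k : ℕ} (hk : 0 < k) (n : ℕ) : ((k : ℂ) + n) / 2 ≠ 0 := by
  have h : ((k + n : ℕ) : ℂ) ≠ 0 := Nat.cast_ne_zero.2 (by omega)
  rw [Nat.cast_add] at h
  exact div_ne_zero h two_ne_zero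

theorem a_surj {k : ℕ} (hk : 0 < k) : LinearMap.range (Tk k) = ⊤ := by
  have key : ∀ (n : ℕ) (q : Py), q.IsHomogeneous n → q ∈ LinearMap.range (Tk k) := by
    intro n
    induction n using Nat.strong_induction_on with
    | _ n ih =>
      intro q hq
      have h1 : a_lap q ∈ LinearMap.range (Tk k) := by
        rcases a_low hq with h | ⟨m, hm, h⟩
        · rw [h]; exact zero_mem _
        · exact ih m hm _ h
      have h2 : Tk k q + a_lap q ∈ LinearMap.range (Tk k) := add_mem (LinearMap.mem_range_self _ _) h1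
      rw [a_hom k hq, sub_add_cancel] at h2
      exact (Submodule.smul_mem_iff _ (a_ne hk n)).1 h2
  rw [eq_top_iff]
  intro q _
  rw [← MvPolynomial.sum_homogeneousComponent q]
  exact sum_mem fun i _ => key i _ (MvPolynomial.homogeneousComponent_isHomogeneous i q)

theorem Tk_Ti {k : ℕ} (hk : 0 < k) (q : Py) : Tk k (Ti k q) = q := by
  have h : ∃ g : Py →ₗ[ℂ] Py, Tk k ∘ₗ g = LinearMap.id :=
    LinearMap.exists_rightInverse_of_surjective _ (a_surj hk)
  rw [Ti, dif_pos h]
  exact LinearMap.congr_fun h.choose_spec q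

theorem Tk_inj {k : ℕ} (hk : 0 < k) : Function.Injective (Tk k) := by
  have key : ∀ (f : ℕ → Py), (∀ i, (f i).IsHomogeneous i) → ∀ n : ℕ,
      Tk k (∑ i ∈ range n, f i) = 0 → ∑ i ∈ range n, f i = 0 := by
    intro f hf n
    induction n with
    | zero => exact fun _ => sum_range_zero _
    | succ n ih =>
      intro h
      have h0 : ∀ i ≤ n, MvPolynomial.homogeneousComponent n (a_lap (f i)) = 0 := by
        intro i hi
        rcases a_low (hf i) with h1 | ⟨m, hm, h1⟩
        · rw [h1, map_zero]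
        · rw [MvPolynomial.homogeneousComponent_of_mem h1, if_neg (by omega)]
      have h1 := congrArg (MvPolynomial.homogeneousComponent n) h
      rw [map_zero, map_sum, map_sum, sum_range_succ, sum_eq_zero, zero_add, a_hom k (hf n), map_sub,
        map_smul, h0 n le_rfl, sub_zero, MvPolynomial.homogeneousComponent_of_mem (hf n), if_pos rfl] at h1
      · have h2 : f n = 0 := (smul_eq_zero.1 h1).resolve_left (a_ne hk n)
        rw [sum_range_succ, h2, add_zero] at h ⊢
        exact ih h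
      · intro i hi
        have hi' := mem_range.1 hi
        rw [a_hom k (hf i), map_sub, map_smul, h0 i hi'.le, sub_zero,
          MvPolynomial.homogeneousComponent_of_mem (hf i), if_neg (by omega), smul_zero]
  rw [injective_iff_map_eq_zero]
  intro q hq
  rw [← MvPolynomial.sum_homogeneousComponent q] at hq ⊢
  exact key _ (fun i => MvPolynomial.homogeneousComponent_isHomogeneous i q) _ hq

theorem Tk_zero (a : ℂ) : Tk 0 (MvPolynomial.C a) = 0 := by
  rw [a_app]
  simp [a_lap]

theorem Tk_pk (o : Op N) (ξ : Fin N → ℂ) (k : ℕ) (i : Fin N) :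
    Tk (k + 1) (pk o ξ (k + 1) i) = -∑ l ∈ range (k + 1), Ml o l (pk o ξ (k - l)) i := by
  rw [pk, Tk_Ti (Nat.succ_pos k),
    Fin.sum_univ_eq_sum_range (fun l => Ml o l (pk o ξ (k - l)) i) (k + 1)]

theorem Tk_dl (k : ℕ) (q : Py) : 2 * (Tk k q + ∑ j, dl j (dl j q)) =
    MvPolynomial.C ((k : ℂ) - 4) * q + MvPolynomial.C 2⁻¹ * (∑ j, MvPolynomial.X j ^ 2) * q -
      ∑ j, MvPolynomial.X j * MvPolynomial.pderiv j q := by
  have h2 : (2 : Py) * MvPolynomial.C 2⁻¹ = 1 := by
    rw [← map_ofNat MvPolynomial.C 2, ← map_mul, mul_inv_cancel₀ two_ne_zero, map_one]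
  have hd : ∀ j (p : Py), dl j p =
      MvPolynomial.pderiv j p - MvPolynomial.C 2⁻¹ * MvPolynomial.X j * p := fun j p => rfl
  have h3 : ∀ j, dl j (dl j q) = MvPolynomial.pderiv j (MvPolynomial.pderiv j q) -
      MvPolynomial.C 2⁻¹ * q - 2 * MvPolynomial.C 2⁻¹ * (MvPolynomial.X j * MvPolynomial.pderiv j q) +
      MvPolynomial.C 2⁻¹ * MvPolynomial.C 2⁻¹ * MvPolynomial.X j ^ 2 * q := by
    intro j
    rw [hd, hd, map_sub, MvPolynomial.pderiv_mul, MvPolynomial.pderiv_mul, MvPolynomial.pderiv_C,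
      MvPolynomial.pderiv_X_self]
    ring
  have h4 : ((k : ℂ) / 2) • q = MvPolynomial.C (k : ℂ) * MvPolynomial.C 2⁻¹ * q := by
    rw [← map_mul, MvPolynomial.C_mul', div_eq_mul_inv]
  rw [a_app, h4, map_sub, map_ofNat]
  simp only [h3, a_lap, Fin.sum_univ_four]
  generalize (MvPolynomial.C 2⁻¹ : Py) = c at h2
  generalize (MvPolynomial.C (k : ℂ) : Py) = K
  linear_combination (K * q - 4 * q -
    (MvPolynomial.X 0 * MvPolynomial.pderiv 0 q + MvPolynomial.X 1 * MvPolynomial.pderiv 1 q +
      MvPolynomial.X 2 * MvPolynomial.pderiv 2 q + MvPolynomial.X 3 * MvPolynomial.pderiv 3 q) +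
    c * (MvPolynomial.X 0 ^ 2 + MvPolynomial.X 1 ^ 2 + MvPolynomial.X 2 ^ 2 + MvPolynomial.X 3 ^ 2) * q) * h2

end Vale.Agent.P267J
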