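import Vale.Agent.P267J.D

/-! Taylor expansion. ev_tay: write x = sum x i • single i 1, ContinuousMultilinearMap.map_sum, map_smul_univ. taylor: apply taylor_mean_remainder_bound (or taylor_mean_remainder_lagrange on re and im, or map_add_eq_sum_add_integral_iteratedFDeriv) to t ↦ f (t • z) on [0, 1]; the k-th derivative is iteratedFDeriv k f (t • z) (z, .., z), norm ≤ M ‖z‖ ^ k. -/

open MeasureTheory Filter Topology Metric Finset
open scoped ContDiff ComplexConjugate

noncomputable section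

namespace Vale.Agent.P267J

variable {N : ℕ} {M r s : ℝ} {Y : Type} {χ : V → ℂ} {o : Op N} {ξ : Fin N → ℂ}

theorem ev_tay (f : V → ℂ) (l : ℕ) (x : V) :
    ev x (tay f l) = ((l.factorial : ℂ))⁻¹ * iteratedFDeriv ℝ l f 0 fun _ => x := by
  have hx : x = ∑ j : Fin 4, x j • EuclideanSpace.single j (1 : ℝ) := by
    ext j
    simp [Finset.sum_apply, Pi.single_apply]
  have h1 : (iteratedFDeriv ℝ l f 0 fun _ => x) =
      ∑ i : Fin l → Fin 4, (∏ k, (x (i k) : ℂ)) *
        iteratedFDeriv ℝ l f 0 fun k => EuclideanSpace.single (i k) 1 := by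
    have h2 := (iteratedFDeriv ℝ l f 0).map_sum
      (fun (_ : Fin l) (j : Fin 4) => x j • EuclideanSpace.single j (1 : ℝ))
    rw [← hx] at h2
    rw [h2]
    refine Finset.sum_congr rfl fun i _ => ?_
    rw [ContinuousMultilinearMap.map_smul_univ, Complex.real_smul, Complex.ofReal_prod]
  rw [h1, Finset.mul_sum, tay, map_sum]
  refine Finset.sum_congr rfl fun i _ => ?_
  simp only [ev, map_mul, MvPolynomial.eval_C, map_prod, MvPolynomial.eval_X]
  ring

theorem ev_tay_smul (f : V → ℂ) (l : ℕ) (s : ℝ) (x : V) :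
    ev (s • x) (tay f l) = (s : ℂ) ^ l * ev x (tay f l) := by
  rw [ev_tay, ev_tay, (iteratedFDeriv ℝ l f 0).map_smul_univ (fun _ => s) fun _ => x]
  simp only [Finset.prod_const, Finset.card_univ, Fintype.card_fin, Complex.real_smul,
    Complex.ofReal_pow]
  ring

theorem tay_zero (f : V → ℂ) : tay f 0 = MvPolynomial.C (f 0) := by
  simp [tay]

theorem Sb.le {f : V → ℂ} (h : Sb M r f) {z : V} (hz : z ∈ ball (0 : V) r) : ‖f z‖ ≤ M := by
  have := h.2 0 (by norm_num) z hz
  rwa [norm_iteratedFDeriv_zero] at this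

theorem taylor {f : V → ℂ} (h : Sb M r f) {n : ℕ} (hn : n ≤ 4) {z : V}
    (hz : z ∈ ball (0 : V) r) :
    ‖f z - ∑ l ∈ range (n + 1), ev z (tay f l)‖ ≤ M * ‖z‖ ^ (n + 1) := by
  have hm : ∀ t ∈ Set.Icc (0 : ℝ) 1, 0 + t • z ∈ ball (0 : V) r := fun t ht => by
    rw [zero_add, mem_ball_zero_iff, norm_smul, Real.norm_of_nonneg ht.1]
    exact (mul_le_of_le_one_left (norm_nonneg z) ht.2).trans_lt (mem_ball_zero_iff.1 hz)
  have h1 := map_add_eq_sum_add_integral_iteratedFDeriv (f := f) (x := 0) (y := z) (n := n)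
    fun t ht => (h.1.contDiffAt (isOpen_ball.mem_nhds (hm t ht))).of_le (by exact_mod_cast le_top)
  rw [zero_add] at h1
  have h2 : ∑ l ∈ range (n + 1), ev z (tay f l) =
      ∑ k ∈ range (n + 1), (k.factorial : ℝ)⁻¹ • iteratedFDeriv ℝ k f 0 fun _ => z :=
    Finset.sum_congr rfl fun k _ => by
      rw [ev_tay, Complex.real_smul, Complex.ofReal_inv, Complex.ofReal_natCast]
  have hM : 0 ≤ M := (norm_nonneg _).trans (h.le hz)
  rw [h2, sub_eq_iff_eq_add'.2 h1, norm_smul]
  have h3 := intervalIntegral.norm_integral_le_of_norm_le_const (a := 0) (b := 1)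
    (C := M * ‖z‖ ^ (n + 1))
    (f := fun t : ℝ => (1 - t) ^ n • iteratedFDeriv ℝ (n + 1) f (0 + t • z) fun _ => z)
    fun t ht => by
      rw [Set.uIoc_of_le zero_le_one] at ht
      have a1 := h.2 (n + 1) (by omega) _ (hm t ⟨ht.1.le, ht.2⟩)
      have a2 := (iteratedFDeriv ℝ (n + 1) f (0 + t • z)).le_opNorm fun _ => z
      rw [Finset.prod_const, Finset.card_univ, Fintype.card_fin] at a2
      have a3 : ‖(1 - t) ^ n‖ ≤ 1 := by
        rw [Real.norm_of_nonneg (pow_nonneg (sub_nonneg.2 ht.2) _)]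
        exact pow_le_one₀ (sub_nonneg.2 ht.2) (by linarith [ht.1])
      rw [norm_smul]
      exact (mul_le_of_le_one_left (norm_nonneg _) a3).trans
        (a2.trans (mul_le_mul_of_nonneg_right a1 (by positivity)))
  rw [sub_zero, abs_one, mul_one] at h3
  have h4 : ‖(n.factorial : ℝ)⁻¹‖ ≤ 1 := by
    rw [Real.norm_of_nonneg (by positivity)]
    exact inv_le_one_of_one_le₀ (by exact_mod_cast n.factorial_pos)
  exact (mul_le_of_le_one_left (norm_nonneg _) h4).trans h3

end Vale.Agent.P267J
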