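import Vale.Agent.P267J.N2

/-! Integrate n2_pt (wt_sq). The integral of Gs s z ^ 2 Qk (s⁻¹ • z) is alpha / s ^ 4 (Gs_scale, scale); Qk is continuous (ev_smooth) and Gs s ^ 2 |Qk| ≤ C wt d s ^ 2 (Qk_bd); the first integrand is continuous with compact support (tst_uc; ρ is continuous on the ball). -/

open MeasureTheory Filter Topology Metric Finset
open scoped ContDiff ComplexConjugate

noncomputable section

namespace Vale.Agent.P267J

variable {N : ℕ} {M r s : ℝ} {Y : Type} {χ : V → ℂ} {o : Op N} {ξ : Fin N → ℂ}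

theorem n3_cont (o : Op N) (ξ : Fin N → ℂ) (k : ℕ) : Continuous (Qk o ξ k) := by
  have h : ∀ q : Py, Continuous fun x => ev x q := fun q => (ev_smooth q).continuous
  unfold Qk
  refine continuous_finsetSum _ fun p _ => (Complex.continuous_re.comp (h _)).mul
    (continuous_finsetSum _ fun q _ => Complex.continuous_re.comp
      (continuous_finsetSum _ fun i _ => (Complex.continuous_conj.comp (h _)).mul (h _)))

theorem n3_bd {f : V → ℝ} {C : ℝ} {d : ℕ} (hC : 0 ≤ C) (h : ∀ x, |f x| ≤ C * (1 + ‖x‖) ^ d)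
    (z : V) : |Gs s z ^ 2 * f (s⁻¹ • z)| ≤ C * wt d s z ^ 2 := by
  have h1 : (1 : ℝ) ≤ (1 + ‖s⁻¹ • z‖) ^ d := one_le_pow₀ (by linarith [norm_nonneg (s⁻¹ • z)])
  rw [abs_mul, abs_of_nonneg (sq_nonneg _), wt, mul_pow]
  calc Gs s z ^ 2 * |f (s⁻¹ • z)| ≤ Gs s z ^ 2 * (C * (1 + ‖s⁻¹ • z‖) ^ d) := by gcongr; exact h _
    _ ≤ Gs s z ^ 2 * (C * ((1 + ‖s⁻¹ • z‖) ^ d) ^ 2) := by gcongr; nlinarith
    _ = _ := by ring

theorem n3_int (hs : 0 < s) {f : V → ℝ} (hf : Continuous f) {C : ℝ} {d : ℕ} (hC : 0 ≤ C)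
    (h : ∀ x, |f x| ≤ C * (1 + ‖x‖) ^ d) : Integrable fun z => Gs s z ^ 2 * f (s⁻¹ • z) := by
  obtain ⟨C', -, h'⟩ := wt_sq d
  refine ((h' s hs).1.const_mul C).mono' ?_ (.of_forall fun z => n3_bd hC h z)
  exact (((Gs_smooth s).continuous.pow 2).mul (hf.comp (by fun_prop))).aestronglyMeasurable

theorem n3_val (hs : 0 < s) (f : V → ℝ) :
    ∫ z, Gs s z ^ 2 * f (s⁻¹ • z) = (s ^ 4)⁻¹ * ∫ x, Gs 1 x ^ 2 * f x := by
  have e : ∀ z, Gs s z ^ 2 * f (s⁻¹ • z) =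
      (s ^ 4)⁻¹ ^ 2 * (fun x => Gs 1 x ^ 2 * f x) (s⁻¹ • z) := fun z => by
    rw [Gs_scale hs]; ring
  simp only [e]
  rw [integral_const_mul, scale hs (fun x => Gs 1 x ^ 2 * f x), smul_eq_mul]
  field_simp

theorem n3_first (hχ : Cut r χ) (ho : Bnd M r o) :
    Integrable fun z => (o.ρ z).re * ∑ i, ‖uc χ o ξ s i z‖ ^ 2 := by
  have ht : Tst r (uc χ o ξ s) := tst_uc hχ
  have h := pr_int (ψ := fun i z => ((o.ρ z).re : ℂ) * uc χ o ξ s i z) (fun i =>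
    (Complex.continuous_ofReal.comp_continuousOn
      (Complex.continuous_re.comp_continuousOn ho.ρ.1.continuousOn)).mul
      (ht i).1.continuous.continuousOn) ht
  refine h.re.congr (.of_forall fun z => ?_)
  simp only [map_mul, Complex.conj_ofReal, mul_assoc, Complex.conj_mul', ← mul_sum]
  norm_cast

theorem alpha_bd (hr : 0 < r) : ∃ C : ℝ, 0 ≤ C ∧ ∀ y : Fam N M r, ∀ k < 5,
    |alpha y.1.1 y.1.2 k| ≤ C := by
  obtain ⟨C, d, hC, h⟩ := Qk_bd (N := N) (M := M) hr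
  obtain ⟨C', hC', h'⟩ := wt_sq d
  refine ⟨C * C', by positivity, fun y k hk => ?_⟩
  obtain ⟨h1, h2⟩ := h' 1 one_pos
  have h3 := norm_integral_le_of_norm_le (h1.const_mul C)
    (f := fun x => Gs 1 x ^ 2 * Qk y.1.1 y.1.2 k x) (.of_forall fun x => by
      simpa using n3_bd (s := 1) hC (h y k hk) x)
  rw [integral_const_mul] at h3
  refine h3.trans (mul_le_mul_of_nonneg_left ?_ hC)
  simpa using h2

theorem norm_exp (hr : 0 < r) (hχ : Cut r χ) : ∃ C : ℝ, 0 ≤ C ∧ ∀ y : Fam N M r,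
    ∀ s ∈ Set.Ioc (0 : ℝ) 1,
      |(∫ z, (y.1.1.ρ z).re * ∑ i, ‖uc χ y.1.1 y.1.2 s i z‖ ^ 2) -
        ∑ k ∈ range 5, s ^ k / s ^ 4 * alpha y.1.1 y.1.2 k| ≤ C * s := by
  obtain ⟨C, d, hC, h⟩ := n2_pt (N := N) (M := M) hr hχ
  obtain ⟨C1, d1, hC1, h1⟩ := Qk_bd (N := N) (M := M) hr
  obtain ⟨C', hC', h'⟩ := wt_sq d
  refine ⟨C * C', by positivity, fun y s hs => ?_⟩
  have hi : ∀ k ∈ range 5, Integrable fun z =>
      s ^ k * (Gs s z ^ 2 * Qk y.1.1 y.1.2 k (s⁻¹ • z)) := fun k hk =>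
    (n3_int hs.1 (n3_cont _ _ k) hC1 (h1 y k (mem_range.1 hk))).const_mul _
  have e : ∑ k ∈ range 5, s ^ k / s ^ 4 * alpha y.1.1 y.1.2 k =
      ∫ z, ∑ k ∈ range 5, s ^ k * (Gs s z ^ 2 * Qk y.1.1 y.1.2 k (s⁻¹ • z)) := by
    rw [integral_finsetSum _ hi]
    refine sum_congr rfl fun k _ => ?_
    rw [integral_const_mul, n3_val hs.1, alpha]
    ring
  rw [e, ← integral_sub (n3_first hχ y.2.1) (integrable_finsetSum _ hi)]
  obtain ⟨h2, h3⟩ := h' s hs.1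
  have h4 := norm_integral_le_of_norm_le (h2.const_mul (C * s ^ 5))
    (f := fun z => (y.1.1.ρ z).re * ∑ i, ‖uc χ y.1.1 y.1.2 s i z‖ ^ 2 -
      ∑ k ∈ range 5, s ^ k * (Gs s z ^ 2 * Qk y.1.1 y.1.2 k (s⁻¹ • z))) (.of_forall fun z => by
      have := h y s hs z
      rw [mul_sum (range 5)] at this
      simpa only [Real.norm_eq_abs, mul_left_comm (Gs s z ^ 2)] using this)
  rw [integral_const_mul] at h4
  refine h4.trans ?_
  have hs0 := hs.1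
  calc C * s ^ 5 * ∫ z, wt d s z ^ 2 ≤ C * s ^ 5 * (C' / s ^ 4) := by gcongr
    _ = C * C' * s := by field_simp

end Vale.Agent.P267J
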