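import Vale.Agent.P267J.YU
import Vale.Agent.P267J.YW

/-! Order one coefficients. bM L.op j l = tayM (fun z => (β j z : ℂ) • 1 + - sum_k ((a j k z + a k j z : ℝ) : ℂ) • A k z) l (rfl up to ext, simp [one_apply]); ContDiffOn.contDiffAt with ball_mem_nhds; tayM_add, tayM_id, tayM_smul, tayM_zero, tayM_one, tay_zero, h.a0; a real scalar seen in ℂ: Complex.coe_smul, Submodule.smul_mem. -/

open scoped ContDiff Topology Matrix.Norms.L2Operator ComplexConjugate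
open Filter Matrix MeasureTheory Metric Finset

noncomputable section

namespace Vale.Agent.P267J.Y

open Vale.Agent.P267I Vale.Agent.P267I.H MvPolynomial

variable {N : ℕ} {W g : Submodule ℝ (Mat N)} {τ : Mat N →L[ℝ] ℝ} {o : Op N} {E : Mat N}
  {S : Fin 4 → Fin 4 → Mat N} {p q : Py} {P Q : MP N} {f f' : V → ℂ} {F F' : V → Mat N}

theorem yb_eq (L : Lap N) (j : Fin 4) (l : ℕ) : bM L.op j l = tayM (fun z =>
    (L.β j z : ℂ) • (1 : Mat N) + -∑ k, ((L.a j k z + L.a k j z : ℝ) : ℂ) • L.A k z) l := by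
  refine Matrix.ext fun i m => congrArg (tay · l) (funext fun z => ?_)
  simp only [Lap.op, Matrix.add_apply, Matrix.neg_apply, Matrix.smul_apply, Matrix.sum_apply,
    Matrix.one_apply, smul_eq_mul, mul_ite, mul_one, mul_zero, sub_eq_add_neg]

theorem yb_c {u : V → ℝ} (hu : ContDiffAt ℝ ∞ u 0) : ContDiffAt ℝ ∞ (fun z => (u z : ℂ)) 0 :=
  Complex.ofRealCLM.contDiff.contDiffAt.comp 0 hu

theorem yb_s {L : Lap N} {r : ℝ} (hr : 0 < r) (h : L.Ok W g r) (j k : Fin 4) :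
    ContDiffAt ℝ ∞ (fun z => ((L.a j k z + L.a k j z : ℝ) : ℂ)) 0 :=
  yb_c (((h.a j k).contDiffAt (ball_mem_nhds 0 hr)).add
    ((h.a k j).contDiffAt (ball_mem_nhds 0 hr)))

theorem yb_A {L : Lap N} {r : ℝ} (hr : 0 < r) (h : L.Ok W g r) (k : Fin 4) : SmM (L.A k) :=
  fun i m => (h.A k i m).contDiffAt (ball_mem_nhds 0 hr)

theorem yb_β {L : Lap N} {r : ℝ} (hr : 0 < r) (h : L.Ok W g r) (j : Fin 4) :
    ContDiffAt ℝ ∞ (L.β j) 0 := (h.β j).contDiffAt (ball_mem_nhds 0 hr)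

theorem yb_sum {L : Lap N} {r : ℝ} (hr : 0 < r) (h : L.Ok W g r) (j : Fin 4) :
    SmM fun z => ∑ k, ((L.a j k z + L.a k j z : ℝ) : ℂ) • L.A k z :=
  SmM.sum Finset.univ fun k _ => SmM.smul (yb_s hr h j k) (yb_A hr h k)

theorem yb_exp {L : Lap N} {r : ℝ} (hr : 0 < r) (h : L.Ok W g r) (j : Fin 4) (l : ℕ) :
    bM L.op j l = tay (fun z => (L.β j z : ℂ)) l • (1 : MP N) - ∑ k, ∑ a ∈ antidiagonal l,
      tay (fun z => ((L.a j k z + L.a k j z : ℝ) : ℂ)) a.1 • tayM (L.A k) a.2 := by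
  rw [yb_eq, tayM_add (SmM.smul (yb_c (yb_β hr h j)) (smM_const 1)) (yb_sum hr h j).neg, tayM_id,
    tayM_neg, tayM_sum Finset.univ (fun k _ => SmM.smul (yb_s hr h j k) (yb_A hr h k)),
    sub_eq_add_neg]
  refine congrArg (fun t => _ + -t) (Finset.sum_congr rfl fun k _ => ?_)
  exact tayM_smul (yb_s hr h j k) (yb_A hr h k) l

theorem yb_zero : cst (0 : Mat N) = 0 := Matrix.map_zero _ (map_zero _)

theorem nf_a {L : Lap N} {r : ℝ} (hA : K.Alg τ W g) (hr : 0 < r) (h : L.Ok W g r) (h0 : ∀ j, L.A j 0 = 0) (j k : Fin 4) (l : ℕ) :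
    RP (tay (L.op.a j k) l) := by
  exact tay_real ((h.a j k).contDiffAt (ball_mem_nhds 0 hr)) l

theorem nf_b0 {L : Lap N} {r : ℝ} (hA : K.Alg τ W g) (hr : 0 < r) (h : L.Ok W g r) (h0 : ∀ j, L.A j 0 = 0) (j : Fin 4) :
    ∃ p, RP p ∧ bM L.op j 0 = p • (1 : MP N) := by
  refine ⟨_, tay_real (yb_β hr h j) 0, ?_⟩
  rw [yb_exp hr h]
  simp only [Finset.Nat.antidiagonal_zero, Finset.sum_singleton, tayM_zero, h0, yb_zero, smul_zero,
    Finset.sum_const_zero, sub_zero]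

theorem nf_b1 {L : Lap N} {r : ℝ} (hA : K.Alg τ W g) (hr : 0 < r) (h : L.Ok W g r) (h0 : ∀ j, L.A j 0 = 0) (j : Fin 4) :
    ∃ p, RP p ∧ bM L.op j 1 = p • (1 : MP N) - (2 : Py) • aM (fun k j => pdM k (L.A j) 0) j := by
  refine ⟨_, tay_real (yb_β hr h j) 1, ?_⟩
  rw [yb_exp hr h]
  refine congrArg (fun t : MP N => (_ : MP N) - t) ?_
  have h1 : ∀ k, ∑ a ∈ antidiagonal 1,
      tay (fun z => ((L.a j k z + L.a k j z : ℝ) : ℂ)) a.1 • tayM (L.A k) a.2 =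
      if j = k then (2 : Py) • aM (fun k j => pdM k (L.A j) 0) k else 0 := fun k => by
    rw [Finset.Nat.sum_antidiagonal_succ, Finset.Nat.antidiagonal_zero, Finset.sum_singleton,
      tayM_zero, h0, yb_zero, smul_zero, add_zero, tay_zero, h.a0, h.a0]
    by_cases e : j = k
    · rw [if_pos e, if_pos e.symm, if_pos e, one_add_one_eq_two, Complex.ofReal_ofNat, map_ofNat]
      exact congrArg _ (tayM_one _)
    · rw [if_neg e, if_neg (Ne.symm e), if_neg e, add_zero, Complex.ofReal_zero, map_zero,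
        zero_smul]
  simp only [h1, Finset.sum_ite_eq, Finset.mem_univ, if_true]

theorem nf_bW {L : Lap N} {r : ℝ} (hA : K.Alg τ W g) (hr : 0 < r) (h : L.Ok W g r) (h0 : ∀ j, L.A j 0 = 0) (j : Fin 4) (l : ℕ) :
    PW W (bM L.op j l) := by
  rw [yb_eq]
  refine tayM_pw ((SmM.smul (yb_c (yb_β hr h j)) (smM_const 1)).add (yb_sum hr h j).neg) ?_ l
  filter_upwards [ball_mem_nhds (0 : V) hr] with z hz
  simp only [Complex.coe_smul]
  exact W.add_mem (W.smul_mem _ hA.one)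
    (W.neg_mem (W.sum_mem fun k _ => W.smul_mem _ (hA.le (h.Ag k z hz))))

theorem nf_S {L : Lap N} {r : ℝ} (hA : K.Alg τ W g) (hr : 0 < r) (h : L.Ok W g r) (h0 : ∀ j, L.A j 0 = 0) (j k : Fin 4) :
    pdM j (L.A k) 0 ∈ g := by
  refine pdM_mem (yb_A hr h k) ?_ j
  filter_upwards [ball_mem_nhds (0 : V) hr] with z hz
  exact h.Ag k z hz

end Vale.Agent.P267J.Y
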