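import Vale.Agent.P267J.D

/-! Bounded families. add: Fin.append or finSumFinEquiv; mul: finProdFinEquiv; replace M by max M 0 where needed. Bd.ev: each fixed polynomial is bounded by C (1 + ‖x‖) ^ d (MvPolynomial.induction_on, ‖x i‖ ≤ ‖x‖). bd_tay: Bd.sum of Bd.smul of constants, ContinuousMultilinearMap.le_opNorm, the basis vectors have norm 1. -/

open MeasureTheory Filter Topology Metric Finset
open scoped ContDiff ComplexConjugate

noncomputable section

namespace Vale.Agent.P267J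

variable {N : ℕ} {M r s : ℝ} {Y : Type} {χ : V → ℂ} {o : Op N} {ξ : Fin N → ℂ}

theorem b_of {ι : Type} [Fintype ι] {q : Y → Py} (e : ι → Py) (M : ℝ)
    (h : ∀ y, ∃ c : ι → ℂ, (∀ i, ‖c i‖ ≤ M) ∧ q y = ∑ i, c i • e i) : Bd q := by
  refine ⟨_, e ∘ (Fintype.equivFin ι).symm, M, fun y => ?_⟩
  obtain ⟨c, h1, h2⟩ := h y
  exact ⟨c ∘ (Fintype.equivFin ι).symm, fun _ => h1 _,
    h2.trans ((Fintype.equivFin ι).symm.sum_comp fun i => c i • e i).symm⟩

theorem b_ev (q : Py) : ∃ (C : ℝ) (d : ℕ), 0 ≤ C ∧ ∀ x, ‖ev x q‖ ≤ C * (1 + ‖x‖) ^ d := by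
  induction q using MvPolynomial.induction_on with
  | C a => exact ⟨‖a‖, 0, norm_nonneg _, fun x => by simp [ev]⟩
  | add p q hp hq =>
    obtain ⟨C, d, C0, h⟩ := hp
    obtain ⟨C', d', C0', h'⟩ := hq
    refine ⟨C + C', d + d', add_nonneg C0 C0', fun x => ?_⟩
    have a : 1 ≤ 1 + ‖x‖ := le_add_of_nonneg_right (norm_nonneg _)
    rw [map_add, add_mul]
    exact (norm_add_le _ _).trans (add_le_add
      ((h x).trans (mul_le_mul_of_nonneg_left (pow_le_pow_right₀ a (by omega)) C0))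
      ((h' x).trans (mul_le_mul_of_nonneg_left (pow_le_pow_right₀ a (by omega)) C0')))
  | mul_X p i hp =>
    obtain ⟨C, d, C0, h⟩ := hp
    refine ⟨C, d + 1, C0, fun x => ?_⟩
    rw [map_mul, norm_mul, pow_succ, ← mul_assoc]
    refine mul_le_mul (h x) ?_ (norm_nonneg _) (by positivity)
    rw [ev, MvPolynomial.eval_X, Complex.norm_real]
    exact (PiLp.norm_apply_le x i).trans (le_add_of_nonneg_left zero_le_one)

theorem Bd.const (q : Py) : Bd fun _ : Y => q := by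
  exact b_of (ι := Unit) (fun _ => q) 1 fun _ => ⟨fun _ => 1, by simp, by simp⟩

theorem Bd.add {p q : Y → Py} (hp : Bd p) (hq : Bd q) : Bd fun y => p y + q y := by
  obtain ⟨n, e, M, h⟩ := hp
  obtain ⟨n', e', M', h'⟩ := hq
  refine b_of (Sum.elim e e') (max M M') fun y => ?_
  obtain ⟨c, h1, h2⟩ := h y
  obtain ⟨c', h1', h2'⟩ := h' y
  refine ⟨Sum.elim c c', ?_, by simp [h2, h2']⟩
  rintro (i | i)
  exacts [le_max_of_le_left (h1 i), le_max_of_le_right (h1' i)]

theorem Bd.mul {p q : Y → Py} (hp : Bd p) (hq : Bd q) : Bd fun y => p y * q y := by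
  obtain ⟨n, e, M, h⟩ := hp
  obtain ⟨n', e', M', h'⟩ := hq
  refine b_of (fun i : Fin n × Fin n' => e i.1 * e' i.2) (M * M') fun y => ?_
  obtain ⟨c, h1, h2⟩ := h y
  obtain ⟨c', h1', h2'⟩ := h' y
  refine ⟨fun i => c i.1 * c' i.2, fun i => (norm_mul_le _ _).trans (mul_le_mul (h1 _) (h1' _)
    (norm_nonneg _) ((norm_nonneg _).trans (h1 i.1))), ?_⟩
  rw [h2, h2', sum_mul_sum, Fintype.sum_prod_type]
  simp only [smul_mul_smul_comm]

theorem Bd.map {p : Y → Py} (hp : Bd p) (L : Py →ₗ[ℂ] Py) : Bd fun y => L (p y) := by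
  obtain ⟨n, e, M, h⟩ := hp
  refine ⟨n, fun i => L (e i), M, fun y => ?_⟩
  obtain ⟨c, h1, h2⟩ := h y
  exact ⟨c, h1, by simp [h2]⟩

theorem Bd.neg {p : Y → Py} (hp : Bd p) : Bd fun y => -p y := by
  exact hp.map (-LinearMap.id)

theorem Bd.sum {I : Type} (t : Finset I) {p : I → Y → Py} (hp : ∀ i ∈ t, Bd (p i)) :
    Bd fun y => ∑ i ∈ t, p i y := by
  classical
  induction t using Finset.induction_on with
  | empty => exact Bd.const 0
  | insert a t ha ih =>
    simp only [sum_insert ha]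
    exact (hp a (mem_insert_self _ _)).add (ih fun i hi => hp i (mem_insert_of_mem hi))

theorem bd_C {c : Y → ℂ} (h : ∀ y, ‖c y‖ ≤ M) : Bd fun y => (MvPolynomial.C (c y) : Py) := by
  exact b_of (ι := Unit) (fun _ => 1) M fun y => ⟨fun _ => c y, fun _ => h y, by
    simp [MvPolynomial.smul_eq_C_mul]⟩

theorem Bd.ev {p : Y → Py} (hp : Bd p) :
    ∃ (C : ℝ) (d : ℕ), 0 ≤ C ∧ ∀ y x, ‖ev x (p y)‖ ≤ C * (1 + ‖x‖) ^ d := by
  obtain ⟨n, e, M, h⟩ := hp
  choose C d C0 hC using fun i => b_ev (e i)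
  refine ⟨∑ i, |M| * C i, ∑ i, d i, sum_nonneg fun i _ => mul_nonneg (abs_nonneg _) (C0 i),
    fun y x => ?_⟩
  obtain ⟨c, h1, h2⟩ := h y
  rw [h2, map_sum, sum_mul]
  refine norm_sum_le_of_le _ fun i _ => ?_
  rw [MvPolynomial.smul_eq_C_mul, map_mul, norm_mul, mul_assoc]
  refine mul_le_mul ?_ ((hC i x).trans (mul_le_mul_of_nonneg_left (pow_le_pow_right₀
    (le_add_of_nonneg_right (norm_nonneg _)) (single_le_sum (fun _ _ => Nat.zero_le _)
      (mem_univ i))) (C0 i))) (norm_nonneg _) (abs_nonneg _)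
  rw [P267J.ev, MvPolynomial.eval_C]
  exact (h1 i).trans (le_abs_self _)

theorem bd_tay (hr : 0 < r) {f : Y → V → ℂ} (h : ∀ y, Sb M r (f y)) {l : ℕ} (hl : l ≤ 5) :
    Bd fun y => tay (f y) l := by
  refine Bd.sum _ fun i _ => (bd_C (M := M) fun y => ?_).mul (Bd.const _)
  have a := (iteratedFDeriv ℝ l (f y) 0).le_opNorm fun k => EuclideanSpace.single (i k) 1
  simp only [PiLp.norm_single, norm_one, prod_const_one, mul_one] at a
  rw [norm_mul, norm_inv, Complex.norm_natCast]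
  exact (mul_le_of_le_one_left (norm_nonneg _) (inv_le_one_of_one_le₀
    (Nat.one_le_cast.2 l.factorial_pos))).trans (a.trans ((h y).2 l hl 0 (mem_ball_self hr)))

theorem bd_Ml (hr : 0 < r) {l : ℕ} (hl : l ≤ 4) {q : Fam N M r → Fin N → Py}
    (hq : ∀ i, Bd fun y => q y i) (i : Fin N) : Bd fun y : Fam N M r => Ml y.1.1 l (q y) i := by
  refine Bd.add (Bd.add (Bd.neg (Bd.sum _ fun j _ => Bd.sum _ fun k _ =>
    (bd_tay hr (fun y : Fam N M r => y.2.1.a j k) (by omega)).mul (((hq i).map _).map _)))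
    (Bd.sum _ fun j _ => Bd.sum _ fun m _ =>
      (bd_tay hr (fun y : Fam N M r => y.2.1.b j i m) (by omega)).mul ((hq m).map _))) ?_
  split_ifs
  · exact Bd.const 0
  · exact Bd.sum _ fun m _ =>
      (bd_tay hr (fun y : Fam N M r => y.2.1.c i m) (by omega)).mul (hq m)

/-- Strong induction on `k`, unfolding `pk`. -/
theorem bd_pk (hr : 0 < r) {k : ℕ} (hk : k ≤ 5) (i : Fin N) :
    Bd fun y : Fam N M r => pk y.1.1 y.1.2 k i := by
  induction k using Nat.strong_induction_on generalizing i with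
  | _ k ih =>
    cases k with
    | zero =>
      simp only [pk]
      exact bd_C (M := 1) fun y => y.2.2 i
    | succ k =>
      simp only [pk]
      exact (Bd.neg (Bd.sum _ fun l _ => bd_Ml hr (by omega)
        (fun m => ih _ (by omega) (by omega) m) i)).map _

end Vale.Agent.P267J
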