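import Vale.Agent.P267J.B

/-! Gaussian integrals. scale: MeasureTheory.Measure.integral_comp_inv_smul_of_nonneg (finrank = 4). int_Gs: GaussianFourier.integral_rexp_neg_mul_sq_norm. wt d 1 is integrable: (1 + t) ^ d ≤ C exp (t ^ 2 / 8), GaussianFourier.integrable_cexp_neg_mul_sq_norm_add or integrable from a nonzero integral. wt d 1 is bounded, so its square is integrable. -/

open MeasureTheory Filter Topology Metric Finset
open scoped ContDiff ComplexConjugate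

noncomputable section

namespace Vale.Agent.P267J

variable {N : ℕ} {M r s : ℝ} {Y : Type} {χ : V → ℂ} {o : Op N} {ξ : Fin N → ℂ}

theorem Gs_pos (hs : 0 < s) (z : V) : 0 < Gs s z := by
  have := Real.pi_pos
  unfold Gs
  positivity

theorem Gs_scale (hs : 0 < s) (z : V) : Gs s z = (s ^ 4)⁻¹ * Gs 1 (s⁻¹ • z) := by
  have := Real.pi_pos
  unfold Gs
  rw [norm_smul, Real.norm_of_nonneg (inv_pos.2 hs).le,
    show (s⁻¹ * ‖z‖) ^ 2 / (4 * 1 ^ 2) = ‖z‖ ^ 2 / (4 * s ^ 2) by field_simp]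
  field_simp

theorem scale {E : Type} [NormedAddCommGroup E] [NormedSpace ℝ E] (hs : 0 < s) (f : V → E) :
    ∫ z, f (s⁻¹ • z) = s ^ 4 • ∫ x, f x := by
  rw [MeasureTheory.Measure.integral_comp_inv_smul_of_nonneg volume f hs.le, finrank_euclideanSpace,
    Fintype.card_fin]

theorem g_gauss {b : ℝ} (hb : 0 < b) : ∫ v : V, Real.exp (-b * ‖v‖ ^ 2) = (Real.pi / b) ^ 2 := by
  rw [GaussianFourier.integral_rexp_neg_mul_sq_norm hb, finrank_euclideanSpace, Fintype.card_fin,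
    ← Real.rpow_two]
  norm_num

theorem int_Gs : ∫ x, Gs 1 x = 1 := by
  have := Real.pi_pos
  have e : ∀ x : V, Gs 1 x = ((4 * Real.pi) ^ 2)⁻¹ * Real.exp (-(1 / 4) * ‖x‖ ^ 2) := fun x => by
    unfold Gs
    congr 2 <;> ring
  simp only [e]
  rw [integral_const_mul, g_gauss (by norm_num)]
  field_simp

theorem wt_nonneg (hs : 0 < s) (d : ℕ) (z : V) : 0 ≤ wt d s z := by
  have := Gs_pos hs z
  unfold wt
  positivity

theorem wt_mono (hs : 0 < s) {d d' : ℕ} (h : d ≤ d') (z : V) : wt d s z ≤ wt d' s z :=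
  mul_le_mul_of_nonneg_left (pow_le_pow_right₀ (le_add_of_nonneg_right (norm_nonneg _)) h)
    (Gs_pos hs z).le

theorem wt_mul (hs : 0 < s) (d k : ℕ) (z : V) : ‖z‖ ^ k * wt d s z ≤ s ^ k * wt (d + k) s z := by
  have h0 := Gs_pos hs z
  have h1 : ‖z‖ ≤ s * (1 + ‖s⁻¹ • z‖) := by
    rw [norm_smul, Real.norm_of_nonneg (inv_pos.2 hs).le, mul_add, mul_inv_cancel_left₀ hs.ne']
    linarith
  have h2 := pow_le_pow_left₀ (norm_nonneg z) h1 k
  calc ‖z‖ ^ k * wt d s z ≤ (s * (1 + ‖s⁻¹ • z‖)) ^ k * wt d s z :=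
        mul_le_mul_of_nonneg_right h2 (wt_nonneg hs d z)
    _ = _ := by
      unfold wt
      rw [mul_pow, pow_add]
      ring

theorem g_cont (d : ℕ) (s : ℝ) : Continuous (wt d s) := by
  unfold wt Gs
  fun_prop

theorem g_bound (d : ℕ) : ∃ K : ℝ, 0 ≤ K ∧ ∀ z : V,
    wt d 1 z ≤ K * Real.exp (-(1 / 8) * ‖z‖ ^ 2) := by
  have := Real.pi_pos
  refine ⟨((4 * Real.pi * 1 ^ 2) ^ 2)⁻¹ * Real.exp (2 * d ^ 2), by positivity, fun z => ?_⟩
  have h1 : (1 + ‖z‖) ^ d ≤ Real.exp (d * ‖z‖) := by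
    rw [Real.exp_nat_mul]
    exact pow_le_pow_left₀ (by positivity) (by linarith [Real.add_one_le_exp ‖z‖]) d
  unfold wt Gs
  rw [inv_one, one_smul, mul_assoc ((4 * Real.pi * 1 ^ 2) ^ 2)⁻¹,
    mul_assoc ((4 * Real.pi * 1 ^ 2) ^ 2)⁻¹]
  refine mul_le_mul_of_nonneg_left ?_ (by positivity)
  refine (mul_le_mul_of_nonneg_left h1 (Real.exp_pos _).le).trans ?_
  rw [← Real.exp_add, ← Real.exp_add, Real.exp_le_exp]
  nlinarith [sq_nonneg (‖z‖ - 4 * d)]

theorem wt_int (d : ℕ) : Integrable (wt d 1) := by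
  obtain ⟨K, -, h⟩ := g_bound d
  have h1 : Integrable fun v : V => Real.exp (-(1 / 8) * ‖v‖ ^ 2) := by
    refine Integrable.of_integral_ne_zero ?_
    have := Real.pi_pos
    rw [g_gauss (by norm_num)]
    positivity
  refine (h1.const_mul K).mono' (g_cont d 1).aestronglyMeasurable
    (Eventually.of_forall fun z => ?_)
  rw [Real.norm_of_nonneg (wt_nonneg one_pos d z)]
  exact h z

theorem g_sq (d : ℕ) : Integrable fun z => wt d 1 z ^ 2 := by
  obtain ⟨K, hK, h⟩ := g_bound d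
  refine ((wt_int d).const_mul K).mono' ((g_cont d 1).pow 2).aestronglyMeasurable
    (Eventually.of_forall fun z => ?_)
  have h1 : Real.exp (-(1 / 8) * ‖z‖ ^ 2) ≤ 1 :=
    Real.exp_le_one_iff.2 (by nlinarith [sq_nonneg ‖z‖])
  rw [Real.norm_of_nonneg (sq_nonneg _), sq]
  exact mul_le_mul_of_nonneg_right ((h z).trans (mul_le_of_le_one_right hK h1))
    (wt_nonneg one_pos d z)

theorem wt_sq (d : ℕ) : ∃ C : ℝ, 0 ≤ C ∧ ∀ s : ℝ, 0 < s →
    Integrable (fun z => wt d s z ^ 2) ∧ ∫ z, wt d s z ^ 2 ≤ C / s ^ 4 := by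
  refine ⟨∫ z, wt d 1 z ^ 2, integral_nonneg fun z => sq_nonneg _, fun s hs => ?_⟩
  have e : ∀ z : V, wt d s z ^ 2 = (s ^ 4)⁻¹ ^ 2 * wt d 1 (s⁻¹ • z) ^ 2 := fun z => by
    unfold wt
    rw [Gs_scale hs, inv_one, one_smul]
    ring
  simp only [e]
  refine ⟨((g_sq d).comp_smul (inv_pos.2 hs).ne').const_mul _, le_of_eq ?_⟩
  rw [integral_const_mul, scale hs fun x => wt d 1 x ^ 2, smul_eq_mul]
  field_simp

theorem Bd.wq {p : Y → Py} (hp : Bd p) : ∃ (C : ℝ) (d : ℕ), 0 ≤ C ∧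
    ∀ y (s : ℝ), 0 < s → ∀ z, ‖Wq s (p y) z‖ ≤ C * wt d s z := by
  obtain ⟨C, d, hC, h⟩ := hp.ev
  refine ⟨C, d, hC, fun y s hs z => ?_⟩
  have h0 := Gs_pos hs z
  unfold Wq wt
  rw [norm_mul, Complex.norm_real, Real.norm_of_nonneg h0.le, mul_left_comm]
  exact mul_le_mul_of_nonneg_left (h y _) h0.le

end Vale.Agent.P267J
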