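import Vale.Agent.P267J.G
import Vale.Agent.P267J.T

/-! The pointwise expansion without cut-off, x = s⁻¹ • z. ‖Us i z‖ ^ 2 = Gs s z ^ 2 sum over b, c < 5 of s ^ (b + c) re (conj (ev x p b) ev x (p c)); re ρ z = sum over a < 5 of s ^ a re (ev x (tay ρ a)) + O (M s ^ 5 ‖x‖ ^ 5) (taylor, ev_tay_smul). Abstract lemma n1_alg does the bookkeeping (expand with sum_range_succ, antidiagonal_succ; or compare the sum over the triples with a + b + c < 5 with the sum over the cube). Bounds for ev from bd_pk, bd_tay, Bd.ev; take K = C (1 + ‖x‖) ^ d. -/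

open MeasureTheory Filter Topology Metric Finset
open scoped ContDiff ComplexConjugate

noncomputable section

namespace Vale.Agent.P267J

variable {N : ℕ} {M r s : ℝ} {Y : Type} {χ : V → ℂ} {o : Op N} {ξ : Fin N → ℂ}

theorem n1_alg {u : ℕ → ℝ} {w : ℕ → ℕ → ℝ} {K : ℝ} (hs : s ∈ Set.Ioc (0 : ℝ) 1)
    (hu : ∀ a < 5, |u a| ≤ K) (hw : ∀ b < 5, ∀ c < 5, |w b c| ≤ K) :
    |(∑ a ∈ range 5, s ^ a * u a) * (∑ b ∈ range 5, ∑ c ∈ range 5, s ^ (b + c) * w b c) -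
      ∑ k ∈ range 5, s ^ k * ∑ p ∈ antidiagonal k, u p.1 * ∑ q ∈ antidiagonal p.2, w q.1 q.2| ≤
      125 * K ^ 2 * s ^ 5 := by
  have e : (∑ a ∈ range 5, s ^ a * u a) * (∑ b ∈ range 5, ∑ c ∈ range 5, s ^ (b + c) * w b c) -
      ∑ k ∈ range 5, s ^ k * ∑ p ∈ antidiagonal k, u p.1 * ∑ q ∈ antidiagonal p.2, w q.1 q.2 =
      ∑ a ∈ range 5, ∑ b ∈ range 5, ∑ c ∈ range 5,
        if a + b + c < 5 then 0 else s ^ (a + b + c) * (u a * w b c) := by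
    simp only [sum_range_succ, sum_range_zero, Finset.Nat.sum_antidiagonal_succ,
      Finset.Nat.antidiagonal_zero, sum_singleton]
    norm_num
    ring
  have hK : 0 ≤ K := (abs_nonneg _).trans (hu 0 (by norm_num))
  have h3 : ∀ (f : ℕ → ℝ) (B : ℝ), (∀ a < 5, |f a| ≤ B) → |∑ a ∈ range 5, f a| ≤ 5 * B := fun f B h =>
    (abs_sum_le_sum_abs _ _).trans ((sum_le_card_nsmul _ _ B fun a ha => h a (mem_range.1 ha)).trans
      (by simp))
  rw [e, show 125 * K ^ 2 * s ^ 5 = 5 * (5 * (5 * (s ^ 5 * (K * K)))) by ring]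
  refine h3 _ _ fun a ha => h3 _ _ fun b hb => h3 _ _ fun c hc => ?_
  have h0 := hs.1
  split_ifs with h
  · rw [abs_zero]; positivity
  · rw [abs_mul, abs_mul, abs_of_pos (pow_pos h0 _)]
    exact mul_le_mul (pow_le_pow_of_le_one h0.le hs.2 (by omega))
      (mul_le_mul (hu a ha) (hw b hb c hc) (abs_nonneg _) hK) (by positivity) (by positivity)

theorem n1_fin {I : Type} [Fintype I] {p : I → Y → Py} (hp : ∀ i, Bd (p i)) :
    ∃ (C : ℝ) (d : ℕ), 0 ≤ C ∧ ∀ i y x, ‖ev x (p i y)‖ ≤ C * (1 + ‖x‖) ^ d := by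
  choose C d h0 h using fun i => (hp i).ev
  refine ⟨∑ i, C i, ∑ i, d i, sum_nonneg fun i _ => h0 i, fun i y x => (h i y x).trans ?_⟩
  have h1 : (1 : ℝ) ≤ 1 + ‖x‖ := le_add_of_nonneg_right (norm_nonneg x)
  exact mul_le_mul (single_le_sum (fun i _ => h0 i) (mem_univ i))
    (pow_le_pow_right₀ h1 (single_le_sum (fun i _ => Nat.zero_le (d i)) (mem_univ i))) (by positivity)
    (sum_nonneg fun i _ => h0 i)

theorem n1_uw (hr : 0 < r) : ∃ (B : ℝ) (e : ℕ), 0 ≤ B ∧ ∀ (y : Fam N M r) (x : V),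
    (∀ a < 5, |(ev x (tay y.1.1.ρ a)).re| ≤ B * (1 + ‖x‖) ^ e) ∧ ∀ b < 5, ∀ c < 5,
      |(∑ i, conj (ev x (pk y.1.1 y.1.2 b i)) * ev x (pk y.1.1 y.1.2 c i)).re| ≤ B * (1 + ‖x‖) ^ e := by
  obtain ⟨A, d, hA, h1⟩ := n1_fin (I := Fin 5) (p := fun a (y : Fam N M r) => tay y.1.1.ρ a)
    fun a => bd_tay hr (fun y => y.2.1.ρ) a.2.le
  obtain ⟨A', d', hA', h2⟩ := n1_fin (I := Fin 5 × Fin N)
    (p := fun a (y : Fam N M r) => pk y.1.1 y.1.2 a.1 a.2) fun a => bd_pk hr a.1.2.le a.2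
  refine ⟨A + N * A' ^ 2, d + 2 * d', by positivity, fun y x => ⟨fun a ha => ?_, fun b hb c hc => ?_⟩⟩
  · have h3 : (1 : ℝ) ≤ 1 + ‖x‖ := le_add_of_nonneg_right (norm_nonneg x)
    refine (Complex.abs_re_le_norm _).trans ((h1 ⟨a, ha⟩ y x).trans ?_)
    exact mul_le_mul (le_add_of_nonneg_right (by positivity)) (pow_le_pow_right₀ h3 (by omega))
      (by positivity) (by positivity)
  · have h3 : (1 : ℝ) ≤ 1 + ‖x‖ := le_add_of_nonneg_right (norm_nonneg x)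
    refine (Complex.abs_re_le_norm _).trans ((norm_sum_le _ _).trans
      ((sum_le_card_nsmul _ _ (A' ^ 2 * (1 + ‖x‖) ^ (2 * d')) fun i _ => ?_).trans ?_))
    · rw [norm_mul, Complex.norm_conj]
      refine (mul_le_mul (h2 (⟨b, hb⟩, i) y x) (h2 (⟨c, hc⟩, i) y x) (norm_nonneg _)
        (by positivity)).trans_eq (by ring)
    · rw [card_univ, Fintype.card_fin, nsmul_eq_mul, ← mul_assoc]
      exact mul_le_mul (le_add_of_nonneg_left hA) (pow_le_pow_right₀ h3 (by omega))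
        (by positivity) (by positivity)

theorem Qk_bd (hr : 0 < r) : ∃ (C : ℝ) (d : ℕ), 0 ≤ C ∧ ∀ y : Fam N M r, ∀ k < 5, ∀ x,
    |Qk y.1.1 y.1.2 k x| ≤ C * (1 + ‖x‖) ^ d := by
  obtain ⟨B, e, hB, h⟩ := n1_uw (N := N) (M := M) hr
  refine ⟨25 * B ^ 2, 2 * e, by positivity, fun y k hk x => ?_⟩
  obtain ⟨hu, hw⟩ := h y x
  have h3 : ∀ (f : ℕ × ℕ → ℝ) (D : ℝ) (j : ℕ), j < 5 → 0 ≤ D → (∀ a ∈ antidiagonal j, |f a| ≤ D) →
      |∑ a ∈ antidiagonal j, f a| ≤ 5 * D := fun f D j hj hD h =>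
    (abs_sum_le_sum_abs _ _).trans ((sum_le_card_nsmul _ _ D h).trans (by
      rw [Finset.Nat.card_antidiagonal, nsmul_eq_mul]
      exact mul_le_mul_of_nonneg_right (by exact_mod_cast hj) hD))
  rw [show 25 * B ^ 2 * (1 + ‖x‖) ^ (2 * e) =
    5 * (B * (1 + ‖x‖) ^ e * (5 * (B * (1 + ‖x‖) ^ e))) by ring]
  refine h3 _ _ k hk (by positivity) fun p hp => ?_
  have hp' := mem_antidiagonal.1 hp
  rw [abs_mul]
  refine mul_le_mul (hu _ (by omega)) (h3 _ _ _ (by omega) (by positivity) fun q hq => ?_)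
    (abs_nonneg _) (by positivity)
  have hq' := mem_antidiagonal.1 hq
  exact hw _ (by omega) _ (by omega)

theorem n1_sq (o : Op N) (ξ : Fin N → ℂ) (s : ℝ) (z : V) : ∑ i, ‖Us o ξ s i z‖ ^ 2 =
    Gs s z ^ 2 * ∑ b ∈ range 5, ∑ c ∈ range 5, s ^ (b + c) *
      (∑ i, conj (ev (s⁻¹ • z) (pk o ξ b i)) * ev (s⁻¹ • z) (pk o ξ c i)).re := by
  have e : ((∑ i, ‖Us o ξ s i z‖ ^ 2 : ℝ) : ℂ) = ((Gs s z ^ 2 : ℝ) : ℂ) * ∑ b ∈ range 5, ∑ c ∈ range 5,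
      ((s ^ (b + c) : ℝ) : ℂ) * ∑ i, conj (ev (s⁻¹ • z) (pk o ξ b i)) * ev (s⁻¹ • z) (pk o ξ c i) := by
    simp only [Complex.ofReal_sum, Complex.ofReal_pow, ← Complex.conj_mul', Us, Wq, map_sum, map_mul,
      map_pow, Complex.conj_ofReal, sum_mul_sum]
    simp only [mul_sum]
    rw [sum_comm]
    refine sum_congr rfl fun b _ => ?_
    rw [sum_comm]
    exact sum_congr rfl fun c _ => sum_congr rfl fun i _ => by ring
  have e2 := congrArg Complex.re e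
  rw [Complex.ofReal_re, Complex.re_ofReal_mul, Complex.re_sum] at e2
  simp only [Complex.re_sum (range 5), Complex.re_ofReal_mul] at e2
  exact e2

theorem n1_pt (hr : 0 < r) : ∃ (C : ℝ) (d : ℕ), 0 ≤ C ∧ ∀ y : Fam N M r,
    ∀ s ∈ Set.Ioc (0 : ℝ) 1, ∀ z ∈ ball (0 : V) r,
      |(y.1.1.ρ z).re * ∑ i, ‖Us y.1.1 y.1.2 s i z‖ ^ 2 -
        Gs s z ^ 2 * ∑ k ∈ range 5, s ^ k * Qk y.1.1 y.1.2 k (s⁻¹ • z)| ≤
        C * s ^ 5 * wt d s z ^ 2 := by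
  obtain ⟨B, e, hB, h⟩ := n1_uw (N := N) (M := M) hr
  refine ⟨125 * B ^ 2 + 25 * |M| * B, e + 5, by positivity, fun y s hs z hz => ?_⟩
  obtain ⟨hu, hw⟩ := h y (s⁻¹ • z)
  have h0 := hs.1
  have k1 := n1_alg hs hu hw
  have k2 := taylor y.2.1.ρ (n := 4) le_rfl hz
  have ez : z = s • s⁻¹ • z := by rw [smul_inv_smul₀ h0.ne']
  rw [n1_sq, wt]
  unfold Qk
  generalize s⁻¹ • z = x at *
  have k3 : |(y.1.1.ρ z).re - ∑ a ∈ range 5, s ^ a * (ev x (tay y.1.1.ρ a)).re| ≤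
      |M| * (s ^ 5 * (1 + ‖x‖) ^ 5) := by
    have e1 : ∑ a ∈ range 5, s ^ a * (ev x (tay y.1.1.ρ a)).re =
        (∑ l ∈ range (4 + 1), ev z (tay y.1.1.ρ l)).re := by
      rw [Complex.re_sum]
      refine sum_congr rfl fun a _ => ?_
      rw [ez, ev_tay_smul, ← Complex.ofReal_pow, Complex.re_ofReal_mul]
    rw [e1, ← Complex.sub_re]
    refine (Complex.abs_re_le_norm _).trans (k2.trans (mul_le_mul (le_abs_self M) ?_ (by positivity)
      (abs_nonneg M)))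
    rw [ez, norm_smul, Real.norm_of_nonneg h0.le, mul_pow]
    exact mul_le_mul_of_nonneg_left (pow_le_pow_left₀ (norm_nonneg _) (by linarith) _) (by positivity)
  have h3 : ∀ (f : ℕ → ℝ) (D : ℝ), (∀ a < 5, |f a| ≤ D) → |∑ a ∈ range 5, f a| ≤ 5 * D := fun f D h =>
    (abs_sum_le_sum_abs _ _).trans ((sum_le_card_nsmul _ _ D fun a ha => h a (mem_range.1 ha)).trans
      (by simp))
  have k4 : |∑ b ∈ range 5, ∑ c ∈ range 5, s ^ (b + c) *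
      (∑ i, conj (ev x (pk y.1.1 y.1.2 b i)) * ev x (pk y.1.1 y.1.2 c i)).re| ≤
      5 * (5 * (1 * (B * (1 + ‖x‖) ^ e))) := h3 _ _ fun b hb => h3 _ _ fun c hc => by
    rw [abs_mul, abs_of_pos (pow_pos h0 _)]
    exact mul_le_mul (pow_le_one₀ h0.le hs.2) (hw b hb c hc) (abs_nonneg _) zero_le_one
  generalize (∑ b ∈ range 5, ∑ c ∈ range 5, s ^ (b + c) *
      (∑ i, conj (ev x (pk y.1.1 y.1.2 b i)) * ev x (pk y.1.1 y.1.2 c i)).re) = W at *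
  generalize (∑ a ∈ range 5, s ^ a * (ev x (tay y.1.1.ρ a)).re) = U at *
  generalize (∑ k ∈ range 5, s ^ k * ∑ p ∈ antidiagonal k, (ev x (tay y.1.1.ρ p.1)).re *
    ∑ q ∈ antidiagonal p.2, (∑ i, conj (ev x (pk y.1.1 y.1.2 q.1 i)) * ev x (pk y.1.1 y.1.2 q.2 i)).re) = Q at *
  have t1 : (1 : ℝ) ≤ 1 + ‖x‖ := le_add_of_nonneg_right (norm_nonneg x)
  generalize 1 + ‖x‖ = t at *
  have k5 : |((y.1.1.ρ z).re - U) * W| ≤ |M| * (s ^ 5 * t ^ 5) * (5 * (5 * (1 * (B * t ^ e)))) := by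
    rw [abs_mul]
    exact mul_le_mul k3 k4 (abs_nonneg _) (by positivity)
  have k6 : t ^ (2 * e) ≤ t ^ (2 * (e + 5)) := pow_le_pow_right₀ t1 (by omega)
  have k7 : t ^ (e + 5) ≤ t ^ (2 * (e + 5)) := pow_le_pow_right₀ t1 (by omega)
  have k8 := mul_le_mul_of_nonneg_left k6 (show 0 ≤ 125 * B ^ 2 * s ^ 5 by positivity)
  have k9 := mul_le_mul_of_nonneg_left k7 (show 0 ≤ 25 * |M| * B * s ^ 5 by positivity)
  rw [show (y.1.1.ρ z).re * (Gs s z ^ 2 * W) - Gs s z ^ 2 * Q =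
    Gs s z ^ 2 * (((y.1.1.ρ z).re - U) * W + (U * W - Q)) by ring, abs_mul, abs_of_nonneg (sq_nonneg _),
    show (125 * B ^ 2 + 25 * |M| * B) * s ^ 5 * (Gs s z * t ^ (e + 5)) ^ 2 =
      Gs s z ^ 2 * (25 * |M| * B * s ^ 5 * t ^ (2 * (e + 5)) + 125 * B ^ 2 * s ^ 5 * t ^ (2 * (e + 5))) by ring]
  refine mul_le_mul_of_nonneg_left ((abs_add_le _ _).trans (add_le_add (k5.trans ?_) (k1.trans ?_)))
    (sq_nonneg _)
  · exact le_of_eq_of_le (by ring) k9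
  · exact le_of_eq_of_le (by ring) k8

end Vale.Agent.P267J
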