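import Vale.Agent.P267J.R2
import Vale.Agent.P267J.Ts

/-! The residual with cut-off. Leibniz: pd k (χ v) = pd k χ v + χ pd k v, twice. So Rs = χ (Ut + app Us) + terms g y z * F with g = a * pd j (pd k χ), a * pd k χ, a * pd j χ, b * pd j χ and F = Us or pd j Us. Derivatives of χ are bounded (continuous, compact support) and vanish on ball 0 (r / 2) (χ is locally 1), hence ‖g y z‖ ≤ A ‖z‖ ^ 4 on the ball (Sb.le). Us is Sml 0, pd j Us = sum s ^ k s⁻¹ Wq (dl j pk) (pd_Wq): use Sml.mul with k = 4 and Sml.div. -/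

open MeasureTheory Filter Topology Metric Finset
open scoped ContDiff ComplexConjugate

noncomputable section

namespace Vale.Agent.P267J

variable {N : ℕ} {M r s : ℝ} {Y : Type} {χ : V → ℂ} {o : Op N} {ξ : Fin N → ℂ}

theorem r3_smooth {f : V → ℂ} (h : ContDiff ℝ ∞ f) (j : Fin 4) : ContDiff ℝ ∞ (pd j f) :=
  (h.fderiv_right (m := ∞) le_rfl).clm_apply contDiff_const

theorem r3_zero {f : V → ℂ} {c : ℂ} (h : ∀ z ∈ ball (0 : V) r, f z = c) (j : Fin 4) :
    ∀ z ∈ ball (0 : V) r, pd j f z = 0 := fun z hz => by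
  have e : f =ᶠ[𝓝 z] fun _ => c := mem_of_superset (isOpen_ball.mem_nhds hz) h
  rw [pd, e.fderiv_eq]
  simp

theorem r3_bound (hr : 0 < r) {g : V → ℂ} (h : Continuous g) (hc : HasCompactSupport g)
    (h0 : ∀ z ∈ ball (0 : V) r, g z = 0) : ∃ A : ℝ, 0 ≤ A ∧ ∀ z, ‖g z‖ ≤ A * ‖z‖ ^ 4 := by
  obtain ⟨B, hB⟩ := h.bounded_above_of_compact_support hc
  have hB0 : 0 ≤ B := (norm_nonneg _).trans (hB 0)
  refine ⟨B / r ^ 4, by positivity, fun z => ?_⟩
  by_cases hz : z ∈ ball (0 : V) r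
  · rw [h0 z hz, norm_zero]
    positivity
  · rw [mem_ball_zero_iff, not_lt] at hz
    refine (hB z).trans ?_
    rw [div_mul_eq_mul_div, le_div_iff₀ (by positivity)]
    exact mul_le_mul_of_nonneg_left (pow_le_pow_left₀ hr.le hz 4) hB0

theorem cut_der (hr : 0 < r) (hχ : Cut r χ) : ∃ A : ℝ, 0 ≤ A ∧ ∀ j k z,
    ‖pd j χ z‖ ≤ A * ‖z‖ ^ 4 ∧ ‖pd j (pd k χ) z‖ ≤ A * ‖z‖ ^ 4 := by
  have c1 : ∀ j, HasCompactSupport (pd j χ) := fun j => hχ.cpt.fderiv_apply ℝ _
  choose A hA hA' using fun j => r3_bound (half_pos hr) (r3_smooth hχ.smooth j).continuous (c1 j)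
    (r3_zero hχ.one j)
  choose B hB hB' using fun p : Fin 4 × Fin 4 => r3_bound (half_pos hr)
    (r3_smooth (r3_smooth hχ.smooth p.2) p.1).continuous ((c1 p.2).fderiv_apply ℝ _)
    (r3_zero (r3_zero hχ.one p.2) p.1)
  have a0 : 0 ≤ ∑ j, A j := sum_nonneg fun j _ => hA j
  have b0 : 0 ≤ ∑ p, B p := sum_nonneg fun p _ => hB p
  refine ⟨∑ j, A j + ∑ p, B p, add_nonneg a0 b0, fun j k z => ⟨(hA' j z).trans ?_,
    (hB' (j, k) z).trans ?_⟩⟩
  · exact mul_le_mul_of_nonneg_right ((single_le_sum (fun j _ => hA j) (mem_univ j)).trans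
      (le_add_of_nonneg_right b0)) (by positivity)
  · exact mul_le_mul_of_nonneg_right ((single_le_sum (fun p _ => hB p) (mem_univ (j, k))).trans
      (le_add_of_nonneg_left a0)) (by positivity)

theorem Us_sml (hr : 0 < r) (i : Fin N) :
    Sml r 0 fun (y : Fam N M r) s z => Us y.1.1 y.1.2 s i z :=
  Sml.sum (range 5) fun k hk =>
    ((sml_wq (bd_pk hr (mem_range.1 hk).le i)).pow k).mono (Nat.zero_le _)

theorem r3_pd_Us (hs : 0 < s) (j : Fin 4) (i : Fin N) (z : V) : pd j (Us o ξ s i) z =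
    (s : ℂ)⁻¹ * ∑ k ∈ range 5, (s : ℂ) ^ k * Wq s (dl j (pk o ξ k i)) z := by
  have d : ∀ q, DifferentiableAt ℝ (Wq s q) z := fun q =>
    (Wq_smooth s q).differentiable (by simp) z
  have e : Us o ξ s i = fun z => ∑ k ∈ range 5, (s : ℂ) ^ k * Wq s (pk o ξ k i) z := rfl
  rw [e, pd, fderiv_fun_sum fun k _ => (d _).const_mul _, mul_sum, _root_.sum_apply]
  refine sum_congr rfl fun k _ => ?_
  rw [fderiv_const_mul (d _), mul_left_comm, ← congrFun (pd_Wq hs j (pk o ξ k i)) z]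
  rfl

theorem r3_dU (hr : 0 < r) (j : Fin 4) (i : Fin N) {g : Fam N M r → V → ℂ} {A : ℝ}
    (hg : ∀ y, ∀ z ∈ ball (0 : V) r, ‖g y z‖ ≤ A * ‖z‖ ^ 4) :
    Sml r 3 fun (y : Fam N M r) s z => g y z * pd j (Us y.1.1 y.1.2 s i) z := by
  have h : Sml r 0 fun (y : Fam N M r) s z =>
      ∑ k ∈ range 5, (s : ℂ) ^ k * Wq s (dl j (pk y.1.1 y.1.2 k i)) z :=
    Sml.sum (range 5) fun k hk =>
      ((sml_wq ((bd_pk hr (mem_range.1 hk).le i).map (dl j))).pow k).mono (Nat.zero_le _)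
  refine (Sml.div (n := 3) (k := 1) (h.mul hg)).congr fun y s hs z _ => ?_
  rw [r3_pd_Us hs.1, pow_one, mul_left_comm]

theorem r3_mul {f g : V → ℂ} (hf : ContDiff ℝ ∞ f) (hg : ContDiff ℝ ∞ g) (k : Fin 4) :
    pd k (fun z => f z * g z) = fun z => pd k f z * g z + f z * pd k g z := by
  funext z
  simp only [pd, fderiv_fun_mul (hf.differentiable (by simp) z) (hg.differentiable (by simp) z),
    add_apply, smul_apply, smul_eq_mul]
  ring

theorem r3_add {f g : V → ℂ} (hf : ContDiff ℝ ∞ f) (hg : ContDiff ℝ ∞ g) (k : Fin 4) :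
    pd k (fun z => f z + g z) = fun z => pd k f z + pd k g z := by
  funext z
  simp only [pd, fderiv_fun_add (hf.differentiable (by simp) z) (hg.differentiable (by simp) z),
    add_apply]

theorem r3_app (hχ : ContDiff ℝ ∞ χ) {v : Fin N → V → ℂ} (hv : ∀ i, ContDiff ℝ ∞ (v i))
    (i : Fin N) (z : V) : o.app (fun m z => χ z * v m z) i z = χ z * o.app v i z +
      (-(∑ j, ∑ k, (o.a j k z * pd j (pd k χ) z * v i z + o.a j k z * pd k χ z * pd j (v i) z +
        o.a j k z * pd j χ z * pd k (v i) z)) + ∑ j, ∑ m, o.b j i m z * pd j χ z * v m z) := by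
  have e : ∀ j k, pd j (pd k fun z => χ z * v i z) z = pd j (pd k χ) z * v i z +
      pd k χ z * pd j (v i) z + (pd j χ z * pd k (v i) z + χ z * pd j (pd k (v i)) z) := by
    intro j k
    rw [r3_mul hχ (hv i), r3_add ((r3_smooth hχ k).mul (hv i)) (hχ.mul (r3_smooth (hv i) k)),
      r3_mul (r3_smooth hχ k) (hv i), r3_mul hχ (r3_smooth (hv i) k)]
  simp only [Op.app, e]
  simp only [r3_mul hχ (hv _), mul_add, sum_add_distrib, mul_neg, mul_sum, mul_assoc,
    mul_left_comm (χ z)]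
  ring

theorem Rs_sml (hr : 0 < r) (hχ : Cut r χ) (i : Fin N) :
    Sml r 3 fun (y : Fam N M r) s z => Rs χ y.1.1 y.1.2 s i z := by
  obtain ⟨A, -, hA⟩ := cut_der hr hχ
  have b : ∀ {f D : V → ℂ}, Sb M r f → (∀ z, ‖D z‖ ≤ A * ‖z‖ ^ 4) →
      ∀ z ∈ ball (0 : V) r, ‖f z * D z‖ ≤ M * A * ‖z‖ ^ 4 := fun hf hD z hz => by
    rw [norm_mul, mul_assoc]
    exact mul_le_mul (hf.le hz) (hD z) (norm_nonneg _) ((norm_nonneg _).trans (hf.le hz))
  have h0 := (res_sml (M := M) hr i).mul (g := fun _ z => χ z) (k := 0) (A := 1)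
    fun _ z _ => by simpa using hχ.le z
  have h1 := Sml.sum univ fun j _ => Sml.sum univ fun k _ =>
    ((((Us_sml (M := M) hr i).mul fun y => b (y.2.1.a j k) fun z => (hA j k z).2).mono
      (k := 3) (by norm_num)).add
      (r3_dU hr j i fun y => b (y.2.1.a j k) fun z => (hA k k z).1)).add
      (r3_dU hr k i fun y => b (y.2.1.a j k) fun z => (hA j k z).1)
  have h2 := Sml.sum univ fun j _ => Sml.sum univ fun m _ =>
    ((Us_sml (M := M) hr m).mul fun y => b (y.2.1.b j i m) fun z => (hA j j z).1).mono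
      (k := 3) (by norm_num)
  refine (h0.add (h1.neg.add h2)).congr fun y s _ z _ => ?_
  have e := r3_app (o := y.1.1) hχ.smooth (fun m => Us_smooth (o := y.1.1) (ξ := y.1.2) (s := s) m)
    i z
  rw [mul_add, add_assoc, ← e]
  rfl

end Vale.Agent.P267J
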