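import Vale.Agent.P267J.N1
import Vale.Agent.P267J.R3

/-! The expansion of the norm. n2_pt: on ball 0 (r / 2) χ = 1, use n1_pt. Elsewhere 1 ≤ (2 / r) ^ 5 ‖z‖ ^ 5, and both terms are ≤ C wt d ^ 2 (Us_sml, Sb.le, Cut.le on the ball, uc = 0 outside; Qk_bd), ‖z‖ ^ 5 wt d ≤ s ^ 5 wt (d + 5) (wt_mul). norm_exp: integrate (wt_sq); integral of Gs s z ^ 2 Qk (s⁻¹ • z) = alpha / s ^ 4 (Gs_scale, scale); Qk is continuous (ev_smooth); the first integrand is continuous with compact support (tst_uc). -/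

open MeasureTheory Filter Topology Metric Finset
open scoped ContDiff ComplexConjugate

noncomputable section

namespace Vale.Agent.P267J

variable {N : ℕ} {M r s : ℝ} {Y : Type} {χ : V → ℂ} {o : Op N} {ξ : Fin N → ℂ}

theorem n2_first (hr : 0 < r) (hχ : Cut r χ) : ∃ (C : ℝ) (d : ℕ), 0 ≤ C ∧ ∀ y : Fam N M r,
    ∀ s ∈ Set.Ioc (0 : ℝ) 1, ∀ z,
      |(y.1.1.ρ z).re * ∑ i, ‖uc χ y.1.1 y.1.2 s i z‖ ^ 2| ≤ C * wt d s z ^ 2 := by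
  choose Cu du hCu hU using fun i : Fin N => Us_sml (N := N) (M := M) hr i
  have hA : 0 ≤ |M| * ∑ i, Cu i ^ 2 :=
    mul_nonneg (abs_nonneg _) (Finset.sum_nonneg fun i _ => sq_nonneg _)
  refine ⟨|M| * ∑ i, Cu i ^ 2, ∑ i, du i, hA, fun y s hs z => ?_⟩
  by_cases hz : z ∈ ball (0 : V) r
  · have h1 : |(y.1.1.ρ z).re| ≤ |M| :=
      (Complex.abs_re_le_norm _).trans ((y.2.1.ρ.le hz).trans (le_abs_self M))
    have h2 : ∑ i, ‖uc χ y.1.1 y.1.2 s i z‖ ^ 2 ≤ (∑ i, Cu i ^ 2) * wt (∑ i, du i) s z ^ 2 := by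
      rw [Finset.sum_mul]
      refine Finset.sum_le_sum fun i _ => ?_
      rw [← mul_pow]
      refine pow_le_pow_left₀ (norm_nonneg _) ?_ 2
      have h3 := hU i y s hs z hz
      rw [pow_zero, mul_one] at h3
      have h4 : wt (du i) s z ≤ wt (∑ i, du i) s z :=
        wt_mono hs.1 (Finset.single_le_sum (fun i _ => Nat.zero_le (du i)) (mem_univ i)) z
      calc ‖uc χ y.1.1 y.1.2 s i z‖ = ‖χ z‖ * ‖Us y.1.1 y.1.2 s i z‖ := norm_mul _ _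
        _ ≤ 1 * ‖Us y.1.1 y.1.2 s i z‖ := mul_le_mul_of_nonneg_right (hχ.le z) (norm_nonneg _)
        _ ≤ Cu i * wt (du i) s z := by rwa [one_mul]
        _ ≤ _ := mul_le_mul_of_nonneg_left h4 (hCu i)
    have h0 : 0 ≤ ∑ i, ‖uc χ y.1.1 y.1.2 s i z‖ ^ 2 := Finset.sum_nonneg fun i _ => sq_nonneg _
    rw [abs_mul, abs_of_nonneg h0, mul_assoc]
    exact mul_le_mul h1 h2 h0 (abs_nonneg _)
  · have h1 : ∀ i, uc χ y.1.1 y.1.2 s i z = 0 := fun i => (tst_uc hχ).zero i hz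
    simp only [h1, norm_zero, ne_eq, OfNat.ofNat_ne_zero, not_false_eq_true, zero_pow,
      Finset.sum_const_zero, mul_zero, abs_zero]
    exact mul_nonneg hA (sq_nonneg _)

theorem n2_second (hr : 0 < r) : ∃ (C : ℝ) (d : ℕ), 0 ≤ C ∧ ∀ y : Fam N M r,
    ∀ s ∈ Set.Ioc (0 : ℝ) 1, ∀ z,
      |Gs s z ^ 2 * ∑ k ∈ range 5, s ^ k * Qk y.1.1 y.1.2 k (s⁻¹ • z)| ≤ C * wt d s z ^ 2 := by
  obtain ⟨C, d, hC, h⟩ := Qk_bd (N := N) (M := M) hr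
  refine ⟨5 * C, d, by positivity, fun y s hs z => ?_⟩
  have h1 : |∑ k ∈ range 5, s ^ k * Qk y.1.1 y.1.2 k (s⁻¹ • z)| ≤
      5 * (C * (1 + ‖s⁻¹ • z‖) ^ d) := by
    refine (Finset.abs_sum_le_sum_abs _ _).trans ?_
    refine (Finset.sum_le_card_nsmul _ _ (C * (1 + ‖s⁻¹ • z‖) ^ d) fun k hk => ?_).trans ?_
    · rw [abs_mul, abs_of_nonneg (pow_nonneg hs.1.le k)]
      calc s ^ k * |Qk y.1.1 y.1.2 k (s⁻¹ • z)| ≤ 1 * |Qk y.1.1 y.1.2 k (s⁻¹ • z)| :=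
            mul_le_mul_of_nonneg_right (pow_le_one₀ hs.1.le hs.2) (abs_nonneg _)
        _ ≤ _ := by
            rw [one_mul]
            exact h y k (mem_range.1 hk) _
    · simp
  have h2 : (1 : ℝ) ≤ (1 + ‖s⁻¹ • z‖) ^ d := one_le_pow₀ (le_add_of_nonneg_right (norm_nonneg _))
  have h3 : (1 + ‖s⁻¹ • z‖) ^ d ≤ ((1 + ‖s⁻¹ • z‖) ^ d) ^ 2 := by nlinarith
  rw [abs_mul, abs_of_nonneg (sq_nonneg _), wt, mul_pow]
  calc Gs s z ^ 2 * |∑ k ∈ range 5, s ^ k * Qk y.1.1 y.1.2 k (s⁻¹ • z)|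
      ≤ Gs s z ^ 2 * (5 * (C * ((1 + ‖s⁻¹ • z‖) ^ d) ^ 2)) :=
        mul_le_mul_of_nonneg_left (h1.trans (by gcongr)) (sq_nonneg _)
    _ = _ := by ring

theorem n2_far (hr : 0 < r) (hs : 0 < s) (d : ℕ) {z : V} (hz : z ∉ ball (0 : V) (r / 2)) :
    wt d s z ^ 2 ≤ (2 / r) ^ 5 * s ^ 5 * wt (d + 5) s z ^ 2 := by
  have h1 : r / 2 ≤ ‖z‖ := by simpa using hz
  have h2 : 1 ≤ 2 / r * ‖z‖ := by
    rw [div_mul_eq_mul_div, le_div_iff₀ hr]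
    linarith
  have h3 : (1 : ℝ) ≤ (2 / r) ^ 5 * ‖z‖ ^ 5 := by
    rw [← mul_pow]
    exact one_le_pow₀ h2
  have h4 := wt_nonneg hs d z
  have h5 : wt d s z ≤ (2 / r) ^ 5 * (s ^ 5 * wt (d + 5) s z) :=
    calc wt d s z = 1 * wt d s z := (one_mul _).symm
      _ ≤ (2 / r) ^ 5 * ‖z‖ ^ 5 * wt d s z := mul_le_mul_of_nonneg_right h3 h4
      _ = (2 / r) ^ 5 * (‖z‖ ^ 5 * wt d s z) := mul_assoc _ _ _
      _ ≤ _ := mul_le_mul_of_nonneg_left (wt_mul hs d 5 z) (by positivity)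
  calc wt d s z ^ 2 = wt d s z * wt d s z := sq _
    _ ≤ (2 / r) ^ 5 * (s ^ 5 * wt (d + 5) s z) * wt (d + 5) s z :=
        mul_le_mul h5 (wt_mono hs (Nat.le_add_right d 5) z) h4 (h4.trans h5)
    _ = _ := by ring

theorem n2_pt (hr : 0 < r) (hχ : Cut r χ) : ∃ (C : ℝ) (d : ℕ), 0 ≤ C ∧ ∀ y : Fam N M r,
    ∀ s ∈ Set.Ioc (0 : ℝ) 1, ∀ z,
      |(y.1.1.ρ z).re * ∑ i, ‖uc χ y.1.1 y.1.2 s i z‖ ^ 2 -
        Gs s z ^ 2 * ∑ k ∈ range 5, s ^ k * Qk y.1.1 y.1.2 k (s⁻¹ • z)| ≤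
        C * s ^ 5 * wt d s z ^ 2 := by
  obtain ⟨C1, d1, hC1, h1⟩ := n1_pt (N := N) (M := M) hr
  obtain ⟨C2, d2, hC2, h2⟩ := n2_first (N := N) (M := M) hr hχ
  obtain ⟨C3, d3, hC3, h3⟩ := n2_second (N := N) (M := M) hr
  have hB : 0 ≤ (C2 + C3) * (2 / r) ^ 5 := by positivity
  refine ⟨C1 + (C2 + C3) * (2 / r) ^ 5, d1 + d2 + d3 + 5, add_nonneg hC1 hB, fun y s hs z => ?_⟩
  have hm : ∀ d d' : ℕ, d ≤ d' → wt d s z ^ 2 ≤ wt d' s z ^ 2 := fun d d' h =>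
    pow_le_pow_left₀ (wt_nonneg hs.1 d z) (wt_mono hs.1 h z) 2
  have hs5 : 0 ≤ s ^ 5 := pow_nonneg hs.1.le 5
  have hw : 0 ≤ s ^ 5 * wt (d1 + d2 + d3 + 5) s z ^ 2 := mul_nonneg hs5 (sq_nonneg _)
  by_cases hz : z ∈ ball (0 : V) (r / 2)
  · have e : ∀ i, uc χ y.1.1 y.1.2 s i z = Us y.1.1 y.1.2 s i z := fun i => by
      rw [uc, hχ.one z hz, one_mul]
    simp only [e]
    refine (h1 y s hs z (ball_subset_ball (half_le_self hr.le) hz)).trans ?_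
    calc C1 * s ^ 5 * wt d1 s z ^ 2 ≤ C1 * s ^ 5 * wt (d1 + d2 + d3 + 5) s z ^ 2 :=
          mul_le_mul_of_nonneg_left (hm _ _ (by omega)) (mul_nonneg hC1 hs5)
      _ = C1 * (s ^ 5 * wt (d1 + d2 + d3 + 5) s z ^ 2) := mul_assoc _ _ _
      _ ≤ (C1 + (C2 + C3) * (2 / r) ^ 5) * (s ^ 5 * wt (d1 + d2 + d3 + 5) s z ^ 2) :=
          mul_le_mul_of_nonneg_right (le_add_of_nonneg_right hB) hw
      _ = _ := (mul_assoc _ _ _).symm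
  · have a2 := (h2 y s hs z).trans
      (mul_le_mul_of_nonneg_left (hm d2 (d1 + d2 + d3) (by omega)) hC2)
    have a3 := (h3 y s hs z).trans
      (mul_le_mul_of_nonneg_left (hm d3 (d1 + d2 + d3) (by omega)) hC3)
    refine (abs_sub _ _).trans ((add_le_add a2 a3).trans ?_)
    calc C2 * wt (d1 + d2 + d3) s z ^ 2 + C3 * wt (d1 + d2 + d3) s z ^ 2
        = (C2 + C3) * wt (d1 + d2 + d3) s z ^ 2 := by ring
      _ ≤ (C2 + C3) * ((2 / r) ^ 5 * s ^ 5 * wt (d1 + d2 + d3 + 5) s z ^ 2) :=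
          mul_le_mul_of_nonneg_left (n2_far hr hs.1 _ hz) (add_nonneg hC2 hC3)
      _ = (C2 + C3) * (2 / r) ^ 5 * (s ^ 5 * wt (d1 + d2 + d3 + 5) s z ^ 2) := by ring
      _ ≤ (C1 + (C2 + C3) * (2 / r) ^ 5) * (s ^ 5 * wt (d1 + d2 + d3 + 5) s z ^ 2) :=
          mul_le_mul_of_nonneg_right (le_add_of_nonneg_left hC1) hw
      _ = _ := (mul_assoc _ _ _).symm

end Vale.Agent.P267J
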