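import Vale.Agent.P267J.D

/-! Gaussians times polynomials. ev_fderiv: MvPolynomial.induction_on. pd_Wq: product rule; the derivative of Gs s along single i 1 is - z i / (2 s ^ 2) * Gs s z (‖z‖ ^ 2 = sum z i ^ 2, EuclideanSpace.real_norm_sq_eq, or HasFDerivAt.norm_sq). -/

open MeasureTheory Filter Topology Metric Finset
open scoped ContDiff ComplexConjugate

noncomputable section

namespace Vale.Agent.P267J

variable {N : ℕ} {M r s : ℝ} {Y : Type} {χ : V → ℂ} {o : Op N} {ξ : Fin N → ℂ}

theorem w_co (i : Fin 4) (x : V) : HasFDerivAt (fun x : V => (x i : ℂ))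
    (Complex.ofRealCLM.comp (EuclideanSpace.proj i : V →L[ℝ] ℝ)) x :=
  (Complex.ofRealCLM.comp (EuclideanSpace.proj i : V →L[ℝ] ℝ)).hasFDerivAt

theorem w_C (x : V) (a : ℂ) : ev x (MvPolynomial.C a) = a := MvPolynomial.eval_C a

theorem w_X (x : V) (i : Fin 4) : ev x (MvPolynomial.X i) = x i := MvPolynomial.eval_X i

theorem ev_smooth (q : Py) : ContDiff ℝ ∞ fun x => ev x q := by
  induction q using MvPolynomial.induction_on with
  | C a => simpa only [w_C] using contDiff_const
  | add p q hp hq => simpa only [map_add] using hp.add hq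
  | mul_X p n hp =>
    simp only [map_mul, w_X]
    exact hp.mul (Complex.ofRealCLM.comp (EuclideanSpace.proj n : V →L[ℝ] ℝ)).contDiff

theorem ev_fderiv (q : Py) (x w : V) :
    fderiv ℝ (fun x => ev x q) x w = ∑ i, (w i : ℂ) * ev x (MvPolynomial.pderiv i q) := by
  have d : ∀ p : Py, DifferentiableAt ℝ (fun x => ev x p) x := fun p =>
    (ev_smooth p).differentiable (by simp) x
  induction q using MvPolynomial.induction_on with
  | C a => simp [w_C]
  | add p q hp hq =>
    simp only [map_add, fderiv_fun_add (d p) (d q), add_apply, hp, hq, mul_add, sum_add_distrib]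
  | mul_X p n hp =>
    simp only [map_mul, w_X, fderiv_fun_mul (d p) (w_co n x).differentiableAt, (w_co n x).fderiv,
      add_apply, smul_apply, hp, Derivation.leibniz, smul_eq_mul, map_add, mul_add,
      sum_add_distrib, MvPolynomial.pderiv_X, mul_sum]
    congr 1
    · rw [sum_eq_single n (fun i _ hi => by simp [Pi.single_eq_of_ne hi.symm]) (by simp)]
      simp [mul_comm]
    · exact sum_congr rfl fun i _ => by ring

theorem Gs_smooth (s : ℝ) : ContDiff ℝ ∞ (Gs s) := by
  exact contDiff_const.mul (Real.contDiff_exp.comp ((contDiff_norm_sq ℝ).div_const _).neg)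

theorem Wq_smooth (s : ℝ) (q : Py) : ContDiff ℝ ∞ (Wq s q) := by
  exact (Complex.ofRealCLM.contDiff.comp (Gs_smooth s)).mul
    ((ev_smooth q).comp (contDiff_id.const_smul s⁻¹))

theorem Wq_add (p q : Py) (z : V) : Wq s (p + q) z = Wq s p z + Wq s q z := by
  rw [Wq, Wq, Wq, map_add, mul_add]

theorem Wq_neg (p : Py) (z : V) : Wq s (-p) z = -Wq s p z := by
  rw [Wq, Wq, map_neg, mul_neg]

theorem Wq_mul (p q : Py) (z : V) : Wq s (p * q) z = ev (s⁻¹ • z) p * Wq s q z := by
  rw [Wq, Wq, map_mul, mul_left_comm]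

theorem Wq_sum {I : Type} (t : Finset I) (p : I → Py) (z : V) :
    Wq s (∑ i ∈ t, p i) z = ∑ i ∈ t, Wq s (p i) z := by
  simp only [Wq, map_sum, mul_sum]

theorem pd_Wq (hs : 0 < s) (i : Fin 4) (q : Py) :
    pd i (Wq s q) = fun z => (s : ℂ)⁻¹ * Wq s (dl i q) z := by
  funext z
  have h1 := Complex.ofRealCLM.hasFDerivAt.comp z
    ((((hasStrictFDerivAt_norm_sq z).hasFDerivAt.mul_const (4 * s ^ 2)⁻¹).neg.exp).const_mul
      ((4 * Real.pi * s ^ 2) ^ 2)⁻¹)
  have h2 := ((ev_smooth q).differentiable (by simp) (s⁻¹ • z)).hasFDerivAt.comp z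
    ((hasFDerivAt_id z).const_smul s⁻¹)
  have h3 : fderiv ℝ (fun x => ev x q) (s⁻¹ • z) (s⁻¹ • EuclideanSpace.single i 1) =
      (s : ℂ)⁻¹ * ev (s⁻¹ • z) (MvPolynomial.pderiv i q) := by
    rw [ev_fderiv, sum_eq_single i (fun j _ hj => by simp [hj]) (by simp)]
    simp
  have h0 : (s : ℂ) ≠ 0 := Complex.ofReal_ne_zero.2 hs.ne'
  refine (DFunLike.congr_fun (h1.mul h2).fderiv (EuclideanSpace.single i 1)).trans ?_
  simp only [add_apply, smul_apply, ContinuousLinearMap.comp_apply, ContinuousLinearMap.id_apply,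
    h3, Function.comp_apply, Wq, Gs, dl, LinearMap.sub_apply, LinearMap.mulLeft_apply, map_sub,
    map_mul, w_C, w_X, Derivation.coeFn_coe, Complex.ofRealCLM_apply, smul_eq_mul, neg_apply,
    Pi.neg_apply, innerSL_apply_apply, EuclideanSpace.inner_single_right,
    nsmul_eq_mul, div_eq_mul_inv, PiLp.smul_apply, conj_trivial]
  push_cast
  field_simp
  ring

theorem Us_smooth (i : Fin N) : ContDiff ℝ ∞ (Us o ξ s i) := by
  exact ContDiff.sum fun k _ => contDiff_const.mul (Wq_smooth s _)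

theorem Ut_smooth (i : Fin N) : ContDiff ℝ ∞ (Ut o ξ s i) := by
  exact ContDiff.sum fun k _ => contDiff_const.mul (Wq_smooth s _)

end Vale.Agent.P267J
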