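import Vale.Agent.P267J.Sm
import Vale.Agent.P267J.T
import Vale.Agent.P267J.W

/-! The operator on a Gaussian times a polynomial. pd_Wq twice. With x = s⁻¹ • z: ev z (tay f l) = s ^ l ev x (tay f l) (ev_tay_smul, z = s • x), so ev z (tay f l) * Wq s p z = s ^ l * Wq s (tay f l * p) z (Wq_mul). The difference equals - sum (a - sum over range 5) (s ^ 2)⁻¹ Wq (dl dl q) + sum (b - sum over range 4) s⁻¹ Wq (dl q) + sum (c - sum over range 3) Wq q; tay (a j k) 0 = C (delta) by tay_zero and a0. Each is Sml 3 by taylor, Sml.mul, Sml.div, sml_wq, Bd.map. Expand the sums over range 4, 5, 3 by sum_range_succ. -/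

open MeasureTheory Filter Topology Metric Finset
open scoped ContDiff ComplexConjugate

noncomputable section

namespace Vale.Agent.P267J

variable {N : ℕ} {M r s : ℝ} {Y : Type} {χ : V → ℂ} {o : Op N} {ξ : Fin N → ℂ}

theorem r1_term {f : Y → V → ℂ} (hf : ∀ y, Sb M r (f y)) {p : Y → Py} (hp : Bd p) (n k : ℕ)
    (hn : n ≤ 4) (hk : 3 + k ≤ n + 1) : Sml r 3 fun y s z => ((s : ℂ) ^ k)⁻¹ *
      ((f y z - ∑ l ∈ range (n + 1), ev z (tay (f y) l)) * Wq s (p y) z) :=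
  Sml.div (((sml_wq hp).mul (g := fun y z => f y z - ∑ l ∈ range (n + 1), ev z (tay (f y) l))
    fun y _ hz => taylor (hf y) hn hz).mono (by omega))

theorem r1_gen {I : Type} (t : Finset I) (f W : I → ℂ) (α : I → ℕ → ℂ) (s c : ℂ) (n : ℕ) :
    ∑ i ∈ t, c * ((f i - ∑ l ∈ range n, s ^ l * α i l) * W i) =
      c * ∑ i ∈ t, f i * W i - ∑ l ∈ range n, c * s ^ l * ∑ i ∈ t, α i l * W i := by
  simp only [sub_mul, mul_sub, sum_sub_distrib, mul_sum, sum_mul]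
  rw [sum_comm]
  congr 1
  exact sum_congr rfl fun _ _ => sum_congr rfl fun _ _ => by ring

theorem r1_gen2 {I J : Type} (t : Finset I) (u : Finset J) (f W : I → J → ℂ) (α : I → J → ℕ → ℂ)
    (s c : ℂ) (n : ℕ) :
    ∑ i ∈ t, ∑ j ∈ u, c * ((f i j - ∑ l ∈ range n, s ^ l * α i j l) * W i j) =
      c * ∑ i ∈ t, ∑ j ∈ u, f i j * W i j -
        ∑ l ∈ range n, c * s ^ l * ∑ i ∈ t, ∑ j ∈ u, α i j l * W i j := by
  rw [sum_congr rfl fun i _ => r1_gen u (f i) (W i) (α i) s c n, sum_sub_distrib, ← mul_sum,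
    sum_comm (s := t) (t := range n)]
  simp only [← mul_sum]

theorem r1_out {I J : Type} (t : Finset I) (u : Finset J) (f W : I → J → ℂ) (c : ℂ) :
    ∑ i ∈ t, ∑ j ∈ u, f i j * (c * W i j) = c * ∑ i ∈ t, ∑ j ∈ u, f i j * W i j := by
  simp only [mul_sum]
  exact sum_congr rfl fun _ _ => sum_congr rfl fun _ _ => by ring

theorem r1_pd2 (hs : 0 < s) (j k : Fin 4) (q : Py) (z : V) :
    pd j (pd k (Wq s q)) z = ((s : ℂ) ^ 2)⁻¹ * Wq s (dl j (dl k q)) z := by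
  have h := congrFun (pd_Wq hs j (dl k q)) z
  rw [pd_Wq hs k, pd, fderiv_const_mul
    (((Wq_smooth s (dl k q)).differentiable (by simp)) z), ContinuousLinearMap.smul_apply,
    smul_eq_mul]
  rw [pd] at h
  rw [h]
  ring

theorem r1_ev (hs : 0 < s) (f : V → ℂ) (l : ℕ) (z : V) :
    ev z (tay f l) = (s : ℂ) ^ l * ev (s⁻¹ • z) (tay f l) := by
  rw [← ev_tay_smul, smul_inv_smul₀ hs.ne']

theorem r1_zero (z : V) : Wq s 0 z = 0 := by simp [Wq]

theorem r1_id (hs : 0 < s) (a0 : ∀ j k, o.a j k 0 = if j = k then 1 else 0) (q : Fin N → Py)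
    (i : Fin N) (z : V) :
    o.app (fun m => Wq s (q m)) i z + ((s : ℂ) ^ 2)⁻¹ * Wq s (∑ j, dl j (dl j (q i))) z -
        ∑ l ∈ range 4, (s : ℂ) ^ (l + 1) / s ^ 2 * Wq s (Ml o l q i) z =
      -(∑ j, ∑ k, ((s : ℂ) ^ 2)⁻¹ * ((o.a j k z - ∑ l ∈ range (4 + 1), ev z (tay (o.a j k) l)) *
        Wq s (dl j (dl k (q i))) z)) +
      (∑ j, ∑ m, ((s : ℂ) ^ 1)⁻¹ * ((o.b j i m z - ∑ l ∈ range (3 + 1), ev z (tay (o.b j i m) l)) *
        Wq s (dl j (q m)) z)) +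
      ∑ m, ((s : ℂ) ^ 0)⁻¹ * ((o.c i m z - ∑ l ∈ range (2 + 1), ev z (tay (o.c i m) l)) *
        Wq s (q m) z) := by
  have s0 : (s : ℂ) ≠ 0 := Complex.ofReal_ne_zero.2 hs.ne'
  have e0 : ∑ j, ∑ k, ev (s⁻¹ • z) (tay (o.a j k) 0) * Wq s (dl j (dl k (q i))) z =
      Wq s (∑ j, dl j (dl j (q i))) z := by
    rw [Wq_sum]
    refine sum_congr rfl fun j _ => ?_
    simp [tay_zero, ev, a0]
  have e1 : o.app (fun m => Wq s (q m)) i z =
      -(((s : ℂ) ^ 2)⁻¹ * ∑ j, ∑ k, o.a j k z * Wq s (dl j (dl k (q i))) z) +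
        (s : ℂ)⁻¹ * (∑ j, ∑ m, o.b j i m z * Wq s (dl j (q m)) z) +
        ∑ m, o.c i m z * Wq s (q m) z := by
    rw [← r1_out, ← r1_out]
    simp only [Op.app, r1_pd2 hs]
    simp only [pd_Wq hs]
  simp only [r1_ev hs _ _ z]
  rw [r1_gen2 univ univ (fun j k => o.a j k z) _ (fun j k l => ev (s⁻¹ • z) (tay (o.a j k) l)),
    r1_gen2 univ univ (fun j m => o.b j i m z) _ (fun j m l => ev (s⁻¹ • z) (tay (o.b j i m) l)),
    r1_gen univ (fun m => o.c i m z) _ (fun m l => ev (s⁻¹ • z) (tay (o.c i m) l)), e1, ← e0]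
  simp only [sum_range_succ, sum_range_zero, Ml, Wq_add, Wq_neg, Wq_sum, Wq_mul, if_true,
    r1_zero, one_ne_zero, if_false, OfNat.ofNat_ne_zero, zero_add, Nat.reduceAdd, Nat.reduceSub]
  field_simp
  ring

theorem app_Wq (hr : 0 < r) {q : Fam N M r → Fin N → Py} (hq : ∀ i, Bd fun y => q y i)
    (i : Fin N) : Sml r 3 fun (y : Fam N M r) s z =>
      y.1.1.app (fun m => Wq s (q y m)) i z + ((s : ℂ) ^ 2)⁻¹ * Wq s (∑ j, dl j (dl j (q y i))) z -
        ∑ l ∈ range 4, (s : ℂ) ^ (l + 1) / s ^ 2 * Wq s (Ml y.1.1 l (q y) i) z := by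
  have hA := Sml.sum univ fun (j : Fin 4) _ => Sml.sum univ fun (k : Fin 4) _ =>
    r1_term (fun y : Fam N M r => y.2.1.a j k) (((hq i).map (dl k)).map (dl j)) 4 2 le_rfl le_rfl
  have hB := Sml.sum univ fun (j : Fin 4) _ => Sml.sum univ fun (m : Fin N) _ =>
    r1_term (fun y : Fam N M r => y.2.1.b j i m) ((hq m).map (dl j)) 3 1 (by norm_num) le_rfl
  have hC := Sml.sum univ fun (m : Fin N) _ =>
    r1_term (fun y : Fam N M r => y.2.1.c i m) (hq m) 2 0 (by norm_num) le_rfl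
  exact ((hA.neg.add hB).add hC).congr fun y s hs z _ => r1_id hs.1 y.2.1.a0 (q y) i z

end Vale.Agent.P267J
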