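import Vale.Agent.P267J.R1
import Vale.Agent.P267J.A

/-! The residual without cut-off. app is linear on smooth sections (pd of finite sums, Wq_smooth). Ut + app Us = sum over k < 5 of s ^ k (app_Wq term for pk k) + sum over k of s ^ k / s ^ 2 Wq (Tk k (pk k)) + sum over k < 5, l < 4 of s ^ (k + l + 1) / s ^ 2 Wq (Ml l (pk k)). By Tk_zero and Tk_pk (k = 1..4) the terms with k + l + 1 ≤ 4 cancel (sum_range_succ, Wq_add, Wq_neg, ring); the others have k + l + 1 ≥ 5 and are Sml 3 (bd_Ml, bd_pk, sml_wq, Sml.pow, Sml.mono). -/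

open MeasureTheory Filter Topology Metric Finset
open scoped ContDiff ComplexConjugate

noncomputable section

namespace Vale.Agent.P267J

variable {N : ℕ} {M r s : ℝ} {Y : Type} {χ : V → ℂ} {o : Op N} {ξ : Fin N → ℂ}

theorem r2_smooth {f : V → ℂ} (hf : ContDiff ℝ ∞ f) (j : Fin 4) : ContDiff ℝ ∞ (pd j f) :=
  (hf.fderiv_right (m := ∞) le_rfl).clm_apply contDiff_const

theorem r2_pd {I : Type} (t : Finset I) (c : I → ℂ) {f : I → V → ℂ}
    (hf : ∀ k, ContDiff ℝ ∞ (f k)) (j : Fin 4) :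
    pd j (fun z => ∑ k ∈ t, c k * f k z) = fun z => ∑ k ∈ t, c k * pd j (f k) z := by
  funext z
  have h := HasFDerivAt.fun_sum (u := t) fun k _ =>
    ((hf k).differentiable (by simp) z).hasFDerivAt.const_mul (c k)
  rw [pd, h.fderiv]
  simp [pd]

theorem r2_sw1 {I A : Type} [Fintype A] (t : Finset I) (c : I → ℂ) (a : A → ℂ) (x : I → A → ℂ) :
    ∑ j, a j * ∑ k ∈ t, c k * x k j = ∑ k ∈ t, c k * ∑ j, a j * x k j := by
  simp only [mul_sum]
  rw [sum_comm]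
  exact sum_congr rfl fun _ _ => sum_congr rfl fun _ _ => by ring

theorem r2_sw2 {I A B : Type} [Fintype A] [Fintype B] (t : Finset I) (c : I → ℂ) (a : A → B → ℂ)
    (x : I → A → B → ℂ) : ∑ j, ∑ l, a j l * ∑ k ∈ t, c k * x k j l =
      ∑ k ∈ t, c k * ∑ j, ∑ l, a j l * x k j l := by
  simp only [r2_sw1]
  rw [sum_comm]
  exact sum_congr rfl fun _ _ => (mul_sum _ _ _).symm

theorem app_sum (o : Op N) {I : Type} (t : Finset I) (c : I → ℂ) {v : I → Fin N → V → ℂ}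
    (hv : ∀ k m, ContDiff ℝ ∞ (v k m)) (i : Fin N) (z : V) :
    o.app (fun m z => ∑ k ∈ t, c k * v k m z) i z = ∑ k ∈ t, c k * o.app (v k) i z := by
  have h1 : ∀ m j, pd j (fun z => ∑ k ∈ t, c k * v k m z) =
      fun z => ∑ k ∈ t, c k * pd j (v k m) z := fun m j => r2_pd t c (fun k => hv k m) j
  have h2 : ∀ j l, pd j (fun z => ∑ k ∈ t, c k * pd l (v k i) z) =
      fun z => ∑ k ∈ t, c k * pd j (pd l (v k i)) z :=
    fun j l => r2_pd t c (fun k => r2_smooth (hv k i) l) j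
  simp only [Op.app, h1, h2]
  rw [r2_sw2, r2_sw2, r2_sw1]
  simp only [mul_add, mul_neg, sum_add_distrib, sum_neg_distrib]

theorem r2_alg {s : ℂ} (hs : s ≠ 0) (A D T : ℕ → ℂ) (m : ℕ → ℕ → ℂ) (h0 : T 0 = 0)
    (hT : ∀ k, T (k + 1) = -∑ l ∈ range (k + 1), m l (k - l)) :
    ∑ k ∈ range 5, s ^ k / s ^ 2 * (T k + D k) + ∑ k ∈ range 5, s ^ k * A k =
      ∑ k ∈ range 5, s ^ k * (A k + (s ^ 2)⁻¹ * D k - ∑ l ∈ range 4, s ^ (l + 1) / s ^ 2 * m l k) +
        ∑ k ∈ range 5, ∑ l ∈ range 4, if 4 ≤ k + l then s ^ (k + l - 1) * m l k else 0 := by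
  have h1 : T 1 = -m 0 0 := by simpa using hT 0
  have h2 : T 2 = -(m 0 1 + m 1 0) := by simpa [sum_range_succ] using hT 1
  have h3 : T 3 = -(m 0 2 + m 1 1 + m 2 0) := by simpa [sum_range_succ] using hT 2
  have h4 : T 4 = -(m 0 3 + m 1 2 + m 2 1 + m 3 0) := by simpa [sum_range_succ] using hT 3
  simp only [sum_range_succ, sum_range_zero, h0, h1, h2, h3, h4]
  norm_num
  field_simp
  ring

theorem res_sml (hr : 0 < r) (i : Fin N) : Sml r 3 fun (y : Fam N M r) s z =>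
    Ut y.1.1 y.1.2 s i z + y.1.1.app (Us y.1.1 y.1.2 s) i z := by
  have h1 := Sml.sum (r := r) (n := 3) (range 5) fun k hk =>
    ((app_Wq (N := N) (M := M) hr (q := fun y => pk y.1.1 y.1.2 k)
      (fun i => bd_pk hr (by have := mem_range.1 hk; omega) i) i).pow k).mono (Nat.le_add_right 3 k)
  have h2 : Sml r 3 fun (y : Fam N M r) s z => ∑ k ∈ range 5, ∑ l ∈ range 4,
      if 4 ≤ k + l then (s : ℂ) ^ (k + l - 1) * Wq s (Ml y.1.1 l (pk y.1.1 y.1.2 k) i) z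
        else 0 := by
    refine Sml.sum _ fun k hk => Sml.sum _ fun l hl => ?_
    have hk := mem_range.1 hk
    have hl := mem_range.1 hl
    by_cases h : 4 ≤ k + l
    · simp only [if_pos h]
      exact ((sml_wq (bd_Ml hr (by omega) (q := fun y => pk y.1.1 y.1.2 k)
        (fun i => bd_pk hr (by omega) i) i)).pow (k + l - 1)).mono (by omega)
    · simp only [if_neg h]
      refine ⟨0, 0, le_rfl, fun _ _ _ _ _ => ?_⟩
      simp
  refine (h1.add h2).congr fun y s hs z _ => ?_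
  have e : y.1.1.app (Us y.1.1 y.1.2 s) i z =
      ∑ k ∈ range 5, (s : ℂ) ^ k * y.1.1.app (fun m => Wq s (pk y.1.1 y.1.2 k m)) i z :=
    app_sum y.1.1 (range 5) (fun k => (s : ℂ) ^ k) (v := fun k m => Wq s (pk y.1.1 y.1.2 k m))
      (fun _ _ => Wq_smooth _ _) i z
  rw [e]
  simp only [Ut, Wq_add]
  refine r2_alg (Complex.ofReal_ne_zero.2 hs.1.ne') _ _
    (fun k => Wq s (Tk k (pk y.1.1 y.1.2 k i)) z)
    (fun l k => Wq s (Ml y.1.1 l (pk y.1.1 y.1.2 k) i) z) ?_ fun k => ?_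
  · rw [pk, Tk_zero]
    simp [Wq]
  · rw [Tk_pk, Wq_neg, Wq_sum]

end Vale.Agent.P267J
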