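import Vale.Agent.P267J.G

/-! A calculus of small terms: `Sml n F` says that F y s z is O (s ^ n wt d s z) on the ball, uniformly. All proofs: wt_mono, wt_nonneg, wt_mul, s ≤ 1. -/

open MeasureTheory Filter Topology Metric Finset
open scoped ContDiff ComplexConjugate

noncomputable section

namespace Vale.Agent.P267J

variable {N : ℕ} {M r s : ℝ} {Y : Type} {χ : V → ℂ} {o : Op N} {ξ : Fin N → ℂ}

/-- Uniformly small terms. -/
def Sml (r : ℝ) (n : ℕ) (F : Y → ℝ → V → ℂ) : Prop :=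
  ∃ (C : ℝ) (d : ℕ), 0 ≤ C ∧ ∀ y, ∀ s ∈ Set.Ioc (0 : ℝ) 1, ∀ z ∈ ball (0 : V) r,
    ‖F y s z‖ ≤ C * s ^ n * wt d s z

variable {n : ℕ} {F G : Y → ℝ → V → ℂ}

theorem Sml.congr (h : Sml r n F)
    (e : ∀ y, ∀ s ∈ Set.Ioc (0 : ℝ) 1, ∀ z ∈ ball (0 : V) r, G y s z = F y s z) : Sml r n G := by
  obtain ⟨C, d, h0, h⟩ := h
  exact ⟨C, d, h0, fun y s hs z hz => by rw [e y s hs z hz]; exact h y s hs z hz⟩

theorem Sml.add (h : Sml r n F) (h' : Sml r n G) : Sml r n fun y s z => F y s z + G y s z := by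
  obtain ⟨C, d, h0, h⟩ := h
  obtain ⟨C', d', h0', h'⟩ := h'
  refine ⟨C + C', max d d', add_nonneg h0 h0', fun y s hs z hz => (norm_add_le _ _).trans ?_⟩
  have p := (pow_pos hs.1 n).le
  have a := (h y s hs z hz).trans (mul_le_mul_of_nonneg_left
    (wt_mono hs.1 (le_max_left d d') z) (mul_nonneg h0 p))
  have b := (h' y s hs z hz).trans (mul_le_mul_of_nonneg_left
    (wt_mono hs.1 (le_max_right d d') z) (mul_nonneg h0' p))
  rw [add_mul, add_mul]
  exact add_le_add a b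

theorem Sml.neg (h : Sml r n F) : Sml r n fun y s z => -F y s z := by
  obtain ⟨C, d, h0, h⟩ := h
  exact ⟨C, d, h0, fun y s hs z hz => by rw [norm_neg]; exact h y s hs z hz⟩

theorem Sml.sum {I : Type} (t : Finset I) {F : I → Y → ℝ → V → ℂ} (h : ∀ i ∈ t, Sml r n (F i)) :
    Sml r n fun y s z => ∑ i ∈ t, F i y s z := by
  classical
  induction t using Finset.induction_on with
  | empty => exact ⟨0, 0, le_rfl, fun y s hs z hz => by simp⟩
  | insert a t ha ih =>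
    exact ((h a (mem_insert_self _ _)).add (ih fun i hi => h i (mem_insert_of_mem hi))).congr
      fun y s _ z _ => sum_insert ha

theorem Sml.mono (h : Sml r n F) {k : ℕ} (hk : k ≤ n) : Sml r k F := by
  obtain ⟨C, d, h0, h⟩ := h
  exact ⟨C, d, h0, fun y s hs z hz => (h y s hs z hz).trans (mul_le_mul_of_nonneg_right
    (mul_le_mul_of_nonneg_left (pow_le_pow_of_le_one hs.1.le hs.2 hk) h0) (wt_nonneg hs.1 d z))⟩

theorem sml_wq {p : Y → Py} (hp : Bd p) : Sml r 0 fun y s z => Wq s (p y) z := by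
  obtain ⟨C, d, h0, h⟩ := hp.wq
  exact ⟨C, d, h0, fun y s hs z _ => by rw [pow_zero, mul_one]; exact h y s hs.1 z⟩

theorem Sml.pow (h : Sml r n F) (k : ℕ) :
    Sml r (n + k) fun y s z => (s : ℂ) ^ k * F y s z := by
  obtain ⟨C, d, h0, h⟩ := h
  refine ⟨C, d, h0, fun y s hs z hz => ?_⟩
  rw [norm_mul, norm_pow, Complex.norm_real, Real.norm_of_nonneg hs.1.le]
  refine (mul_le_mul_of_nonneg_left (h y s hs z hz) (pow_pos hs.1 k).le).trans_eq ?_
  ring

theorem Sml.div {k : ℕ} (h : Sml r (n + k) F) :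
    Sml r n fun y s z => ((s : ℂ) ^ k)⁻¹ * F y s z := by
  obtain ⟨C, d, h0, h⟩ := h
  refine ⟨C, d, h0, fun y s hs z hz => ?_⟩
  have p := pow_pos hs.1 k
  rw [norm_mul, norm_inv, norm_pow, Complex.norm_real, Real.norm_of_nonneg hs.1.le,
    inv_mul_le_iff₀ p]
  refine (h y s hs z hz).trans_eq ?_
  ring

theorem Sml.mul (h : Sml r n F) {g : Y → V → ℂ} {k : ℕ} {A : ℝ}
    (hg : ∀ y, ∀ z ∈ ball (0 : V) r, ‖g y z‖ ≤ A * ‖z‖ ^ k) :
    Sml r (n + k) fun y s z => g y z * F y s z := by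
  obtain ⟨C, d, h0, h⟩ := h
  refine ⟨|A| * C, d + k, mul_nonneg (abs_nonneg A) h0, fun y s hs z hz => ?_⟩
  have a : ‖g y z‖ ≤ |A| * ‖z‖ ^ k :=
    (hg y z hz).trans (mul_le_mul_of_nonneg_right (le_abs_self A) (by positivity))
  have p := (pow_pos hs.1 n).le
  rw [norm_mul]
  calc _ ≤ |A| * ‖z‖ ^ k * (C * s ^ n * wt d s z) :=
        mul_le_mul a (h y s hs z hz) (norm_nonneg _) (by positivity)
    _ = |A| * C * s ^ n * (‖z‖ ^ k * wt d s z) := by ring
    _ ≤ |A| * C * s ^ n * (s ^ k * wt (d + k) s z) :=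
        mul_le_mul_of_nonneg_left (wt_mul hs.1 d k z) (by positivity)
    _ = _ := by ring

end Vale.Agent.P267J
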