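import Vale.Agent.P267J.Heat

/-! Uniqueness of the expansion. -/

open MeasureTheory Filter Topology Metric Finset
open scoped ContDiff ComplexConjugate

noncomputable section

namespace Vale.Agent.P267J

variable {N : ℕ}

theorem uniq0 (n : ℕ) : ∀ (d : ℕ → ℝ) (K : ℝ),
    (∀ s ∈ Set.Ioc (0 : ℝ) 1, |∑ k ∈ range n, s ^ k * d k| ≤ K * s ^ n) → ∀ k < n, d k = 0 := by
  induction n with
  | zero => intro d K _ k hk; omega
  | succ n ih =>
    intro d K h
    have h0 : d 0 = 0 := by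
      have c1 : Continuous fun s : ℝ => |∑ k ∈ range (n + 1), s ^ k * d k| := by fun_prop
      have c2 : Continuous fun s : ℝ => K * s ^ (n + 1) := by fun_prop
      have := le_of_tendsto_of_tendsto (b := 𝓝[>] (0 : ℝ))
        ((c1.tendsto 0).mono_left nhdsWithin_le_nhds) ((c2.tendsto 0).mono_left nhdsWithin_le_nhds)
        (by filter_upwards [Ioc_mem_nhdsGT one_pos] with s hs using h s hs)
      simpa [sum_range_succ'] using this
    have h1 := ih (fun k => d (k + 1)) K fun s hs => by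
      have h2 := h s hs
      rw [sum_range_succ', h0, mul_zero, add_zero] at h2
      have e : ∑ k ∈ range n, s ^ (k + 1) * d (k + 1) = s * ∑ k ∈ range n, s ^ k * d (k + 1) := by
        rw [mul_sum]
        exact sum_congr rfl fun k _ => by ring
      rw [e, abs_mul, abs_of_pos hs.1, pow_succ', mul_left_comm] at h2
      exact le_of_mul_le_mul_left h2 hs.1
    intro k hk
    rcases k with _ | k
    · exact h0
    · exact h1 k (by omega)

theorem uniq {a b : ℕ → ℝ} {f : ℝ → ℝ} {C C' : ℝ}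
    (h : ∀ s ∈ Set.Ioc (0 : ℝ) 1, |f s - ∑ k ∈ range 5, s ^ k / s ^ 4 * a k| ≤ C * s)
    (h' : ∀ s ∈ Set.Ioc (0 : ℝ) 1, |f s - ∑ k ∈ range 5, s ^ k / s ^ 4 * b k| ≤ C' * s) :
    ∀ k < 5, a k = b k := by
  intro k hk
  refine sub_eq_zero.1 (uniq0 5 (fun k => a k - b k) (C + C') (fun s hs => ?_) k hk)
  have hs4 : 0 < s ^ 4 := pow_pos hs.1 4
  have e : ∑ k ∈ range 5, s ^ k * (a k - b k) = s ^ 4 *
      ((f s - ∑ k ∈ range 5, s ^ k / s ^ 4 * b k) - (f s - ∑ k ∈ range 5, s ^ k / s ^ 4 * a k)) := by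
    rw [sub_sub_sub_cancel_left, ← sum_sub_distrib, mul_sum]
    exact sum_congr rfl fun k _ => by have := hs.1.ne'; field_simp
  rw [e, abs_mul, abs_of_pos hs4]
  have := (abs_sub _ _).trans (add_le_add (h' s hs) (h s hs))
  calc _ ≤ s ^ 4 * (C' * s + C * s) := mul_le_mul_of_nonneg_left this hs4.le
    _ = _ := by ring

/-- Two local models of the same spectral data have the same coefficients. -/
theorem alpha_uniq {M M' r r' : ℝ} (hr : 0 < r) (hr' : 0 < r') {o o' : Op N} (ho : Bnd M r o)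
    (ho' : Bnd M' r' o') {J : Type} {lam : J → ℝ} {ψ ψ' : J → Fin N → V → ℂ}
    (h : Spec r o lam ψ) (h' : Spec r' o' lam ψ') (e : ∀ j i, ψ' j i 0 = ψ j i 0)
    {ξ : Fin N → ℂ} (hξ : ∀ i, ‖ξ i‖ ≤ 1) : ∀ k < 5, alpha o ξ k = alpha o' ξ k := by
  obtain ⟨C, hC⟩ := heat N M hr
  obtain ⟨C', hC'⟩ := heat N M' hr'
  refine uniq (f := fun s => ∑' j, Real.exp (-(2 * s ^ 2 * lam j)) *
    ‖∑ i, conj (ψ j i 0) * ξ i‖ ^ 2) (fun s hs => (hC o ho J lam ψ h ξ hξ s hs).2)
    (C' := C') fun s hs => ?_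
  simpa only [e] using (hC' o' ho' J lam ψ' h' ξ hξ s hs).2

/-- A smooth function is bounded with its derivatives on a smaller ball. -/
theorem exists_sb {r r' : ℝ} (h : r' < r) {f : V → ℂ} (hf : ContDiffOn ℝ ∞ f (ball 0 r)) :
    ∃ M, ∀ M' ≥ M, Sb M' r' f := by
  have hs : closedBall (0 : V) r' ⊆ ball 0 r := closedBall_subset_ball h
  have k1 : ∀ k : ℕ, ∃ M, ∀ z ∈ closedBall (0 : V) r', ‖iteratedFDeriv ℝ k f z‖ ≤ M := fun k => by
    refine (isCompact_closedBall 0 r').exists_bound_of_continuousOn fun z hz => ?_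
    have := (hf.contDiffAt (isOpen_ball.mem_nhds (hs hz))).continuousAt_iteratedFDeriv
      (k := k) (by exact_mod_cast le_top)
    exact this.continuousWithinAt
  choose M hM using k1
  refine ⟨∑ k ∈ range 6, |M k|, fun M' hM' => ⟨hf.mono (ball_subset_ball h.le), fun k hk z hz => ?_⟩⟩
  exact (hM k z (ball_subset_closedBall hz)).trans ((le_abs_self _).trans
    ((single_le_sum (f := fun k => |M k|) (fun _ _ => abs_nonneg _)
      (mem_range.2 (by omega))).trans hM'))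

/-- Smooth coefficients are bounded on a smaller ball. -/
theorem exists_bnd {r r' : ℝ} (h : r' < r) {o : Op N}
    (ha : ∀ j k, ContDiffOn ℝ ∞ (o.a j k) (ball 0 r))
    (hb : ∀ j i m, ContDiffOn ℝ ∞ (o.b j i m) (ball 0 r))
    (hc : ∀ i m, ContDiffOn ℝ ∞ (o.c i m) (ball 0 r)) (hρ : ContDiffOn ℝ ∞ o.ρ (ball 0 r))
    (h0 : ∀ j k, o.a j k 0 = if j = k then 1 else 0) : ∃ M, Bnd M r' o := by
  choose Ma hMa using fun p : Fin 4 × Fin 4 => exists_sb h (ha p.1 p.2)
  choose Mb hMb using fun p : Fin 4 × Fin N × Fin N => exists_sb h (hb p.1 p.2.1 p.2.2)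
  choose Mc hMc using fun p : Fin N × Fin N => exists_sb h (hc p.1 p.2)
  obtain ⟨Mr, hMr⟩ := exists_sb h hρ
  obtain ⟨A, hA⟩ := (Set.finite_range Ma).bddAbove
  obtain ⟨B, hB⟩ := (Set.finite_range Mb).bddAbove
  obtain ⟨C, hC⟩ := (Set.finite_range Mc).bddAbove
  refine ⟨max (max A B) (max C Mr), fun j k => hMa (j, k) _ ?_, fun j i m => hMb (j, i, m) _ ?_,
    fun i m => hMc (i, m) _ ?_, hMr _ ?_, h0⟩
  · exact (hA ⟨_, rfl⟩).trans ((le_max_left _ _).trans (le_max_left _ _))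
  · exact (hB ⟨_, rfl⟩).trans ((le_max_right _ _).trans (le_max_left _ _))
  · exact (hC ⟨_, rfl⟩).trans ((le_max_left _ _).trans (le_max_right _ _))
  · exact (le_max_right _ _).trans (le_max_right _ _)

/-- The spectral data restrict to a smaller ball. -/
theorem Spec.mono {r r' : ℝ} (h : r' ≤ r) {o : Op N} {J : Type} {lam : J → ℝ}
    {ψ : J → Fin N → V → ℂ} (hS : Spec r o lam ψ) : Spec r' o lam ψ := by
  have t : ∀ v : Fin N → V → ℂ, Tst r' v → Tst r v := fun v hv i =>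
    ⟨(hv i).1, (hv i).2.1, (hv i).2.2.trans (ball_subset_ball h)⟩
  exact ⟨hS.nonneg, fun j i => (hS.cont j i).mono (ball_subset_ball h),
    fun j v hv => hS.eig j v (t v hv), fun v hv => hS.pars v (t v hv)⟩

end Vale.Agent.P267J
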