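import Vale.Agent.P267J.A
import Vale.Agent.P267J.W

/-! The time derivative. d/ds Gs s z = (-4 / s + ‖z‖ ^ 2 / (2 s ^ 3)) Gs s z; d/ds ev (s⁻¹ • z) q = - s⁻¹ sum x i * ev x (pderiv i q) with x = s⁻¹ • z (ev_fderiv, chain rule); compare with Tk_dl evaluated at x. -/

open MeasureTheory Filter Topology Metric Finset
open scoped ContDiff ComplexConjugate

noncomputable section

namespace Vale.Agent.P267J

variable {N : ℕ} {M r s : ℝ} {Y : Type} {χ : V → ℂ} {o : Op N} {ξ : Fin N → ℂ}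

theorem w2_Gs (hs : 0 < s) (z : V) :
    HasDerivAt (fun s : ℝ => Gs s z) ((-4 / s + ‖z‖ ^ 2 / (2 * s ^ 3)) * Gs s z) s := by
  have h0 := Real.pi_pos
  have h1 := (((hasDerivAt_pow 2 s).const_mul (4 * Real.pi)).pow 2).inv
    (show (4 * Real.pi * s ^ 2) ^ 2 ≠ 0 by positivity)
  have h2 := ((((hasDerivAt_pow 2 s).const_mul 4).inv (by positivity)).const_mul (‖z‖ ^ 2)).neg.exp
  refine (h1.mul h2).congr_deriv ?_
  simp only [Gs, Pi.inv_apply, Pi.pow_apply, Pi.neg_apply, div_eq_mul_inv]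
  field_simp
  ring

theorem w2_ev (hs : 0 < s) (q : Py) (z : V) : HasDerivAt (fun s : ℝ => ev (s⁻¹ • z) q)
    (-(s : ℂ)⁻¹ * ∑ i, ((s⁻¹ • z : V) i : ℂ) * ev (s⁻¹ • z) (MvPolynomial.pderiv i q)) s := by
  refine (((ev_smooth q).differentiable (by simp) (s⁻¹ • z)).hasFDerivAt.comp_hasDerivAt s
    ((hasDerivAt_inv hs.ne').smul_const z)).congr_deriv ?_
  rw [ev_fderiv, mul_sum]
  refine sum_congr rfl fun i _ => ?_
  simp only [PiLp.smul_apply, smul_eq_mul]
  push_cast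
  ring

theorem w2_pow (hs : 0 < s) (k : ℕ) :
    HasDerivAt (fun s : ℝ => (s : ℂ) ^ k) (k * (s : ℂ) ^ k / s) s := by
  have h0 : (s : ℂ) ≠ 0 := Complex.ofReal_ne_zero.2 hs.ne'
  refine (hasDerivAt_pow k (s : ℂ)).comp_ofReal.congr_deriv ?_
  cases k with
  | zero => simp
  | succ k =>
    rw [Nat.add_sub_cancel, pow_succ]
    field_simp

theorem deriv_Wq (hs : 0 < s) (k : ℕ) (q : Py) (z : V) :
    HasDerivAt (fun s : ℝ => (s : ℂ) ^ k * Wq s q z)
      (2 * s * ((s : ℂ) ^ k / s ^ 2 * Wq s (Tk k q + ∑ j, dl j (dl j q)) z)) s := by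
  have h0 : (s : ℂ) ≠ 0 := Complex.ofReal_ne_zero.2 hs.ne'
  refine ((w2_pow hs k).mul ((w2_Gs hs z).ofReal_comp.mul (w2_ev hs q z))).congr_deriv ?_
  have h1 := congrArg (ev (s⁻¹ • z)) (Tk_dl k q)
  have h2 : ∑ j, ((s⁻¹ • z : V) j : ℂ) ^ 2 = (‖z‖ ^ 2 : ℝ) / (s : ℂ) ^ 2 := by
    rw [EuclideanSpace.real_norm_sq_eq]
    push_cast
    rw [sum_div]
    refine sum_congr rfl fun j _ => ?_
    simp only [PiLp.smul_apply, smul_eq_mul]
    push_cast
    field_simp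
  rw [map_mul, map_ofNat, map_sub, map_add _ (MvPolynomial.C _ * q)] at h1
  simp only [map_mul, w_C, map_sum (ev (s⁻¹ • z)), map_pow, w_X, h2] at h1
  simp only [Wq, Pi.mul_apply]
  rw [eq_div_of_mul_eq two_ne_zero ((mul_comm _ _).trans h1)]
  push_cast
  field_simp
  ring

theorem deriv_Us (hs : 0 < s) (i : Fin N) (z : V) :
    HasDerivAt (fun s : ℝ => Us o ξ s i z) (2 * s * Ut o ξ s i z) s := by
  have := HasDerivAt.fun_sum fun k (_ : k ∈ range 5) => deriv_Wq hs k (pk o ξ k i) z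
  rwa [← mul_sum] at this

theorem Wq_cont (q : Py) :
    ContinuousOn (fun p : ℝ × V => Wq p.1 q p.2) (Set.Ioi 0 ×ˢ Set.univ) := by
  have h0 := Real.pi_pos
  have h1 : ∀ p ∈ Set.Ioi (0 : ℝ) ×ˢ (Set.univ : Set V), p.1 ≠ 0 := fun p hp => ne_of_gt hp.1
  refine (Complex.continuous_ofReal.comp_continuousOn ?_).mul
    ((ev_smooth q).continuous.comp_continuousOn ((continuousOn_fst.inv₀ h1).smul continuousOn_snd))
  refine ContinuousOn.mul (ContinuousOn.inv₀ (by fun_prop) fun p hp => ?_)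
    (ContinuousOn.rexp (ContinuousOn.neg (ContinuousOn.div (by fun_prop) (by fun_prop)
      fun p hp => ?_)))
  · have := h1 p hp
    positivity
  · have := h1 p hp
    positivity

theorem Ut_cont (i : Fin N) :
    ContinuousOn (fun p : ℝ × V => Ut o ξ p.1 i p.2) (Set.Ioi 0 ×ˢ Set.univ) := by
  refine continuousOn_finsetSum _ fun k _ => ContinuousOn.mul ?_ (Wq_cont _)
  exact ContinuousOn.div (by fun_prop) (by fun_prop) fun p hp =>
    pow_ne_zero _ (Complex.ofReal_ne_zero.2 (ne_of_gt hp.1))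

end Vale.Agent.P267J
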