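import Vale.Agent.P267I.HD
import Vale.Agent.P267I.AlgS
import Vale.Agent.P267J.A
import Vale.Agent.P267J.T
import Vale.Agent.P267J.W
import Vale.Agent.P267J.G

/-! The algebra of the heat coefficients: definitions. FROZEN. -/

open scoped ContDiff Topology Matrix.Norms.L2Operator ComplexConjugate
open Filter Matrix MeasureTheory Metric Finset

noncomputable section

namespace Vale.Agent.P267J.Y

open Vale.Agent.P267I Vale.Agent.P267I.H MvPolynomial

variable {N : ℕ}

/-- Matrices of polynomials. -/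
abbrev MP (N : ℕ) := Matrix (Fin N) (Fin N) Py

/-- Conjugation of the coefficients. -/
def cj : Py →+* Py := MvPolynomial.map (starRingEnd ℂ)

/-- Real polynomials. -/
def RP (p : Py) : Prop := cj p = p

/-- Real operators. -/
def RL (L : Py →ₗ[ℂ] Py) : Prop := ∀ p, RP p → RP (L p)

/-- The derivative. -/
def dd (j : Fin 4) : Py →ₗ[ℂ] Py := (MvPolynomial.pderiv j).toLinearMap

/-- Constant matrices. -/
def cst (w : Mat N) : MP N := w.map MvPolynomial.C

/-- Polynomials with values in `W`. -/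
inductive PW (W : Submodule ℝ (Mat N)) : MP N → Prop
  | base {w : Mat N} {p : Py} (hw : w ∈ W) (hp : RP p) : PW W (p • cst w)
  | add {P Q : MP N} (hP : PW W P) (hQ : PW W Q) : PW W (P + Q)

/-- Evaluation. -/
def evM (x : V) (P : MP N) : Mat N := P.map (ev x)

/-- Taylor terms of a matrix function. -/
def tayM (F : V → Mat N) (l : ℕ) : MP N := Matrix.of fun i m => tay (fun z => F z i m) l

/-- Smooth matrix functions. -/
def SmM (F : V → Mat N) : Prop := ∀ i m, ContDiffAt ℝ ∞ (fun z => F z i m) 0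

/-- The matrix of the parametrix. -/
def PM (o : Op N) (k : ℕ) : MP N := Matrix.of fun i m => pk o (Pi.single m 1) k i

/-- Taylor terms of order one coefficients. -/
def bM (o : Op N) (j : Fin 4) (l : ℕ) : MP N := Matrix.of fun i m => tay (o.b j i m) l

/-- Taylor terms of order zero coefficients. -/
def cM (o : Op N) (l : ℕ) : MP N := Matrix.of fun i m => tay (o.c i m) l

/-- The perturbation acting on matrices. -/
def MM (o : Op N) (l : ℕ) (P : MP N) : MP N :=
  -(∑ j, ∑ k, tay (o.a j k) (l + 1) • (P.map (dl k)).map (dl j)) +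
    ∑ j, bM o j l * P.map (dl j) + if l = 0 then 0 else cM o (l - 1) * P

variable (E : Mat N) (S : Fin 4 → Fin 4 → Mat N)

/-- The linear part of the connection. -/
def aM (j : Fin 4) : MP N := ∑ k, (X k : Py) • cst (S k j)

/-- Its radial part. -/
def sg : MP N := ∑ j, (X j : Py) • aM S j

/-- The term of weight two. -/
def uM : MP N := -cst E - (C 2⁻¹ : Py) • sg S

/-- The curvature contracted with the position. -/
def fM (j : Fin 4) : MP N := ∑ k, (X k : Py) • cst (S k j - S j k)

/-- The curvature term of weight four. -/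
def vM : MP N := (C 12⁻¹ : Py) •
  (∑ j, fM S j * fM S j + cst (∑ j, ∑ k, (S k j - S j k) * (S k j - S j k)))

/-- The term of weight four. -/
def gM : MP N := (C 2⁻¹ : Py) • (uM E S * uM E S) + vM S

/-- The normal form of the Taylor terms. -/
structure NF (W g : Submodule ℝ (Mat N)) (o : Op N) : Prop where
  a : ∀ j k l, RP (tay (o.a j k) l)
  ρ0 : o.ρ 0 = 1
  b0 : ∀ j, ∃ p, RP p ∧ bM o j 0 = p • (1 : MP N)
  b1 : ∀ j, ∃ p, RP p ∧ bM o j 1 = p • (1 : MP N) - (2 : Py) • aM S j
  bW : ∀ j l, PW W (bM o j l)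
  c0 : cM o 0 = cst (E - ∑ j, S j j)
  c1 : PW W (cM o 1)
  c2 : PW W (cM o 2 + ∑ j, aM S j * aM S j)
  EW : E ∈ W
  Est : Eᴴ = E
  Sg : ∀ j k, S j k ∈ g

/-- The solution of the recursion. -/
structure RC (W : Submodule ℝ (Mat N)) (o : Op N) : Prop where
  p0 : PM o 0 = 1
  p1 : ∃ p, RP p ∧ PM o 1 = p • (1 : MP N)
  p2 : ∃ p, RP p ∧ PM o 2 = p • (1 : MP N) + uM E S
  p3 : PW W (PM o 3)
  p4 : PW W (PM o 4 - gM E S)

/-- The supertrace of weight `n`. -/
def tq (τ : Mat N → ℝ) (o : Op N) (n : ℕ) (x : V) : ℝ :=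
  ∑ q ∈ antidiagonal n, τ ((evM x (PM o q.1))ᴴ * evM x (PM o q.2))

end Vale.Agent.P267J.Y
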