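import Vale.Agent.P267J.YP

/-! Linearity in the initial vector: strong induction on k, unfolding pk; Ml o l is linear: Ml o l (fun i => sum_m C (ξ m) * P i m) i = sum_m C (ξ m) * MM o l P i m (C a * p = a • p, map_smul, map_sum). Tk_PM from Tk_pk. -/

open scoped ContDiff Topology Matrix.Norms.L2Operator ComplexConjugate
open Filter Matrix MeasureTheory Metric Finset

noncomputable section

namespace Vale.Agent.P267J.Y

open Vale.Agent.P267I Vale.Agent.P267I.H MvPolynomial

variable {N : ℕ} {W g : Submodule ℝ (Mat N)} {τ : Mat N →L[ℝ] ℝ} {o : Op N} {E : Mat N}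
  {S : Fin 4 → Fin 4 → Mat N} {p q : Py} {P Q : MP N} {f f' : V → ℂ} {F F' : V → Mat N}

theorem MM_apply (o : Op N) (l : ℕ) (P : MP N) (i m : Fin N) :
    MM o l P i m = Ml o l (fun i' => P i' m) i := by
  unfold MM Ml
  by_cases h : l = 0 <;>
    simp only [h, if_true, if_false, Matrix.add_apply, Matrix.neg_apply, Matrix.sum_apply,
      Matrix.smul_apply, Matrix.map_apply, Matrix.mul_apply, Matrix.zero_apply, smul_eq_mul, bM, cM,
      Matrix.of_apply]

theorem yl_add (o : Op N) (l : ℕ) (u v : Fin N → Py) (i : Fin N) :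
    Ml o l (u + v) i = Ml o l u i + Ml o l v i := by
  unfold Ml
  by_cases h : l = 0 <;>
    simp only [h, if_true, if_false, Pi.add_apply, map_add, mul_add, sum_add_distrib] <;> ring

theorem yl_smul (o : Op N) (l : ℕ) (c : ℂ) (u : Fin N → Py) (i : Fin N) :
    Ml o l (c • u) i = c • Ml o l u i := by
  unfold Ml
  by_cases h : l = 0 <;>
    simp only [h, if_true, if_false, Pi.smul_apply, map_smul, mul_smul_comm, smul_add, smul_neg,
      smul_sum, smul_zero]

/-- The perturbation as a linear map. -/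
def yl_L (o : Op N) (l : ℕ) (i : Fin N) : (Fin N → Py) →ₗ[ℂ] Py where
  toFun u := Ml o l u i
  map_add' u v := yl_add o l u v i
  map_smul' c u := yl_smul o l c u i

theorem PM_zero (o : Op N) : PM o 0 = 1 := by
  ext1 i m
  rw [PM, Matrix.of_apply, pk, Matrix.one_apply]
  beta_reduce
  rw [Pi.single_apply]
  split_ifs <;> simp

theorem Tk_PM (o : Op N) (k : ℕ) :
    (PM o (k + 1)).map (Tk (k + 1)) = -∑ l ∈ range (k + 1), MM o l (PM o (k - l)) := by
  ext1 i m
  rw [Matrix.map_apply, Matrix.neg_apply, Matrix.sum_apply]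
  simp only [MM_apply, PM, Matrix.of_apply]
  rw [Tk_pk]

theorem MM_add (o : Op N) (l : ℕ) (P Q : MP N) : MM o l (P + Q) = MM o l P + MM o l Q := by
  ext1 i m
  rw [Matrix.add_apply, MM_apply, MM_apply, MM_apply, ← yl_add]
  rfl

theorem pk_lin (o : Op N) (ξ : Fin N → ℂ) (k : ℕ) (i : Fin N) :
    pk o ξ k i = ∑ m, ξ m • PM o k i m := by
  induction k using Nat.strong_induction_on generalizing i with
  | _ k ih =>
    cases k with
    | zero =>
      rw [PM_zero, pk, sum_eq_single i (fun m _ h => by rw [Matrix.one_apply_ne h.symm, smul_zero])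
        (fun h => absurd (mem_univ i) h), Matrix.one_apply_eq]
      exact C_eq_smul_one
    | succ k =>
      have e : ∀ l : Fin (k + 1), Ml o l (pk o ξ (k - l)) i =
          ∑ m, ξ m • Ml o l (pk o (Pi.single m 1) (k - l)) i := fun l => by
        have e1 : pk o ξ (k - l) = ∑ m, ξ m • pk o (Pi.single m 1) (k - l) := by
          funext i'
          rw [ih _ (by omega), Finset.sum_apply]
          rfl
        rw [e1]
        exact (map_sum (yl_L o l i) _ _).trans
          (sum_congr rfl fun m _ => map_smul (yl_L o l i) _ _)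
      have e2 : ∀ m, PM o (k + 1) i m =
          Ti (k + 1) (-∑ l : Fin (k + 1), Ml o l (pk o (Pi.single m 1) (k - l)) i) := fun m => by
        rw [PM, Matrix.of_apply, pk]
      rw [pk]
      simp only [e, e2, ← map_smul, ← map_sum, smul_neg, smul_sum, sum_neg_distrib]
      rw [sum_comm]

theorem ev_pk (o : Op N) (ξ : Fin N → ℂ) (k : ℕ) (x : V) (i : Fin N) :
    ev x (pk o ξ k i) = (evM x (PM o k) *ᵥ ξ) i := by
  rw [pk_lin, map_sum]
  simp only [mulVec, dotProduct, evM, Matrix.map_apply, smul_eq_C_mul, map_mul]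
  refine sum_congr rfl fun m _ => ?_
  rw [mul_comm, ev, eval_C]

end Vale.Agent.P267J.Y
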