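import Vale.Agent.P267J.YP

/-! Model computations. tk_mul from a_app (Derivation.leibniz); Tk_mul entrywise (mul_apply, map_sum). Tk k (X j) = ((k + 1) / 2) X j and Tk k 1 = k / 2 (a_hom), Tk 2 (X j * X k) by tk_mul; map_cst; (P + Q).map L = P.map L + Q.map L (Matrix.map_add), same for sums; sg S = sum_jk (X j * X k) • cst (S k j). -/

open scoped ContDiff Topology Matrix.Norms.L2Operator ComplexConjugate
open Filter Matrix MeasureTheory Metric Finset

noncomputable section

namespace Vale.Agent.P267J.Y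

open Vale.Agent.P267I Vale.Agent.P267I.H MvPolynomial

variable {N : ℕ} {W g : Submodule ℝ (Mat N)} {τ : Mat N →L[ℝ] ℝ} {o : Op N} {E : Mat N}
  {S : Fin 4 → Fin 4 → Mat N} {p q : Py} {P Q : MP N} {f f' : V → ℂ} {F F' : V → Mat N}

theorem ym_app (j : Fin 4) (p : Py) : dd j p = pderiv j p := rfl

theorem tk_mul (k l : ℕ) (p q : Py) :
    Tk (k + l) (p * q) = Tk k p * q + p * Tk l q - 2 * ∑ j, dd j p * dd j q := by
  simp only [a_app, a_lap, ym_app, pderiv_mul, map_add, Fin.sum_univ_four, smul_eq_C_mul,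
    Nat.cast_add, add_div]
  ring

theorem Tk_mul (k l : ℕ) (P Q : MP N) : (P * Q).map (Tk (k + l)) =
    P.map (Tk k) * Q + P * Q.map (Tk l) - (2 : Py) • ∑ j, P.map (dd j) * Q.map (dd j) := by
  refine Matrix.ext fun i m => ?_
  simp only [Matrix.map_apply, Matrix.mul_apply, Matrix.sub_apply, Matrix.add_apply,
    Matrix.smul_apply, Matrix.sum_apply, map_sum, tk_mul, smul_eq_mul, sum_sub_distrib,
    sum_add_distrib, ← mul_sum]
  rw [sum_comm]

theorem map_add' (L : Py →ₗ[ℂ] Py) (P Q : MP N) : (P + Q).map L = P.map L + Q.map L :=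
  Matrix.ext fun i m => map_add L (P i m) (Q i m)

theorem map_sub' (L : Py →ₗ[ℂ] Py) (P Q : MP N) : (P - Q).map L = P.map L - Q.map L :=
  Matrix.ext fun i m => map_sub L (P i m) (Q i m)

theorem map_C' (L : Py →ₗ[ℂ] Py) (a : ℂ) (P : MP N) :
    ((C a : Py) • P).map L = (C a : Py) • P.map L := by
  refine Matrix.ext fun i m => ?_
  simp only [Matrix.map_apply, Matrix.smul_apply, smul_eq_mul, C_mul', map_smul]

theorem map_sum' (L : Py →ₗ[ℂ] Py) {I : Type} (t : Finset I) (P : I → MP N) :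
    (∑ i ∈ t, P i).map L = ∑ i ∈ t, (P i).map L := by
  refine Matrix.ext fun i m => ?_
  simp only [Matrix.map_apply, Matrix.sum_apply, map_sum]

theorem dl_map (j : Fin 4) (P : MP N) :
    P.map (dl j) = P.map (dd j) - (C 2⁻¹ * X j : Py) • P :=
  Matrix.ext fun _ _ => rfl

theorem ym_neg (L : Py →ₗ[ℂ] Py) (P : MP N) : (-P).map L = -P.map L :=
  Matrix.ext fun i m => map_neg L (P i m)

theorem ym_cst (L : Py →ₗ[ℂ] Py) (w : Mat N) : (cst w).map L = L 1 • cst w := by
  rw [← map_cst, one_smul]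

theorem ym_dd (i k : Fin 4) : dd i (X k) = if k = i then 1 else 0 := by
  rw [ym_app, pderiv_X, Pi.single_apply]

theorem ym_X (k : ℕ) (j : Fin 4) : Tk k (X j) = C (((k : ℂ) + 1) / 2) * X j := by
  have h : a_lap (X j) = 0 := sum_eq_zero fun i _ => by
    rw [← ym_app i (X j), ym_dd]
    split_ifs <;> simp
  rw [a_hom k (isHomogeneous_X ℂ j), h, sub_zero, C_mul', Nat.cast_one]

theorem ym_one (k : ℕ) : Tk k 1 = C ((k : ℂ) / 2) := by
  rw [a_app]
  simp [a_lap, smul_eq_C_mul]

theorem ym_XX (j k : Fin 4) : Tk 2 (X j * X k) = 2 * (X j * X k) - if j = k then 2 else 0 := by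
  rw [tk_mul 1 1, ym_X, ym_X]
  simp only [ym_dd, mul_ite, mul_one, mul_zero, sum_ite_eq, mem_univ, if_true, Nat.cast_one,
    add_self_div_two, C_1, one_mul, two_mul (X j * X k : Py)]

theorem ym_sg (S : Fin 4 → Fin 4 → Mat N) :
    sg S = ∑ j, ∑ k, (X j * X k : Py) • cst (S k j) := by
  simp only [sg, aM, smul_sum, smul_smul]

theorem ym_half : (C 2⁻¹ : Py) * 2 = 1 := by
  rw [← map_ofNat C 2, ← C_mul]
  simp

theorem Tk_u (E : Mat N) (S : Fin 4 → Fin 4 → Mat N) :
    (uM E S).map (Tk 2) = -(sg S + cst (E - ∑ j, S j j)) := by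
  have h : (sg S).map (Tk 2) = (2 : Py) • (sg S - ∑ j, cst (S j j)) := by
    simp only [ym_sg, map_sum', map_cst, ym_XX, sub_smul, sum_sub_distrib, ite_smul, zero_smul,
      sum_ite_eq, mem_univ, if_true, smul_sub, smul_sum, smul_smul]
  rw [uM, map_sub', ym_neg, ym_cst, ym_one, map_C', h, smul_smul, ym_half, cst_sub, cst_sum,
    Nat.cast_ofNat, div_self two_ne_zero, C_1, one_smul, one_smul]
  abel

theorem dd_u (E : Mat N) (S : Fin 4 → Fin 4 → Mat N) (j : Fin 4) :
    (uM E S).map (dd j) = -((C 2⁻¹ : Py) • (aM S j + aM (fun a b => S b a) j)) := by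
  have e : ∀ a k : Fin 4, dd j (X a * X k) =
      (if a = j then X k else 0) + if k = j then X a else 0 := fun a k => by
    rw [ym_app, pderiv_mul, ← ym_app, ← ym_app, ym_dd, ym_dd]
    simp only [ite_mul, mul_ite, one_mul, mul_one, zero_mul, mul_zero]
  have h : (sg S).map (dd j) = aM S j + aM (fun a b => S b a) j := by
    simp only [ym_sg, map_sum', map_cst, e, add_smul, sum_add_distrib, ite_smul, zero_smul,
      sum_ite_eq', mem_univ, if_true, sum_ite_irrel, sum_const_zero, aM]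
  rw [uM, map_sub', ym_neg, ym_cst, map_C', h, ym_app, pderiv_one, zero_smul, neg_zero, zero_sub]

theorem Tk_v (S : Fin 4 → Fin 4 → Mat N) :
    (vM S).map (Tk 4) = (C 4⁻¹ : Py) • ∑ j, fM S j * fM S j := by
  have h1 : ∀ j, (fM S j).map (Tk 2) = (C (3 / 2) : Py) • fM S j := fun j => by
    simp only [fM, map_sum', map_cst, ym_X, smul_sum, smul_smul]
    norm_num
  have h2 : ∀ i j, (fM S j).map (dd i) = cst (S i j - S j i) := fun i j => by
    simp only [fM, map_sum', map_cst, ym_dd, ite_smul, one_smul, zero_smul, sum_ite_eq', mem_univ,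
      if_true]
  have h3 : ∀ j, (fM S j * fM S j).map (Tk 4) = (C 3 : Py) • (fM S j * fM S j) -
      (2 : Py) • ∑ i, cst ((S i j - S j i) * (S i j - S j i)) := fun j => by
    rw [Tk_mul 2 2, h1, smul_mul_assoc, mul_smul_comm, ← add_smul, ← C_add]
    simp only [h2, cst_mul]
    norm_num
  have h4 : (C (((4 : ℕ) : ℂ) / 2) : Py) = 2 := by
    rw [← map_ofNat C 2]
    norm_num
  rw [vM, map_C', map_add', map_sum', ym_cst, ym_one, h4, cst_sum]
  simp only [h3, sum_sub_distrib, cst_sum, ← smul_sum]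
  rw [sub_add_cancel, smul_smul, ← C_mul]
  norm_num

end Vale.Agent.P267J.Y
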