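import Vale.Agent.P267J.YM
import Vale.Agent.P267J.YL

/-! The perturbation in normal form: unfold MM; map_one', PW.map, rl_dl, PW.smul, smul_mul_assoc, one_mul, mul_smul_comm, mul_one; dl j 1 = - C 2⁻¹ * X j. -/

open scoped ContDiff Topology Matrix.Norms.L2Operator ComplexConjugate
open Filter Matrix MeasureTheory Metric Finset

noncomputable section

namespace Vale.Agent.P267J.Y

open Vale.Agent.P267I Vale.Agent.P267I.H MvPolynomial

variable {N : ℕ} {W g : Submodule ℝ (Mat N)} {τ : Mat N →L[ℝ] ℝ} {o : Op N} {E : Mat N}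
  {S : Fin 4 → Fin 4 → Mat N} {p q : Py} {P Q : MP N} {f f' : V → ℂ} {F F' : V → Mat N}

theorem yn_a (h : NF E S W g o) (hP : PW W P) (l : ℕ) :
    PW W (-(∑ j, ∑ k, tay (o.a j k) l • (P.map (dl k)).map (dl j))) :=
  (PW.sum _ fun j _ => PW.sum _ fun k _ =>
    ((hP.map (rl_dl k)).map (rl_dl j)).smul (h.a j k l)).neg

theorem yn_sc (o : Op N) (p : Py) (l : ℕ) :
    ∑ j, ∑ k, tay (o.a j k) l • ((p • (1 : MP N)).map (dl k)).map (dl j) =
      (∑ j, ∑ k, tay (o.a j k) l * dl j (dl k p)) • (1 : MP N) := by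
  simp only [map_one', smul_smul, Finset.sum_smul]

theorem yn_rp (h : NF E S W g o) (hp : RP p) (l : ℕ) :
    RP (∑ j, ∑ k, tay (o.a j k) l * dl j (dl k p)) :=
  RP.sum _ fun j _ => RP.sum _ fun k _ => (h.a j k l).mul (rl_dl j _ (rl_dl k _ hp))

theorem yn_b (h : NF E S W g o) (hp : RP p) (l : ℕ) :
    PW W (∑ j, bM o j l * (p • (1 : MP N)).map (dl j)) := by
  refine PW.sum _ fun j _ => ?_
  rw [map_one', mul_smul_comm, mul_one]
  exact (h.bW j l).smul (rl_dl j _ hp)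

theorem yn_dl (j : Fin 4) : (2 : Py) * dl j 1 = -X j := by
  have h1 : (2 : Py) * C 2⁻¹ = 1 := by
    rw [show (2 : Py) = C 2 from rfl, ← C_mul, mul_inv_cancel₀ two_ne_zero, C_1]
  have h2 : dl j 1 = -(C 2⁻¹ * X j) := by simp [dl]
  rw [h2, mul_neg, ← mul_assoc, h1, one_mul]

theorem mm0_sc (hA : K.Alg τ W g) (h : NF E S W g o) (hp : RP p) :
    ∃ q, RP q ∧ MM o 0 (p • 1) = q • (1 : MP N) := by
  have _ := hA
  choose b hb hb' using h.b0
  refine ⟨-(∑ j, ∑ k, tay (o.a j k) 1 * dl j (dl k p)) + ∑ j, b j * dl j p,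
    (yn_rp h hp 1).neg.add (RP.sum _ fun j _ => (hb j).mul (rl_dl j _ hp)), ?_⟩
  rw [MM, yn_sc, if_pos rfl, add_zero, add_smul, neg_smul, Finset.sum_smul]
  simp only [hb', map_one', smul_mul_assoc, one_mul, smul_smul, zero_add, Finset.sum_smul]

theorem mm0_pw (hA : K.Alg τ W g) (h : NF E S W g o) (hP : PW W P) : PW W (MM o 0 P) := by
  have _ := hA
  choose b hb hb' using h.b0
  rw [MM, if_pos rfl, add_zero]
  refine (yn_a h hP _).add (PW.sum _ fun j _ => ?_)
  rw [hb', smul_mul_assoc, one_mul]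
  exact (hP.map (rl_dl j)).smul (hb j)

theorem mm_sc (hA : K.Alg τ W g) (h : NF E S W g o) (hp : RP p) {l : ℕ} (hl : l ≤ 2) : PW W (MM o l (p • 1)) := by
  rw [MM]
  refine ((yn_a h (pw_one hA.one hp) _).add (yn_b h hp l)).add ?_
  rw [mul_smul_comm, mul_one]
  interval_cases l
  · exact pw_zero
  · rw [if_neg (by decide), h.c0]
    exact (pw_cst (W.sub_mem h.EW (W.sum_mem fun j _ => hA.le (h.Sg j j)))).smul hp
  · rw [if_neg (by decide)]
    exact h.c1.smul hp

theorem mm1_one (hA : K.Alg τ W g) (h : NF E S W g o) :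
    ∃ q, RP q ∧ MM o 1 1 = q • (1 : MP N) + (sg S + cst (E - ∑ j, S j j)) := by
  have _ := hA
  choose b hb hb' using h.b1
  refine ⟨-(∑ j, ∑ k, tay (o.a j k) 2 * dl j (dl k 1)) + ∑ j, b j * dl j 1,
    (yn_rp h rp_one 2).neg.add (RP.sum _ fun j _ => (hb j).mul (rl_dl j _ rp_one)), ?_⟩
  have h1 : ∀ j, bM o j 1 * ((1 : Py) • (1 : MP N)).map (dl j) =
      (b j * dl j 1) • (1 : MP N) + (X j : Py) • aM S j := fun j => by
    rw [hb', map_one', mul_smul_comm, mul_one, smul_sub, smul_smul, smul_smul,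
      mul_comm (dl j 1) 2, yn_dl, neg_smul, sub_neg_eq_add, mul_comm]
  conv_lhs => rw [← one_smul Py (1 : MP N)]
  rw [MM, yn_sc, if_neg (by decide), h.c0, add_smul, neg_smul, one_smul, mul_one]
  rw [one_smul] at h1
  simp only [h1, Finset.sum_add_distrib, sg, Finset.sum_smul, add_assoc]

theorem mm3_one (hA : K.Alg τ W g) (h : NF E S W g o) : PW W (MM o 3 1 + ∑ j, aM S j * aM S j) := by
  have h1 := (yn_a h (pw_one hA.one rp_one) 4).add (yn_b h rp_one 3)
  rw [one_smul] at h1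
  rw [MM, if_neg (by decide), mul_one, add_assoc]
  exact h1.add h.c2

theorem mm1_pw (hA : K.Alg τ W g) (h : NF E S W g o) (hP : PW W P) :
    PW W (MM o 1 P + (2 : Py) • ∑ j, aM S j * P.map (dl j) - cst (E - ∑ j, S j j) * P) := by
  have _ := hA
  choose b hb hb' using h.b1
  have h1 : MM o 1 P + (2 : Py) • ∑ j, aM S j * P.map (dl j) - cst (E - ∑ j, S j j) * P =
      -(∑ j, ∑ k, tay (o.a j k) 2 • (P.map (dl k)).map (dl j)) + ∑ j, b j • P.map (dl j) := by
    rw [MM, if_neg (by decide), h.c0]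
    simp only [hb', sub_mul, smul_mul_assoc, one_mul, Finset.sum_sub_distrib, Finset.smul_sum]
    abel
  rw [h1]
  exact (yn_a h hP 2).add (PW.sum _ fun j _ => (hP.map (rl_dl j)).smul (hb j))

end Vale.Agent.P267J.Y
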