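import Vale.Agent.P267J.YR

/-! W-valued polynomials: induction on PW. (p • cst w).map L = L p • cst w (entries p * C a = a • p); evM x (p • cst w) = (ev x p).re • w; (p • cst a) * (q • cst b) = (p * q) • cst (a * b). -/

open scoped ContDiff Topology Matrix.Norms.L2Operator ComplexConjugate
open Filter Matrix MeasureTheory Metric Finset

noncomputable section

namespace Vale.Agent.P267J.Y

open Vale.Agent.P267I Vale.Agent.P267I.H MvPolynomial

variable {N : ℕ} {W g : Submodule ℝ (Mat N)} {τ : Mat N →L[ℝ] ℝ} {o : Op N} {E : Mat N}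
  {S : Fin 4 → Fin 4 → Mat N} {p q : Py} {P Q : MP N} {f f' : V → ℂ} {F F' : V → Mat N}

theorem cst_add (a b : Mat N) : cst (a + b) = cst a + cst b := by
  ext i j : 2
  simp [cst]

theorem cst_sub (a b : Mat N) : cst (a - b) = cst a - cst b := by
  ext i j : 2
  simp [cst]

theorem cst_mul (a b : Mat N) : cst (a * b) = cst a * cst b := by
  exact Matrix.map_mul

theorem cst_one : cst (1 : Mat N) = 1 := by
  exact Matrix.map_one _ (map_zero _) (map_one _)

theorem cst_sum {I : Type} (t : Finset I) (a : I → Mat N) : cst (∑ i ∈ t, a i) = ∑ i ∈ t, cst (a i) := by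
  ext i j : 2
  simp [cst, Matrix.sum_apply]

theorem map_cst (L : Py →ₗ[ℂ] Py) (p : Py) (w : Mat N) : (p • cst w).map L = L p • cst w := by
  ext i j : 2
  simp only [cst, Matrix.map_apply, Matrix.smul_apply, smul_eq_mul, mul_comm _ (C _),
    ← smul_eq_C_mul, map_smul]

theorem map_one' (L : Py →ₗ[ℂ] Py) (p : Py) : (p • (1 : MP N)).map L = L p • (1 : MP N) := by
  rw [← cst_one, map_cst]

theorem pw_zero : PW W 0 := by
  simpa using PW.base (W := W) W.zero_mem rp_zero

theorem pw_cst {w : Mat N} (hw : w ∈ W) : PW W (cst w) := by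
  simpa using PW.base hw rp_one

theorem pw_one (h1 : (1 : Mat N) ∈ W) (hp : RP p) : PW W (p • (1 : MP N)) := by
  exact cst_one (N := N) ▸ PW.base h1 hp

theorem PW.smul (hP : PW W P) (hp : RP p) : PW W (p • P) := by
  induction hP with
  | base hw hq =>
    rw [smul_smul]
    exact PW.base hw (hp.mul hq)
  | add _ _ h1 h2 =>
    rw [smul_add]
    exact h1.add h2

theorem PW.neg (hP : PW W P) : PW W (-P) := by
  simpa using hP.smul rp_one.neg

theorem PW.sub (hP : PW W P) (hQ : PW W Q) : PW W (P - Q) := by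
  exact sub_eq_add_neg P Q ▸ hP.add hQ.neg

theorem PW.sum {I : Type} (t : Finset I) {P : I → MP N} (h : ∀ i ∈ t, PW W (P i)) :
    PW W (∑ i ∈ t, P i) := by
  exact Finset.sum_induction P (PW W) (fun _ _ => PW.add) pw_zero h

theorem PW.mono (h : g ≤ W) (hP : PW g P) : PW W P := by
  induction hP with
  | base hw hq => exact .base (h hw) hq
  | add _ _ h1 h2 => exact h1.add h2

theorem PW.map (hP : PW W P) {L : Py →ₗ[ℂ] Py} (hL : RL L) : PW W (P.map L) := by
  induction hP with
  | base hw hq =>
    rw [map_cst]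
    exact PW.base hw (hL _ hq)
  | add _ _ h1 h2 =>
    rw [Matrix.map_add _ (map_add L)]
    exact h1.add h2

theorem PW.of_Tk {k : ℕ} (hk : 0 < k) (hP : PW W (P.map (Tk k))) : PW W P := by
  have h := hP.map (rl_Ti hk)
  have e : (P.map (Tk k)).map (Ti k) = P := Matrix.ext fun i j => Ti_Tk hk _
  rwa [e] at h

theorem PW.br (h : ∀ X ∈ g, ∀ w ∈ W, X * w - w * X ∈ W) (hP : PW g P) (hQ : PW W Q) :
    PW W (P * Q - Q * P) := by
  induction hP with
  | @base a p ha hp =>
    induction hQ with
    | @base b q hb hq =>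
      have e : p • cst a * q • cst b - q • cst b * p • cst a = (p * q) • cst (a * b - b * a) := by
        simp only [cst_sub, cst_mul, smul_mul_smul_comm, smul_sub, mul_comm q p]
      exact e ▸ PW.base (h a ha b hb) (hp.mul hq)
    | add _ _ h1 h2 =>
      rw [mul_add, add_mul, add_sub_add_comm]
      exact h1.add h2
  | add _ _ h1 h2 =>
    rw [mul_add, add_mul, add_sub_add_comm]
    exact h1.add h2

theorem PW.ev (hP : PW W P) (x : V) : evM x P ∈ W := by
  induction hP with
  | @base a p ha hp =>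
    have e : evM x (p • cst a) = (P267J.ev x p).re • a := by
      ext i j
      simp only [evM, cst, Matrix.map_apply, Matrix.smul_apply, smul_eq_mul, map_mul,
        Complex.real_smul, hp.ev x]
      rw [P267J.ev, eval_C]
    exact e ▸ W.smul_mem _ ha
  | add _ _ h1 h2 =>
    rw [evM, Matrix.map_add _ (map_add _)]
    exact W.add_mem h1 h2

theorem pw_aM (h : ∀ j k, S j k ∈ g) (j : Fin 4) : PW g (aM S j) := by
  exact PW.sum _ fun k _ => .base (h k j) (rp_X k)

theorem pw_sg (h : ∀ j k, S j k ∈ g) : PW g (sg S) := by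
  exact PW.sum _ fun j _ => (pw_aM h j).smul (rp_X j)

theorem pw_uM (hg : g ≤ W) (hE : E ∈ W) (h : ∀ j k, S j k ∈ g) : PW W (uM E S) := by
  exact (pw_cst hE).neg.sub (((pw_sg h).mono hg).smul (rp_inv 2))

end Vale.Agent.P267J.Y
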