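import Vale.Agent.P267J.YD

/-! Real polynomials. cj is a ring hom (map_X, map_C); cj (pderiv j p) = pderiv j (cj p) (pderiv_map); cj (Tk k p) = Tk k (cj p) by a_app; then rl_Ti from Tk_inj, Tk_Ti. RP.ev: conj (ev x p) = ev x (cj p) by induction on p. -/

open scoped ContDiff Topology Matrix.Norms.L2Operator ComplexConjugate
open Filter Matrix MeasureTheory Metric Finset

noncomputable section

namespace Vale.Agent.P267J.Y

open Vale.Agent.P267I Vale.Agent.P267I.H MvPolynomial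

variable {N : ℕ} {W g : Submodule ℝ (Mat N)} {τ : Mat N →L[ℝ] ℝ} {o : Op N} {E : Mat N}
  {S : Fin 4 → Fin 4 → Mat N} {p q : Py} {P Q : MP N} {f f' : V → ℂ} {F F' : V → Mat N}

theorem RP.add (hp : RP p) (hq : RP q) : RP (p + q) := by
  unfold RP at *
  rw [map_add, hp, hq]

theorem RP.mul (hp : RP p) (hq : RP q) : RP (p * q) := by
  unfold RP at *
  rw [map_mul, hp, hq]

theorem RP.neg (hp : RP p) : RP (-p) := by
  unfold RP at *
  rw [map_neg, hp]

theorem RP.sub (hp : RP p) (hq : RP q) : RP (p - q) := by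
  unfold RP at *
  rw [map_sub, hp, hq]

theorem rp_zero : RP 0 := by
  exact map_zero cj

theorem rp_one : RP 1 := by
  exact map_one cj

theorem rp_two : RP 2 := by
  exact map_ofNat cj 2

theorem rp_X (j : Fin 4) : RP (X j) := by
  exact MvPolynomial.map_X _ j

theorem rp_C (a : ℝ) : RP (C (a : ℂ)) := by
  unfold RP cj
  rw [MvPolynomial.map_C, Complex.conj_ofReal]

theorem rp_inv (n : ℕ) [n.AtLeastTwo] : RP (C (OfNat.ofNat n : ℂ)⁻¹) := by
  unfold RP cj
  rw [MvPolynomial.map_C, map_inv₀, map_ofNat]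

theorem RP.sum {I : Type} (t : Finset I) {p : I → Py} (h : ∀ i ∈ t, RP (p i)) : RP (∑ i ∈ t, p i) := by
  unfold RP at *
  rw [map_sum]
  exact Finset.sum_congr rfl h

theorem RP.prod {I : Type} (t : Finset I) {p : I → Py} (h : ∀ i ∈ t, RP (p i)) : RP (∏ i ∈ t, p i) := by
  unfold RP at *
  rw [map_prod]
  exact Finset.prod_congr rfl h

theorem yr_pd (j : Fin 4) (p : Py) : cj (pderiv j p) = pderiv j (cj p) :=
  MvPolynomial.pderiv_map.symm

theorem yr_Tk (k : ℕ) (p : Py) : cj (Tk k p) = Tk k (cj p) := by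
  have h1 : cj (C 2⁻¹) = C 2⁻¹ := rp_inv 2
  have h2 : ∀ i, cj (X i) = X i := rp_X
  have h3 : ∀ q : Py, cj (((k : ℂ) / 2) • q) = ((k : ℂ) / 2) • cj q := fun q => by
    rw [smul_eq_C_mul, smul_eq_C_mul, map_mul]
    congr 1
    unfold cj
    rw [MvPolynomial.map_C, map_div₀, map_natCast, map_ofNat]
  have e : ∀ q : Py, Tk k q = ((k : ℂ) / 2) • q +
      ∑ i, (C 2⁻¹ * X i * pderiv i q - pderiv i (pderiv i q)) := fun q => by
    simp [Tk, LinearMap.sum_apply, mul_assoc]
  rw [e, e, map_add, h3, map_sum]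
  simp only [map_sub, map_mul, h1, h2, yr_pd]

theorem rl_dd (j : Fin 4) : RL (dd j) := by
  intro p hp
  show cj (pderiv j p) = pderiv j p
  rw [yr_pd, hp]

theorem rl_dl (j : Fin 4) : RL (dl j) := by
  intro p hp
  show RP (pderiv j p - C 2⁻¹ * X j * p)
  exact (rl_dd j p hp).sub (((rp_inv 2).mul (rp_X j)).mul hp)

theorem rl_Ti {k : ℕ} (hk : 0 < k) : RL (Ti k) := by
  intro p hp
  refine Tk_inj hk ?_
  rw [← yr_Tk, Tk_Ti hk, hp]

theorem Ti_Tk {k : ℕ} (hk : 0 < k) (p : Py) : Ti k (Tk k p) = p := by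
  exact Tk_inj hk (Tk_Ti hk _)

theorem ev_cj (x : V) (p : Py) : ev x (cj p) = conj (ev x p) := by
  induction p using MvPolynomial.induction_on with
  | C a => simp [cj, ev]
  | add p q hp hq => rw [map_add, map_add, map_add, map_add, hp, hq]
  | mul_X p i hp =>
    rw [map_mul, map_mul, map_mul, map_mul, hp, rp_X i]
    simp [ev]

theorem RP.ev (hp : RP p) (x : V) : ((ev x p).re : ℂ) = ev x p := by
  refine Complex.conj_eq_iff_re.1 ?_
  rw [← ev_cj, hp]

end Vale.Agent.P267J.Y
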