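import Vale.Agent.P267J.YR

/-! Taylor calculus. ev_inj: MvPolynomial.funext_set (infinite sets range ofReal) with x = WithLp.toLp 2 (re). tay_mul: ev_inj, ev_tay, iteratedFDeriv f 0 (fun _ => x) = iteratedDeriv l (fun t : ℝ => f (t • x)) 0 (see the proof of taylor in the file T), iteratedDeriv_mul / iteratedDeriv_fun_mul, Finset.Nat.sum_antidiagonal_eq_sum_range_succ, Nat.add_choose_mul_factorial_mul_factorial. tay_real: ContinuousLinearMap.iteratedFDeriv_comp_left with ofRealCLM. -/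

open scoped ContDiff Topology Matrix.Norms.L2Operator ComplexConjugate
open Filter Matrix MeasureTheory Metric Finset

noncomputable section

namespace Vale.Agent.P267J.Y

open Vale.Agent.P267I Vale.Agent.P267I.H MvPolynomial

variable {N : ℕ} {W g : Submodule ℝ (Mat N)} {τ : Mat N →L[ℝ] ℝ} {o : Op N} {E : Mat N}
  {S : Fin 4 → Fin 4 → Mat N} {p q : Py} {P Q : MP N} {f f' : V → ℂ} {F F' : V → Mat N}

theorem yt_le (l : ℕ) : (l : WithTop ℕ∞) ≤ ∞ := by exact_mod_cast le_top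

theorem ev_inj (h : ∀ x, ev x p = ev x q) : p = q := by
  refine MvPolynomial.funext_set (fun _ => Set.range Complex.ofReal)
    (fun _ => Set.infinite_range_of_injective Complex.ofReal_injective) fun x hx => ?_
  choose y hy using fun i => hx i (Set.mem_univ i)
  have e : x = fun i => (((WithLp.toLp 2 y : V) i : ℝ) : ℂ) := funext fun i => (hy i).symm
  rw [e]
  exact h (WithLp.toLp 2 y)

theorem tay_congr (h : f =ᶠ[𝓝 0] f') (l : ℕ) : tay f l = tay f' l := by
  rw [tay, tay, (h.iteratedFDeriv ℝ l).eq_of_nhds]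

theorem tay_add (hf : ContDiffAt ℝ ∞ f 0) (hf' : ContDiffAt ℝ ∞ f' 0) (l : ℕ) :
    tay (fun z => f z + f' z) l = tay f l + tay f' l := by
  refine ev_inj fun x => ?_
  rw [map_add, ev_tay, ev_tay, ev_tay,
    fun_iteratedFDeriv_add_apply (hf.of_le (yt_le l)) (hf'.of_le (yt_le l)),
    ContinuousMultilinearMap.add_apply, mul_add]

theorem tay_neg (l : ℕ) : tay (fun z => -f z) l = -tay f l := by
  refine ev_inj fun x => ?_
  have e : iteratedFDeriv ℝ l (fun z => -f z) 0 = -iteratedFDeriv ℝ l f 0 :=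
    iteratedFDeriv_neg_apply (f := f)
  rw [map_neg, ev_tay, ev_tay, e, ContinuousMultilinearMap.neg_apply, mul_neg]

theorem tay_sum {I : Type} (t : Finset I) {f : I → V → ℂ} (h : ∀ i ∈ t, ContDiffAt ℝ ∞ (f i) 0)
    (l : ℕ) : tay (fun z => ∑ i ∈ t, f i z) l = ∑ i ∈ t, tay (f i) l := by
  refine ev_inj fun x => ?_
  rw [map_sum, ev_tay, iteratedFDeriv_fun_sum_apply fun i hi => (h i hi).of_le (yt_le l),
    ContinuousMultilinearMap.sum_apply, Finset.mul_sum]
  exact Finset.sum_congr rfl fun i _ => (ev_tay _ _ _).symm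

theorem tay_fzero (l : ℕ) : tay (fun _ => 0) l = 0 := by
  refine ev_inj fun x => ?_
  rw [map_zero, ev_tay, iteratedFDeriv_fun_zero]
  simp

theorem yt_line {l : ℕ} (hf : ContDiffAt ℝ l f 0) (x : V) :
    (iteratedFDeriv ℝ l f 0 fun _ => x) = iteratedDeriv l (fun t : ℝ => f (t • x)) 0 := by
  obtain ⟨u, hu, h0, hc⟩ := hf.contDiffWithinAt.contDiffOn' (s := Set.univ) le_rfl (by simp)
  rw [Set.insert_eq_of_mem (Set.mem_univ _), Set.univ_inter] at hc
  let G : ℝ →L[ℝ] V := ContinuousLinearMap.toSpanSingleton ℝ x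
  have hG : IsOpen (G ⁻¹' u) := hu.preimage G.continuous
  have h1 : G 0 ∈ u := by rwa [map_zero]
  have h2 := G.iteratedFDerivWithin_comp_right hc hu.uniqueDiffOn hG.uniqueDiffOn h1 (i := l) le_rfl
  rw [iteratedFDerivWithin_of_isOpen l hG h1, iteratedFDerivWithin_of_isOpen l hu h1,
    map_zero] at h2
  have h3 : (fun t : ℝ => f (t • x)) = f ∘ G := rfl
  rw [iteratedDeriv_eq_iteratedFDeriv, h3, h2,
    ContinuousMultilinearMap.compContinuousLinearMap_apply]
  simp only [G, ContinuousLinearMap.toSpanSingleton_apply, one_smul]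

theorem yt_cd {l : ℕ} (hf : ContDiffAt ℝ ∞ f 0) (x : V) :
    ContDiffAt ℝ l (fun t : ℝ => f (t • x)) 0 := by
  have h1 : ContDiffAt ℝ l f ((0 : ℝ) • x) := by
    rw [zero_smul]
    exact hf.of_le (yt_le l)
  exact h1.comp 0 (contDiff_id.smul contDiff_const).contDiffAt

theorem tay_mul (hf : ContDiffAt ℝ ∞ f 0) (hf' : ContDiffAt ℝ ∞ f' 0) (l : ℕ) :
    tay (fun z => f z * f' z) l = ∑ a ∈ antidiagonal l, tay f a.1 * tay f' a.2 := by
  refine ev_inj fun x => ?_
  rw [map_sum, ev_tay, yt_line ((hf.mul hf').of_le (yt_le l)),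
    iteratedDeriv_fun_mul (yt_cd hf x) (yt_cd hf' x),
    Finset.Nat.sum_antidiagonal_eq_sum_range_succ_mk, Finset.mul_sum]
  refine Finset.sum_congr rfl fun i hi => ?_
  have hi' : i ≤ l := Nat.lt_succ_iff.1 (mem_range.1 hi)
  rw [map_mul, ev_tay, ev_tay, yt_line (hf.of_le (yt_le i)), yt_line (hf'.of_le (yt_le (l - i)))]
  have h1 : ((l.choose i : ℕ) : ℂ) * (i.factorial : ℂ) * ((l - i).factorial : ℂ) =
      (l.factorial : ℂ) := by
    exact_mod_cast Nat.choose_mul_factorial_mul_factorial hi'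
  have h2 : (i.factorial : ℂ) ≠ 0 := Nat.cast_ne_zero.2 i.factorial_ne_zero
  have h3 : ((l - i).factorial : ℂ) ≠ 0 := Nat.cast_ne_zero.2 (l - i).factorial_ne_zero
  have h4 : ((l.choose i : ℕ) : ℂ) ≠ 0 := Nat.cast_ne_zero.2 (Nat.choose_pos hi').ne'
  dsimp only
  rw [← h1]
  field_simp

theorem tay_one (f : V → ℂ) : tay f 1 = ∑ j, X j * C (pd j f 0) := by
  rw [tay, ← (Equiv.funUnique (Fin 1) (Fin 4)).symm.sum_comp]
  refine Finset.sum_congr rfl fun j _ => ?_
  simp [pd, mul_comm]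

theorem tay_real {u : V → ℝ} (hu : ContDiffAt ℝ ∞ u 0) (l : ℕ) : RP (tay (fun z => (u z : ℂ)) l) := by
  have e : iteratedFDeriv ℝ l (fun z => (u z : ℂ)) 0 =
      Complex.ofRealCLM.compContinuousMultilinearMap (iteratedFDeriv ℝ l u 0) :=
    Complex.ofRealCLM.iteratedFDeriv_comp_left hu (yt_le l)
  rw [tay]
  refine RP.sum _ fun i _ => RP.mul ?_ (RP.prod _ fun k _ => rp_X _)
  have h1 := rp_C (((l.factorial : ℝ))⁻¹ *
    iteratedFDeriv ℝ l u 0 fun k => EuclideanSpace.single (i k) 1)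
  rw [Complex.ofReal_mul, Complex.ofReal_inv, Complex.ofReal_natCast] at h1
  rw [e]
  exact h1

end Vale.Agent.P267J.Y
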