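import Vale.Agent.P267J.YT
import Vale.Agent.P267J.YP

/-! Taylor calculus for matrices: entrywise from YT (Matrix.ext, mul_apply, sum_apply, sum_comm). -/

open scoped ContDiff Topology Matrix.Norms.L2Operator ComplexConjugate
open Filter Matrix MeasureTheory Metric Finset

noncomputable section

namespace Vale.Agent.P267J.Y

open Vale.Agent.P267I Vale.Agent.P267I.H MvPolynomial

variable {N : ℕ} {W g : Submodule ℝ (Mat N)} {τ : Mat N →L[ℝ] ℝ} {o : Op N} {E : Mat N}
  {S : Fin 4 → Fin 4 → Mat N} {p q : Py} {P Q : MP N} {f f' : V → ℂ} {F F' : V → Mat N}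

theorem SmM.add (h : SmM F) (h' : SmM F') : SmM fun z => F z + F' z := by
  exact fun i m => (h i m).add (h' i m)

theorem SmM.neg (h : SmM F) : SmM fun z => -F z := by
  exact fun i m => (h i m).neg

theorem SmM.mul (h : SmM F) (h' : SmM F') : SmM fun z => F z * F' z := by
  intro i m
  simp only [Matrix.mul_apply]
  exact ContDiffAt.sum fun j _ => (h i j).mul (h' j m)

theorem SmM.smul (hf : ContDiffAt ℝ ∞ f 0) (h : SmM F) : SmM fun z => f z • F z := by
  exact fun i m => hf.mul (h i m)

theorem SmM.sum {I : Type} (t : Finset I) {F : I → V → Mat N} (h : ∀ i ∈ t, SmM (F i)) :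
    SmM fun z => ∑ i ∈ t, F i z := by
  intro i m
  simp only [Matrix.sum_apply]
  exact ContDiffAt.sum fun j hj => h j hj i m

theorem SmM.pdM (h : SmM F) (j : Fin 4) : SmM (pdM j F) := by
  exact fun i m => ((h i m).fderiv_right (m := ∞) le_rfl).clm_apply contDiffAt_const

theorem smM_const (w : Mat N) : SmM fun _ => w := by
  exact fun _ _ => contDiffAt_const

theorem tayM_add (h : SmM F) (h' : SmM F') (l : ℕ) :
    tayM (fun z => F z + F' z) l = tayM F l + tayM F' l := by
  exact Matrix.ext fun i m => tay_add (h i m) (h' i m) l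

theorem tayM_neg (l : ℕ) : tayM (fun z => -F z) l = -tayM F l := by
  exact Matrix.ext fun i m => tay_neg (f := fun z => F z i m) l

theorem tayM_sum {I : Type} (t : Finset I) {F : I → V → Mat N} (h : ∀ i ∈ t, SmM (F i)) (l : ℕ) :
    tayM (fun z => ∑ i ∈ t, F i z) l = ∑ i ∈ t, tayM (F i) l := by
  refine Matrix.ext fun i m => ?_
  simp only [tayM, of_apply, Matrix.sum_apply]
  exact tay_sum t (fun j hj => h j hj i m) l

theorem tayM_mul (h : SmM F) (h' : SmM F') (l : ℕ) :
    tayM (fun z => F z * F' z) l = ∑ a ∈ antidiagonal l, tayM F a.1 * tayM F' a.2 := by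
  refine Matrix.ext fun i m => ?_
  simp only [tayM, of_apply, Matrix.sum_apply, Matrix.mul_apply]
  rw [tay_sum _ (fun j _ => (h i j).mul (h' j m)) l, Finset.sum_comm]
  exact Finset.sum_congr rfl fun j _ => tay_mul (h i j) (h' j m) l

theorem tayM_smul (hf : ContDiffAt ℝ ∞ f 0) (h : SmM F) (l : ℕ) :
    tayM (fun z => f z • F z) l = ∑ a ∈ antidiagonal l, tay f a.1 • tayM F a.2 := by
  refine Matrix.ext fun i m => ?_
  simp only [tayM, of_apply, Matrix.sum_apply, Matrix.smul_apply, smul_eq_mul]
  exact tay_mul hf (h i m) l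

theorem tayM_id (f : V → ℂ) (l : ℕ) :
    tayM (fun z => f z • (1 : Mat N)) l = tay f l • (1 : MP N) := by
  refine Matrix.ext fun i m => ?_
  simp only [tayM, of_apply, Matrix.smul_apply, smul_eq_mul, Matrix.one_apply]
  split_ifs
  · simp only [mul_one]
  · simp only [mul_zero, tay_fzero]

theorem tayM_zero (F : V → Mat N) : tayM F 0 = cst (F 0) := by
  refine Matrix.ext fun i m => ?_
  simp [tayM, cst, tay]

theorem tayM_one (F : V → Mat N) : tayM F 1 = ∑ k, (X k : Py) • cst (pdM k F 0) := by
  refine Matrix.ext fun i m => ?_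
  simp only [tayM, of_apply, Matrix.sum_apply, Matrix.smul_apply, smul_eq_mul, tay_one]
  rfl

end Vale.Agent.P267J.Y
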